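import Vale.Agent.P328.Defs

/-! The sampler as a pure function: a lazy multi-scale `2 × 2` switch chain driven by coins. -/

namespace Vale.Agent.P328

variable {m n : ℕ}

/-- The matrix with entry `h` at `(i, j)` and zero elsewhere. -/
def unit (i : Fin m) (j : Fin n) (h : ℕ) : Fin m → Fin n → ℕ :=
  fun a b => if a = i ∧ b = j then h else 0

/-- The switch of size `h`: add `h` at `(i, J)`, `(i', K)`, remove `h` at `(i, K)`, `(i', J)`,
when this is possible; otherwise stay. -/
def sw (h : ℕ) (i i' : Fin m) (J K : Fin n) (X : Fin m → Fin n → ℕ) : Fin m → Fin n → ℕ :=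
  if i ≠ i' ∧ J ≠ K ∧ h ≤ X i K ∧ h ≤ X i' J then
    X + unit i J h + unit i' K h - unit i K h - unit i' J h
  else X

/-- A number below `q` read from a list of coins. -/
def pick (q : ℕ) (l : List Bool) : ℕ := l.foldl (fun v b => (2 * v + b.toNat) % q) 0

/-- The switch with indices given as natural numbers; out of range means stay. -/
def swN (s i i' J K : ℕ) (X : Fin m → Fin n → ℕ) : Fin m → Fin n → ℕ :=
  if h : i < m ∧ i' < m ∧ J < n ∧ K < n then
    sw (2 ^ s) ⟨i, h.1⟩ ⟨i', h.2.1⟩ ⟨J, h.2.2.1⟩ ⟨K, h.2.2.2⟩ X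
  else X

/-- One step of the chain, from a block of `5 q + 1` coins; the last coin says whether to move. -/
def step (q : ℕ) (X : Fin m → Fin n → ℕ) (l : List Bool) : Fin m → Fin n → ℕ :=
  if l.getD (5 * q) false then
    swN (pick q (l.take q)) (pick q ((l.drop q).take q)) (pick q ((l.drop (2 * q)).take q))
      (pick q ((l.drop (3 * q)).take q)) (pick q ((l.drop (4 * q)).take q)) X
  else X

/-- Run `t` steps, reading blocks of `5 q + 1` coins (missing coins mean stay). -/
def runN (q : ℕ) : ℕ → (Fin m → Fin n → ℕ) → List Bool → (Fin m → Fin n → ℕ)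
  | 0, X, _ => X
  | t + 1, X, l => runN q t (step q X (l.take (5 * q + 1))) (l.drop (5 * q + 1))

/-- Sum of the first `a` entries of `r`. -/
def pre (r : Fin m → ℕ) (a : ℕ) : ℕ := ((List.ofFn r).take a).sum

/-- The north-west corner table. -/
def start (r : Fin m → ℕ) (c : Fin n → ℕ) : Fin m → Fin n → ℕ :=
  fun i j => min (pre r (i + 1)) (pre c (j + 1)) - max (pre r i) (pre c j)

/-- The output of the sampler. -/
def out (x : Input) : Fin x.m → Fin x.n → ℕ :=
  runN (encInst x.r x.c x.k).length x.coins.length (start x.r x.c) x.coins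

end Vale.Agent.P328
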