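import Vale.Agent.P328.Row2

/-! Peeling a column: averaging steps and feasibility. -/

namespace Vale.Agent.P328

open Finset

variable {m n : ℕ}

lemma sum_Dn_shift (r : V m) (σ : ℤ) (i : Fin m) (F : V m → ℝ) :
    ∑ u ∈ Dn r (σ - 1), F (u + e i) = ∑ w ∈ Dn (r + e i) σ, F w := by
  refine (sum_shift (e i) fun x _ => ?_).symm
  simp only [mem_Dn, add_le_add_iff_right, tot_add, tot_e, eq_sub_iff_add_eq]

lemma sum_Dn_ind (r : V m) (σ : ℤ) (i : Fin m) (F : V m → ℝ) :
    ∑ u ∈ Dn r (σ - 1), ind (u + e i ≤ r) * F (u + e i) = ∑ w ∈ Dn r σ, F w := by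
  rw [sum_Dn_shift r σ i fun w => ind (w ≤ r) * F w, sum_supp (B := Dn r σ)]
  · exact sum_congr rfl fun w hw => by rw [ind_pos (mem_Dn.1 hw).1, one_mul]
  · intro w hw
    have h := ind_ne (left_ne_zero_of_mul hw)
    simp only [mem_Dn, h, true_and, and_iff_right_iff_imp]
    exact fun _ => h.trans (le_add_of_nonneg_right (e_nonneg i))

lemma S_tot {w : V m} {c : V n} (h : S w c ≠ 0) : tot w = tot c := by
  obtain ⟨X, hX⟩ := S_ne.1 h; exact Tab_tot hX

lemma S_pos {w : V m} {c : V n} (h : S w c ≠ 0) : 0 ≤ w := by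
  obtain ⟨X, hX⟩ := S_ne.1 h; exact Tab_nonneg hX

lemma S_ne_of_K {w l : V m} {c : V n} (h1 : K m l w ≠ 0) (h2 : kap n c l ≠ 0) : S w c ≠ 0 := by
  rw [S_eq]
  intro h0
  have h3 := kap_supp h2
  exact mul_ne_zero h1 h2 ((sum_eq_zero_iff_of_nonneg fun _ _ =>
    mul_nonneg (K_nonneg _ _) (kap_nonneg _ _)).1 h0 l (mem_Lev.2 ⟨ge_of_nonneg h3.1, h3.2.1⟩))

lemma Tab_add {w : V m} {c : V n} {X : Fin n → V m} (hX : X ∈ Tab w c) (J : Fin n) (x : V m)
    (h : 0 ≤ X J + x) : X + Pi.single J x ∈ Tab (w + x) (c + Pi.single J (tot x)) := by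
  rw [mem_Tab] at hX ⊢
  refine ⟨fun K => ?_, by simp [sum_add_distrib, hX.2.1], fun K => ?_⟩
  · by_cases hK : K = J
    · subst hK; simpa using h
    · simpa [hK] using hX.1 K
  · by_cases hK : K = J
    · subst hK; simp [hX.2.2]
    · simp [hK, hX.2.2]

lemma S_add {u : V m} {c : V n} {J : Fin n} (h : S u (c - e J) ≠ 0) (i : Fin m) :
    S (u + e i) c ≠ 0 := by
  obtain ⟨X, hX⟩ := S_ne.1 h
  have := Tab_add hX J (e i) (add_nonneg ((mem_Tab.1 hX).1 J) (e_nonneg i))
  rw [tot_e] at this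
  exact S_ne.2 ⟨_, by simpa [e] using this⟩

lemma S_move {w : V m} {c : V n} (h : S w c ≠ 0) {i : Fin m} (hi : 0 < w i) (k : Fin m) :
    S (w - e i + e k) c ≠ 0 := by
  obtain ⟨X, hX⟩ := S_ne.1 h
  have h1 : ∃ J, 0 < X J i := by
    by_contra h2
    push Not at h2
    have : w i = ∑ J, X J i := by rw [← (mem_Tab.1 hX).2.1, Finset.sum_apply]
    have := sum_nonpos fun J (_ : J ∈ univ) => h2 J
    omega
  obtain ⟨J, hJ⟩ := h1
  have := Tab_add hX J (- e i + e k) fun a => by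
    have : 0 ≤ X J a := (mem_Tab.1 hX).1 J a
    have := e_nonneg k a
    have := e_cases i a (X J) 0
    simp only [Pi.add_apply, Pi.neg_apply, Pi.zero_apply] at *
    omega
  rw [show tot (- e i + e k) = 0 by rw [neg_add_eq_sub]; simp] at this
  exact S_ne.2 ⟨_, by simpa [sub_eq_add_neg, add_assoc] using this⟩

section
variable (r : V m) (c : V n) (g : Fin n → ℝ) (g0 : ℝ) (t : Fin m → ℝ)

def SA (s : V m → Fin m → ℝ) : Prop := ∀ w, w ≤ r → S w c * ∑ i, s w i = S w c * g0

noncomputable def tr (s : V m → Fin m → ℝ) (u : V m) (i : Fin m) : ℝ :=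
  t i - ind (u + e i ≤ r) * s (u + e i) i

def SC (s : V m → Fin m → ℝ) : Prop :=
  ∀ u, u ≤ r → ∑ J, g J * S u (c - e J) = ∑ i, tr r t s u i * S (u + e i) c

def LL (v : V m → Fin m → ℝ) : Prop := ∀ l, (∀ j, -1 ≤ l j) →
  N l r * ∑ j, kap n c (l + e j) * v l j = N l r * ∑ J, g J * kap n (c - e J) l

def LU (v : V m → Fin m → ℝ) : Prop :=
  ∀ Λ, kap n c Λ ≠ 0 → Bal Λ r (fun j => v (Λ - e j) j) g0 t

noncomputable def EL (v : V m → Fin m → ℝ) : ℝ :=
  ∑ l ∈ Lev m (tot c - 1), N l r * ∑ j, kap n c (l + e j) * v l j ^ 2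

end

variable {r : V m} {c : V n} {g : Fin n → ℝ} {g0 : ℝ} {t : Fin m → ℝ}

theorem col_one (hsub : ∀ u : V m, D u c) {s : V m → Fin m → ℝ} (hA : SA r c g0 s)
    (hC : SC r c g t s) : ∃ (G : V m → Fin m → Fin n → (Fin n → V m) → ℝ) (v : V m → Fin m → ℝ),
      (∀ u, u ≤ r → X1 u c g (G u) ∧ X2 u c (tr r t s u) (G u)) ∧ LL r c g v ∧ LU r c g0 t v ∧
      ∑ u ∈ Dn r (tot c - 1), EX u c (G u) + EL r c v ≤
        ∑ u ∈ Dn r (tot c - 1), ∑ J, g J ^ 2 * S u (c - e J) +
        ∑ i, t i ^ 2 * ∑ w ∈ Dn (r + e i) (tot c), S w c +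
        ∑ w ∈ Dn r (tot c), S w c * ∑ i, (s w i ^ 2 - 2 * t i * s w i) := by
  have hex := fun u (hu : u ≤ r) => hsub u g (tr r t s u) (hC u hu)
  choose! G vu h1 h2 h3 h4 h5 using hex
  let A := Dn r (tot c - 1)
  let v : V m → Fin m → ℝ := fun l j => avg A (fun u => K m l u) fun u => vu u l j
  have v1 : ∀ l j, tot l = tot c - 1 → N l r * v l j = ∑ u ∈ A, K m l u * vu u l j :=
    fun l j hl => by rw [N, hl]; exact avg_mul _ _ fun _ _ => K_nonneg _ _
  refine ⟨G, v, fun u hu => ⟨h1 u hu, h2 u hu⟩, fun l hl => ?_, fun Λ hΛ => ?_, ?_⟩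
  · by_cases ht : tot l = tot c - 1
    · rw [mul_sum, sum_congr rfl fun j _ => by rw [mul_left_comm, v1 l j ht, mul_sum], sum_comm,
        N, ht, sum_mul]
      refine sum_congr rfl fun u hu => ?_
      rw [← h3 u (mem_Dn.1 hu).1 l hl, mul_sum]
      exact sum_congr rfl fun j _ => by ring
    · rw [sum_eq_zero fun j _ => ?_, sum_eq_zero fun j _ => ?_]
      · by_contra h
        have := (kap_supp (right_ne_zero_of_mul h)).2.1
        simp at this; omega
      · by_contra h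
        have := (kap_supp (left_ne_zero_of_mul h)).2.1
        simp at this; omega
  · have ht := (kap_supp hΛ).2.1
    rw [Bal, sum_congr rfl fun j _ => v1 _ j (by simp [ht]), sum_comm,
      sum_congr rfl fun u hu => mul_left_cancel₀ hΛ (h4 u (mem_Dn.1 hu).1 Λ), sum_comm]
    have a1 : ∀ i, ∑ u ∈ A, tr r t s u i * K m Λ (u + e i) =
        t i * N Λ (r + e i) - ∑ w ∈ Dn r (tot c), K m Λ w * s w i := by
      intro i
      rw [N, ht, ← sum_Dn_shift, ← sum_Dn_ind r (tot c) i, mul_sum, ← sum_sub_distrib]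
      exact sum_congr rfl fun u _ => by rw [tr]; ring
    have a2 : ∑ i, ∑ w ∈ Dn r (tot c), K m Λ w * s w i = g0 * N Λ r := by
      rw [sum_comm, N, ht, mul_sum]
      refine sum_congr rfl fun w hw => ?_
      rw [← mul_sum, mul_comm g0]
      exact mul_congr_ne fun hK => mul_left_cancel₀ (S_ne_of_K hK hΛ) (hA w (mem_Dn.1 hw).1)
    rw [sum_congr rfl fun i _ => a1 i, sum_sub_distrib, a2]
    ring
  · have a1 : EL r c v ≤ ∑ u ∈ A, EY u c (vu u) := by
      rw [sum_congr rfl fun u hu => by rw [EY, (mem_Dn.1 hu).2], sum_comm]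
      refine sum_le_sum fun l hl => ?_
      simp only [mul_sum]
      rw [sum_comm]
      refine sum_le_sum fun j _ => ?_
      have := mul_le_mul_of_nonneg_left (avg_sq A (w := fun u => K m l u) (fun u => vu u l j)
        fun _ _ => K_nonneg _ _) (kap_nonneg c (l + e j))
      rw [mul_sum] at this
      rw [N, (mem_Lev.1 hl).2]
      refine le_of_eq_of_le (by ring) (this.trans_eq ?_)
      exact sum_congr rfl fun u _ => by ring
    have a2 : ∑ u ∈ A, ∑ i, tr r t s u i ^ 2 * S (u + e i) c =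
        ∑ i, t i ^ 2 * ∑ w ∈ Dn (r + e i) (tot c), S w c +
        ∑ w ∈ Dn r (tot c), S w c * ∑ i, (s w i ^ 2 - 2 * t i * s w i) := by
      simp only [mul_sum]
      rw [sum_comm, sum_comm (s := Dn r (tot c)), ← sum_add_distrib]
      refine sum_congr rfl fun i _ => ?_
      rw [← sum_Dn_shift, ← sum_Dn_ind r (tot c) i, ← sum_add_distrib]
      refine sum_congr rfl fun u _ => ?_
      rw [tr]
      unfold ind
      split_ifs <;> ring
    rw [add_assoc, ← a2, ← sum_add_distrib]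
    refine (add_le_add le_rfl a1).trans ?_
    rw [← sum_add_distrib]
    exact sum_le_sum fun u hu => h5 u (mem_Dn.1 hu).1

theorem col_avg {v : V m → Fin m → ℝ} (hL : LL r c g v) (sk : V m → V m → Fin m → ℝ)
    (h1 : ∀ Λ, kap n c Λ ≠ 0 → P1 Λ r g0 (sk Λ))
    (h2 : ∀ Λ, kap n c Λ ≠ 0 → P2 Λ r (fun j => v (Λ - e j) j) t (sk Λ)) :
    ∃ s, SA r c g0 s ∧ SC r c g t s ∧ ∀ (p : ℝ) (q : Fin m → ℝ), 0 ≤ p →
      ∑ w ∈ Dn r (tot c), S w c * ∑ i, (p * s w i ^ 2 - q i * s w i) ≤
      ∑ Λ ∈ Lev m (tot c), kap n c Λ * ∑ w ∈ Dn r (tot Λ), K m Λ w *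
        ∑ i, (p * sk Λ w i ^ 2 - q i * sk Λ w i) := by
  let A := Lev m (tot c)
  let ω : V m → V m → ℝ := fun w Λ => K m Λ w * kap n c Λ
  have hω : ∀ w, ∀ Λ ∈ A, 0 ≤ ω w Λ := fun _ _ _ => mul_nonneg (K_nonneg _ _) (kap_nonneg _ _)
  let s : V m → Fin m → ℝ := fun w i => avg A (ω w) fun Λ => sk Λ w i
  have s1 : ∀ w i, S w c * s w i = ∑ Λ ∈ A, ω w Λ * sk Λ w i :=
    fun w i => by rw [S_eq]; exact avg_mul _ _ (hω w)
  refine ⟨s, fun w hw => ?_, fun u hu => ?_, fun p q hp => ?_⟩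
  · rw [mul_sum, sum_congr rfl fun i _ => s1 w i, sum_comm, S_eq, sum_mul]
    refine sum_congr rfl fun Λ _ => ?_
    simp only [ω, mul_comm (K m Λ w) (kap n c Λ), mul_assoc, ← mul_sum]
    exact mul_congr_ne fun h => h1 Λ h w hw
  · have a1 : ∀ i, tr r t s u i * S (u + e i) c = ∑ Λ ∈ A, kap n c Λ *
        (K m Λ (u + e i) * (t i - ind (u + e i ≤ r) * sk Λ (u + e i) i)) := by
      intro i
      rw [tr, sub_mul, mul_assoc, mul_comm (s _ _), s1, S_eq, mul_sum, mul_sum, ← sum_sub_distrib]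
      exact sum_congr rfl fun Λ _ => by simp only [ω]; ring
    symm
    rw [sum_congr rfl fun i _ => a1 i, sum_comm, sum_congr rfl fun Λ _ => by
      rw [← mul_sum, mul_congr_ne fun h => h2 Λ h u hu, mul_sum], sum_comm]
    have a2 : ∀ j, ∑ Λ ∈ A, kap n c Λ * (K m (Λ - e j) u * v (Λ - e j) j) =
        ∑ l ∈ Lev m (tot c - 1), K m l u * (kap n c (l + e j) * v l j) := by
      intro j
      have := sum_Lev_shift j (tot c - 1) (fun Λ => kap n c Λ * (K m (Λ - e j) u * v (Λ - e j) j))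
        fun ν h => (kap_supp (left_ne_zero_of_mul h)).1
      rw [sub_add_cancel] at this
      rw [this]
      exact sum_congr rfl fun l _ => by rw [add_sub_cancel_right]; ring
    rw [sum_congr rfl fun j _ => a2 j, sum_comm]
    symm
    simp only [S_eq, tot_sub, tot_e, mul_sum]
    rw [sum_comm]
    refine sum_congr rfl fun l hl => ?_
    simp only [mul_left_comm (g _), ← mul_sum]
    exact mul_congr_ne fun hK => (mul_left_cancel₀ (N_ne hu hK) (hL l (mem_Lev.1 hl).1)).symm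
  · rw [sum_congr rfl fun Λ (hΛ : Λ ∈ A) => by rw [(mem_Lev.1 hΛ).2, mul_sum], sum_comm]
    refine sum_le_sum fun w _ => ?_
    simp only [mul_sum]
    rw [sum_comm]
    refine sum_le_sum fun i _ => ?_
    rw [S_eq]
    refine (avg_quad A _ (hω w) hp _).trans_eq ?_
    exact sum_congr rfl fun Λ _ => by simp only [ω]; ring

lemma conn2 (x y : V m → ℝ) (h0 : 0 ≤ r)
    (E : ∀ w i, w ≤ r → S w c ≠ 0 → x w = y (w - e i)) :
    ∃ z, (∀ w, w ≤ r → S w c ≠ 0 → x w = z) ∧ ∀ u, u ≤ r →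
      ((∃ J, S u (c - e J) ≠ 0) ∨ ∃ i, S (u + e i) c ≠ 0) → y u = z := by
  have key : ∀ k : ℕ, ∀ w w', w ≤ r → S w c ≠ 0 → w' ≤ r → S w' c ≠ 0 →
      ∑ i, max (w i - w' i) 0 < k → x w = x w' := by
    intro k
    induction k with
    | zero =>
      intro w w' _ _ _ _ h
      have : 0 ≤ ∑ i, max (w i - w' i) 0 := sum_nonneg fun _ _ => le_max_right _ _
      omega
    | succ k ih =>
      intro w w' h1 h2 h3 h4 h
      have ht : tot w = tot w' := (S_tot h2).trans (S_tot h4).symm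
      by_cases hle : w ≤ w'
      · rw [eq_of_le_of_tot hle ht.ge]
      by_cases hge : w' ≤ w
      · rw [eq_of_le_of_tot hge ht.le]
      simp only [Pi.le_def, not_forall, not_le] at hle hge
      obtain ⟨i, hi⟩ := hle
      obtain ⟨j, hj⟩ := hge
      have hij : i ≠ j := by rintro rfl; omega
      have h5 := S_move h2 (lt_of_le_of_lt (S_pos h4 i) hi) j
      have h6 : w - e i + e j ≤ r := fun a => by
        have : w a ≤ r a := h1 a
        have : w' j ≤ r j := h3 j
        have := e_nonneg i a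
        have := e_cases j a w r
        simp only [Pi.add_apply, Pi.sub_apply]; omega
      rw [E w i h1 h2, ← ih _ _ h6 h5 h3 h4 ?_, E _ j h6 h5, add_sub_cancel_right]
      have : ∑ a, max ((w - e i + e j) a - w' a) 0 < ∑ a, max (w a - w' a) 0 := by
        refine sum_lt_sum (fun a _ => ?_) ⟨i, mem_univ _, ?_⟩
        · have := e_nonneg i a
          have := e_cases j a w w'
          simp only [Pi.add_apply, Pi.sub_apply]; omega
        · simp only [Pi.add_apply, Pi.sub_apply, e_self, e_ne hij]; omega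
      omega
  have iso : ∀ u, u ≤ r → ((∃ J, S u (c - e J) ≠ 0) ∨ ∃ i, S (u + e i) c ≠ 0) →
      u = r ∨ ∃ i, u + e i ≤ r ∧ S (u + e i) c ≠ 0 := by
    intro u hu h
    by_cases hur : r ≤ u
    · exact Or.inl (le_antisymm hu hur)
    simp only [Pi.le_def, not_forall, not_le] at hur
    obtain ⟨k, hk⟩ := hur
    have up : ∀ i, u i < r i → u + e i ≤ r := fun i hi a => by
      have : u a ≤ r a := hu a
      have := e_cases i a u r
      simp only [Pi.add_apply]; omega
    rcases h with ⟨J, hJ⟩ | ⟨i, hi⟩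
    · exact Or.inr ⟨k, up k hk, S_add hJ k⟩
    · by_cases h1 : u i < r i
      · exact Or.inr ⟨i, up i h1, hi⟩
      · refine Or.inr ⟨k, up k hk, ?_⟩
        have := S_move hi (i := i) (by
          have : 0 ≤ r i := h0 i
          simp only [Pi.add_apply, e_self]; omega) k
        rwa [add_sub_cancel_right] at this
  by_cases h : ∃ w, w ≤ r ∧ S w c ≠ 0
  · obtain ⟨w', h3, h4⟩ := h
    have hz : ∀ w, w ≤ r → S w c ≠ 0 → x w = x w' := fun w h1 h2 =>
      key ((∑ i, max (w i - w' i) 0).toNat + 1) w w' h1 h2 h3 h4 (by omega)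
    refine ⟨x w', hz, fun u hu h => ?_⟩
    rcases iso u hu h with rfl | ⟨i, h5, h6⟩
    · have a1 := tot_mono h3
      have a2 := S_tot h4
      rcases h with ⟨J, hJ⟩ | ⟨i, hi⟩
      · have := S_tot hJ
        simp at this; omega
      · have := S_tot hi
        simp at this; omega
    · rw [← hz _ h5 h6, E _ i h5 h6, add_sub_cancel_right]
  · refine ⟨y r, fun w h1 h2 => absurd ⟨w, h1, h2⟩ h, fun u hu h' => ?_⟩
    rcases iso u hu h' with rfl | ⟨i, h5, h6⟩
    · rfl
    · exact absurd ⟨_, h5, h6⟩ h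

theorem col_feas (bal : ∑ u ∈ Dn r (tot c - 1), ∑ J, g J * S u (c - e J) +
    g0 * ∑ w ∈ Dn r (tot c), S w c = ∑ i, t i * ∑ w ∈ Dn (r + e i) (tot c), S w c) :
    ∃ s, SA r c g0 s ∧ SC r c g t s := by
  classical
  by_cases h0 : 0 ≤ r
  swap
  · simp only [Pi.le_def, not_forall, not_le, Pi.zero_apply] at h0
    obtain ⟨k, hk⟩ := h0
    have z1 : ∀ {n : ℕ} (c : V n) w, w ≤ r → S w c = 0 := fun c w hw => by
      by_contra h
      have : 0 ≤ w k := S_pos h k
      have : w k ≤ r k := hw k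
      omega
    have z2 : ∀ u i, u ≤ r → i ≠ k → S (u + e i) c = 0 := fun u i hu hi => by
      by_contra h
      have : 0 ≤ (u + e i) k := S_pos h k
      have : u k ≤ r k := hu k
      simp only [Pi.add_apply, e_ne hi.symm] at *
      omega
    refine ⟨0, fun w hw => by simp [z1 c w hw], fun u hu => ?_⟩
    rw [sum_eq_zero fun u hu => sum_eq_zero fun J _ => by rw [z1 _ u (mem_Dn.1 hu).1, mul_zero],
      sum_eq_zero fun w hw => z1 _ w (mem_Dn.1 hw).1, sum_eq_single k (fun i _ hi => by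
        rw [← sum_Dn_shift r _ i fun w => S w c,
          sum_eq_zero fun u hu => z2 u i (mem_Dn.1 hu).1 hi, mul_zero]) (by simp)] at bal
    rw [sum_eq_zero fun J _ => by rw [z1 _ u hu, mul_zero], sum_eq_single k (fun i _ hi => by
      rw [z2 u i hu hi, mul_zero]) (by simp)]
    by_cases h : S (u + e k) c = 0
    · rw [h, mul_zero]
    have : 0 < ∑ w ∈ Dn (r + e k) (tot c), S w c := sum_pos' (fun _ _ => S_nonneg _ _)
      ⟨u + e k, mem_Dn.2 ⟨add_le_add_left hu _, S_tot h⟩, (S_nonneg _ _).lt_of_ne' h⟩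
    have ht : t k = 0 := by
      simp only [mul_zero, add_zero, zero_eq_mul] at bal
      exact bal.resolve_right this.ne'
    simp [tr, ht]
  let L : V m ⊕ V m → (V m → Fin m → ℝ) →ₗ[ℝ] ℝ := fun a =>
    match a with
    | Sum.inl w =>
      { toFun := fun s => S w c * ∑ i, s w i
        map_add' := fun p q => by simp [mul_add, sum_add_distrib]
        map_smul' := fun a p => by simp [mul_left_comm _ a, ← mul_sum] }
    | Sum.inr u =>
      { toFun := fun s => ∑ i, ind (u + e i ≤ r) * (S (u + e i) c * s (u + e i) i)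
        map_add' := fun p q => by simp [mul_add, sum_add_distrib]
        map_smul' := fun a p => by simp [mul_left_comm _ a, ← mul_sum] }
  let dd : V m ⊕ V m → ℝ := fun a =>
    match a with
    | Sum.inl w => S w c * g0
    | Sum.inr u => ∑ i, t i * S (u + e i) c - ∑ J, g J * S u (c - e J)
  obtain ⟨s, hs⟩ := fredholm ((Dn r (tot c)).disjSum (Dn r (tot c - 1))) L dd (by
    intro γ hγ
    let c1 : V m → Fin m → ℝ := fun w i => S w c * (γ (Sum.inl w) + γ (Sum.inr (w - e i)))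
    have h1 : ∀ s : V m → Fin m → ℝ, ∑ a ∈ (Dn r (tot c)).disjSum (Dn r (tot c - 1)),
        γ a * L a s = ∑ w ∈ Dn r (tot c), ∑ i, c1 w i * s w i := by
      intro s
      simp only [sum_disjSum, L, LinearMap.coe_mk, AddHom.coe_mk, mul_sum]
      rw [sum_comm, sum_comm (s := Dn r (tot c - 1)), sum_comm (s := Dn r (tot c)),
        ← sum_add_distrib]
      refine sum_congr rfl fun i _ => ?_
      rw [sum_congr rfl fun u _ => (by rw [add_sub_cancel_right]; ring : γ (Sum.inr u) *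
        (ind (u + e i ≤ r) * (S (u + e i) c * s (u + e i) i)) = ind (u + e i ≤ r) *
          (γ (Sum.inr (u + e i - e i)) * (S (u + e i) c * s (u + e i) i))),
        sum_Dn_ind r _ i fun w => γ (Sum.inr (w - e i)) * (S w c * s w i), ← sum_add_distrib]
      exact sum_congr rfl fun w _ => by simp only [c1]; ring
    have h2 := hγ c1
    rw [h1] at h2
    obtain ⟨z, z1, z2⟩ := conn2 (c := c) (fun w => γ (Sum.inl w)) (fun u => - γ (Sum.inr u)) h0
      fun w i a1 a2 => by
        have := (sum_eq_zero_iff_of_nonneg fun _ _ => mul_self_nonneg _).1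
          ((sum_eq_zero_iff_of_nonneg fun _ _ => sum_nonneg fun _ _ => mul_self_nonneg _).1 h2 w
            (mem_Dn.2 ⟨a1, S_tot a2⟩)) i (mem_univ _)
        rw [mul_self_eq_zero] at this
        simp only [c1, mul_eq_zero] at this
        linarith [this.resolve_left a2]
    have b1 : ∀ w ∈ Dn r (tot c), γ (Sum.inl w) * dd (Sum.inl w) = z * dd (Sum.inl w) := by
      intro w hw
      rw [mul_comm, mul_comm z]
      exact mul_congr_ne fun h => z1 w (mem_Dn.1 hw).1 (left_ne_zero_of_mul h)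
    have b2 : ∀ u ∈ Dn r (tot c - 1), γ (Sum.inr u) * dd (Sum.inr u) = - z * dd (Sum.inr u) := by
      intro u hu
      rw [mul_comm, mul_comm (-z)]
      refine mul_congr_ne fun h => ?_
      rw [← z2 u (mem_Dn.1 hu).1 ?_, neg_neg]
      by_contra h'
      push Not at h'
      simp [dd, h'.1, h'.2] at h
    rw [sum_disjSum, sum_congr rfl b1, sum_congr rfl b2, ← mul_sum, ← mul_sum]
    simp only [dd, sum_sub_distrib, ← sum_mul]
    rw [sum_comm]
    simp only [← mul_sum, fun i => sum_Dn_shift r (tot c) i fun w => S w c]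
    linear_combination z * bal)
  refine ⟨s, fun w hw => ?_, fun u hu => ?_⟩
  · exact mul_congr_ne fun h => mul_left_cancel₀ h
      (hs (Sum.inl w) (inl_mem_disjSum.2 (mem_Dn.2 ⟨hw, S_tot h⟩)))
  · by_cases ht : tot u = tot c - 1
    · have := hs (Sum.inr u) (inr_mem_disjSum.2 (mem_Dn.2 ⟨hu, ht⟩))
      simp only [L, dd, LinearMap.coe_mk, AddHom.coe_mk] at this
      simp only [tr, sub_mul, sum_sub_distrib, mul_assoc, mul_comm (s _ _)]
      linarith
    · rw [sum_eq_zero fun j _ => ?_, sum_eq_zero fun j _ => ?_]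
      · by_contra h
        have := S_tot (right_ne_zero_of_mul h)
        simp at this; omega
      · by_contra h
        have := S_tot (right_ne_zero_of_mul h)
        simp at this; omega

theorem col_min (hsub : ∀ u : V m, D u c)
    (bal : ∑ u ∈ Dn r (tot c - 1), ∑ J, g J * S u (c - e J) +
      g0 * ∑ w ∈ Dn r (tot c), S w c = ∑ i, t i * ∑ w ∈ Dn (r + e i) (tot c), S w c) :
    ∃ v, (LL r c g v ∧ LU r c g0 t v) ∧
      ∀ v', LL r c g v' ∧ LU r c g0 t v' → EL r c v ≤ EL r c v' := by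
  obtain ⟨s₀, h1, h2⟩ := col_feas bal
  obtain ⟨-, v₀, -, h3, h4, -⟩ := col_one hsub h1 h2
  exact exists_min2 (Lev m (tot c - 1)) (fun l => N l r) (fun l j => kap n c (l + e j))
    (fun _ => N_nonneg _ _) (fun _ _ => kap_nonneg _ _) (fun v => LL r c g v ∧ LU r c g0 t v)
    (fun a x y z hx hy hz => ⟨fun μ hμ => by
      have a1 := hx.1 μ hμ
      have a2 := hy.1 μ hμ
      have a3 := hz.1 μ hμ
      rw [sum_aff]
      linear_combination a * a1 - a * a2 + a3, fun μ hμ => by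
      have a1 := hx.2 μ hμ
      have a2 := hy.2 μ hμ
      have a3 := hz.2 μ hμ
      rw [Bal] at *
      rw [sum_aff]
      linear_combination a * a1 - a * a2 + a3⟩) v₀ ⟨h3, h4⟩

lemma EL_eq (v : V m → Fin m → ℝ) : EL r c v =
    ∑ Λ ∈ Lev m (tot c), kap n c Λ * ∑ j, N (Λ - e j) r * v (Λ - e j) j ^ 2 := by
  simp only [EL, mul_sum]
  rw [sum_comm, sum_comm (s := Lev m (tot c))]
  refine sum_congr rfl fun j _ => ?_
  have := sum_Lev_shift j (tot c - 1) (fun Λ => kap n c Λ * (N (Λ - e j) r * v (Λ - e j) j ^ 2))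
    fun ν h => (kap_supp (left_ne_zero_of_mul h)).1
  rw [sub_add_cancel] at this
  rw [this]
  exact sum_congr rfl fun l _ => by rw [add_sub_cancel_right]; ring

lemma sum_kap_N (r : V m) (c : V n) :
    ∑ Λ ∈ Lev m (tot c), kap n c Λ * N Λ r = ∑ w ∈ Dn r (tot c), S w c := by
  simp only [S_eq]
  rw [sum_comm]
  refine sum_congr rfl fun Λ hΛ => ?_
  rw [N, (mem_Lev.1 hΛ).2, mul_comm, sum_mul]

end Vale.Agent.P328
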