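import Vale.Agent.P328.Col

/-! Peeling a column: the induction step for tables. -/

namespace Vale.Agent.P328

open Finset

variable {m n : ℕ}

theorem d_triv {r : V m} {c : V n} (h : tot r + 1 ≠ tot c) : D r c := by
  intro g t _
  refine ⟨0, 0, fun J X hX => ?_, fun i Y hY => ?_, fun ν _ => ?_, fun ν => ?_, ?_⟩
  · have := Tab_tot hX
    simp at this; omega
  · have := Tab_tot hY
    simp at this; omega
  · refine mul_congr_ne fun hK => ?_
    rw [sum_eq_zero fun j _ => by simp, sum_eq_zero fun J _ => ?_]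
    by_contra h'
    have := (kap_supp (right_ne_zero_of_mul h')).2.1
    have := K_tot hK
    simp at *; omega
  · refine mul_congr_ne fun hK => ?_
    rw [sum_eq_zero fun j _ => by simp, sum_eq_zero fun J _ => ?_]
    by_contra h'
    have := (kap_supp hK).2.1
    have := K_tot (right_ne_zero_of_mul h')
    simp at *; omega
  · simp only [EX, EY, Pi.zero_apply, ne_eq, OfNat.ofNat_ne_zero, not_false_eq_true, zero_pow,
      sum_const_zero, mul_zero, add_zero]
    exact add_nonneg (sum_nonneg fun _ _ => mul_nonneg (sq_nonneg _) (S_nonneg _ _))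
      (sum_nonneg fun _ _ => mul_nonneg (sq_nonneg _) (S_nonneg _ _))

theorem d_zero (r : V m) (c : V 0) : D r c := by
  intro g t bal
  have h1 : ∀ w : V m, S w c = ind (w = 0) := fun w => by
    rw [S_eq, sum_eq_single 0 (fun l _ hl => by simp [kap, ind_neg hl])
      (fun h => absurd (mem_Lev.2 ⟨by simp, by simp [tot]⟩) h)]
    simp [kap, K_zero, ind_pos]
  refine ⟨0, 0, fun J => J.elim0, fun i Y hY => ?_, fun ν _ => by simp, fun ν => ?_, ?_⟩
  · have h2 : r + e i = 0 := ind_ne (h1 _ ▸ S_ne.2 ⟨Y, hY⟩)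
    rw [sum_eq_single i (fun k _ hk => ?_) (by simp), h1, ind_pos h2] at bal
    · simpa using bal
    · rw [h1, ind_neg, mul_zero]
      intro h3
      have := congrFun (add_left_cancel (h3.trans h2.symm)) k
      rw [e_self, e_ne hk] at this
      omega
  · refine mul_congr_ne fun hK => ?_
    obtain rfl : ν = 0 := ind_ne hK
    simpa [h1, K_zero] using bal
  · simp only [EX, EY, Pi.zero_apply, ne_eq, OfNat.ofNat_ne_zero, not_false_eq_true, zero_pow,
      sum_const_zero, mul_zero, add_zero]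
    exact add_nonneg (sum_nonneg fun _ _ => mul_nonneg (sq_nonneg _) (S_nonneg _ _))
      (sum_nonneg fun _ _ => mul_nonneg (sq_nonneg _) (S_nonneg _ _))

lemma tail_single0 (x : V m) :
    Fin.tail (Pi.single (0 : Fin (n + 1)) x : Fin (n + 1) → V m) = 0 := by
  funext j; simp [Fin.tail]

lemma tail_singles (J : Fin n) (x : V m) :
    Fin.tail (Pi.single J.succ x : Fin (n + 1) → V m) = Pi.single J x := by
  funext j; simp [Fin.tail, Pi.single_apply]

theorem d_step {r : V m} {c : V (n + 1)} (hsub : ∀ u : V m, D u (Fin.tail c))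
    (hT : ∀ Λ : V m, kap n (Fin.tail c) Λ ≠ 0 → T2 Λ r) : D r c := by
  by_cases htot : tot r + 1 = tot c
  swap
  · exact d_triv htot
  intro g t bal
  set c' := Fin.tail c with hc'
  have S0 : S r (c - e 0) = ∑ w ∈ Dn r (tot c'), S w c' := by
    rw [S_succ (by simp; omega), tail_sub, tail_e0, sub_zero]
  have S1 : ∀ J : Fin n, S r (c - e J.succ) = ∑ u ∈ Dn r (tot c' - 1), S u (c' - e J) := fun J => by
    rw [S_succ (by simp; omega), tail_sub, tail_es, tot_sub, tot_e]
  have S2 : ∀ i, S (r + e i) c = ∑ w ∈ Dn (r + e i) (tot c'), S w c' := fun i =>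
    S_succ (by simp; omega)
  obtain ⟨v, ⟨l1, l2⟩, hmin⟩ := col_min (r := r) (g := fun J => g J.succ) (g0 := g 0) (t := t) hsub
    (by
      rw [Fin.sum_univ_succ, S0] at bal
      simp only [S1, S2] at bal
      rw [← bal, sum_comm, add_comm]
      simp only [mul_sum])
  have hex := fun Λ (hΛ : kap n c' Λ ≠ 0) => hT Λ hΛ _ _ _ (l2 Λ hΛ)
  choose! sk Wk p1 p2 q1 q2 en using hex
  obtain ⟨s, a1, a2, a3⟩ := col_avg l1 sk p1 p2
  obtain ⟨Gu, v', x1, l3, l4, en2⟩ := col_one hsub a1 a2
  have en3 := hmin v' ⟨l3, l4⟩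
  let A := Lev m (tot c')
  let ω : V m → V m → ℝ := fun ν Λ => ind (St Λ ν) * kap n c' Λ
  have hω : ∀ ν, ∀ Λ ∈ A, 0 ≤ ω ν Λ := fun _ _ _ => mul_nonneg (ind_nonneg _) (kap_nonneg _ _)
  let W : V m → Fin m → ℝ := fun ν j => avg A (ω (ν + e j)) fun Λ => Wk Λ ν j
  have W1 : ∀ ν j, kap (n + 1) c (ν + e j) * W ν j =
      ind (tot (ν + e j) = tot c) * ∑ Λ ∈ A, ω (ν + e j) Λ * Wk Λ ν j := fun ν j => by
    rw [kap_succ, mul_assoc]
    exact congrArg _ (avg_mul _ _ (hω _))
  let G : Fin m → Fin (n + 1) → (Fin (n + 1) → V m) → ℝ := fun i =>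
    Fin.cons (fun X => s (r - X 0) i) fun J X => Gu (r - X 0) i J (Fin.tail X)
  refine ⟨G, W, fun J X hX => ?_, fun i Y hY => ?_, fun ν hν => ?_, fun ν => ?_, ?_⟩
  · have h := mem_Tab_succ hX
    revert h
    refine Fin.cases (fun h => ?_) (fun J h => ?_) J
    · rw [tail_sub, tail_e0, sub_zero] at h
      exact mul_left_cancel₀ (S_ne.2 ⟨_, h.2⟩) (a1 _ h.1)
    · rw [tail_sub, tail_es] at h
      exact (x1 _ h.1).1 J _ h.2
  · have h := mem_Tab_succ hY
    have h0 : 0 ≤ Y 0 := (mem_Tab.1 hY).1 0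
    have h1 := (x1 (r - Y 0) (sub_le_self _ h0)).2 i (Fin.tail Y) (by
      rw [← add_sub_right_comm]; exact h.2)
    rw [Fin.sum_univ_succ]
    have e1 : ∀ J : Fin n, G i J.succ (Y - Pi.single J.succ (e i)) =
        Gu (r - Y 0) i J (Fin.tail Y - Pi.single J (e i)) := fun J => by
      rw [← tail_singles J (e i)]
      simp only [G, Fin.cons_succ, Pi.sub_apply, Pi.single_eq_of_ne (Fin.succ_ne_zero J).symm,
        sub_zero]
      rfl
    have e2 : G i 0 (Y - Pi.single (0 : Fin (n + 1)) (e i)) = s (r - Y 0 + e i) i := by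
      simp only [G, Fin.cons_zero, Pi.sub_apply, Pi.single_eq_same]
      congr 1; abel
    have e3 : 1 ≤ Y 0 i ↔ r - Y 0 + e i ≤ r := by
      constructor
      · intro H a
        have : 0 ≤ Y 0 a := h0 a
        have := e_cases i a (Y 0) r
        simp only [Pi.add_apply, Pi.sub_apply]; omega
      · intro H
        have := H i
        simp only [Pi.add_apply, Pi.sub_apply, e_self] at this; omega
    simp only [e1, e2]
    rw [ind_congr e3]
    refine (congrArg _ h1).trans ?_
    rw [tr]; ring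
  · by_cases hK : K m ν r = 0
    · simp [hK]
    have ht := K_tot hK
    simp only [W1, tot_add, tot_e, ht, htot, ind_pos, one_mul]
    rw [sum_comm, mul_sum, sum_congr rfl fun Λ _ => by
      simp only [ω, mul_comm (ind _) (kap n c' Λ), mul_assoc]
      rw [← mul_sum, mul_left_comm, mul_congr_ne fun h => q2 Λ h ν hν, mul_left_comm], ← mul_sum]
    congr 1
    rw [Fin.sum_univ_succ, add_comm (g 0 * _)]
    simp only [mul_add, sum_add_distrib, kap_succ, tot_sub, tot_e, ht, ← htot, add_sub_cancel_right,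
      ind_pos, one_mul, tail_sub, tail_e0, tail_es, sub_zero]
    congr 1
    · simp only [mul_sum]
      rw [sum_comm, sum_comm (s := univ) (t := Lev m (tot (Fin.tail c) - 1))]
      have b2 : ∀ j, ∑ Λ ∈ A, kap n c' Λ * (v (Λ - e j) j * ind (St (Λ - e j) ν)) =
          ∑ l ∈ Lev m (tot c' - 1), ind (St l ν) * (kap n c' (l + e j) * v l j) := by
        intro j
        have := sum_Lev_shift j (tot c' - 1)
          (fun Λ => kap n c' Λ * (v (Λ - e j) j * ind (St (Λ - e j) ν)))
          fun ν h => (kap_supp (left_ne_zero_of_mul h)).1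
        rw [sub_add_cancel] at this
        rw [this]
        exact sum_congr rfl fun l _ => by rw [add_sub_cancel_right]; ring
      rw [sum_congr rfl fun j _ => b2 j, sum_comm]
      refine sum_congr rfl fun l hl => ?_
      simp only [mul_left_comm (g _), ← mul_sum]
      exact ind_mul_congr fun h => mul_left_cancel₀ (N_ne_of_St (mem_Lev.1 hl).1 h hK)
        (l1 l (mem_Lev.1 hl).1)
    · rw [mul_sum]
      exact sum_congr rfl fun l _ => by ring
  · rw [mul_sum, sum_congr rfl fun j _ => by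
      rw [mul_left_comm, ← sub_add_cancel ν (e j), add_sub_cancel_right, W1, sub_add_cancel,
        mul_left_comm, mul_sum], ← mul_sum, sum_comm, kap_succ, mul_assoc, sum_mul]
    congr 1
    refine sum_congr rfl fun Λ _ => ?_
    simp only [ω, mul_left_comm (K m _ _), ← mul_sum, mul_assoc]
    exact ind_mul_congr fun h1 => mul_congr_ne fun h2 => q1 Λ h2 ν h1
  · have b1 : EX r c G = ∑ w ∈ Dn r (tot c'), S w c' * ∑ i, s w i ^ 2 +
        ∑ u ∈ Dn r (tot c' - 1), EX u c' (Gu u) := by
      simp only [EX, Fin.sum_univ_succ, sum_add_distrib]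
      congr 1
      · simp only [mul_sum]
        rw [sum_comm (s := Dn r _)]
        refine sum_congr rfl fun i _ => ?_
        rw [sum_Tab_succ (by simp; omega), tail_sub, tail_e0, sub_zero]
        refine sum_congr rfl fun w _ => ?_
        simp [G, S, hc']
      · rw [sum_comm (s := Dn r _)]
        refine sum_congr rfl fun i _ => ?_
        rw [sum_comm (s := Dn r _)]
        refine sum_congr rfl fun J _ => ?_
        rw [sum_Tab_succ (by simp; omega), tail_sub, tail_es, tot_sub, tot_e]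
        simp [G, hc']
    have b2 : EY r c W ≤ ∑ Λ ∈ A, kap n c' Λ * EQ Λ r (Wk Λ) := by
      simp only [EY, EQ, mul_sum]
      rw [sum_comm (s := A)]
      refine sum_le_sum fun ν hν => ?_
      rw [sum_comm]
      refine sum_le_sum fun j _ => ?_
      have := mul_le_mul_of_nonneg_left (avg_sq A (fun Λ => Wk Λ ν j) (hω (ν + e j)))
        (K_nonneg ν r)
      rw [mul_sum] at this
      rw [kap_succ, ind_pos (by have := (mem_Lev.1 hν).2; simp; omega), one_mul]
      refine this.trans_eq ?_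
      exact sum_congr rfl fun Λ _ => by simp only [ω]; ring
    have b3 : ∑ Λ ∈ A, kap n c' Λ * EP Λ r t (sk Λ) + ∑ Λ ∈ A, kap n c' Λ * EQ Λ r (Wk Λ) ≤
        EL r c' v + g 0 ^ 2 * ∑ w ∈ Dn r (tot c'), S w c' := by
      rw [EL_eq, ← sum_kap_N, mul_sum, ← sum_add_distrib, ← sum_add_distrib]
      refine sum_le_sum fun Λ _ => ?_
      rw [← mul_add, mul_left_comm, ← mul_add]
      exact mul_le_ne (kap_nonneg _ _) (en Λ)
    have b4 := a3 2 (fun i => 2 * t i) zero_le_two
    have b5 : ∑ w ∈ Dn r (tot c'), S w c' * ∑ i, (2 * s w i ^ 2 - 2 * t i * s w i) =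
        ∑ w ∈ Dn r (tot c'), S w c' * ∑ i, s w i ^ 2 +
        ∑ w ∈ Dn r (tot c'), S w c' * ∑ i, (s w i ^ 2 - 2 * t i * s w i) := by
      rw [← sum_add_distrib]
      refine sum_congr rfl fun w _ => ?_
      rw [← mul_add, ← sum_add_distrib]
      exact congrArg _ (sum_congr rfl fun i _ => by ring)
    rw [Fin.sum_univ_succ, S0, b1]
    simp only [S1, S2]
    rw [sum_comm] at en2
    simp only [← mul_sum] at en2
    have b6 : ∑ Λ ∈ Lev m (tot c'), kap n c' Λ * ∑ w ∈ Dn r (tot Λ), K m Λ w *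
        ∑ i, (2 * sk Λ w i ^ 2 - 2 * t i * sk Λ w i) = ∑ Λ ∈ A, kap n c' Λ * EP Λ r t (sk Λ) := rfl
    linarith

end Vale.Agent.P328
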