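import Mathlib

/-! Contingency tables and the binary encodings used by the sampler. -/

namespace Vale.Agent.P328

/-- The contingency tables with row sums `r` and column sums `c`. -/
def Omega {m n : ℕ} (r : Fin m → ℕ) (c : Fin n → ℕ) : Finset (Fin m → Fin n → ℕ) :=
  (Fintype.piFinset fun i => Fintype.piFinset fun _ => Finset.range (r i + 1)).filter
    fun X => (∀ i, ∑ j, X i j = r i) ∧ ∀ j, ∑ i, X i j = c j

/-- Self-delimiting binary code of a natural number. -/
def encNat (a : ℕ) : List Bool := (a.bits.flatMap fun b => [true, b]) ++ [false]

/-- Code of a list of natural numbers. -/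
def encList (l : List ℕ) : List Bool := (l.flatMap fun a => true :: encNat a) ++ [false]

/-- Code of the margins in binary and of the accuracy parameter `k` in unary. -/
def encInst {m n : ℕ} (r : Fin m → ℕ) (c : Fin n → ℕ) (k : ℕ) : List Bool :=
  encList (List.ofFn r) ++ encList (List.ofFn c) ++ List.replicate k true ++ [false]

/-- Code of a table: its entries in binary, row by row. -/
def encTable {m n : ℕ} (X : Fin m → Fin n → ℕ) : List Bool :=
  encList (List.ofFn fun i => List.ofFn (X i)).flatten

/-- What the machine reads: margins with equal totals, an accuracy parameter and coin flips. -/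
structure Input where
  m : ℕ
  n : ℕ
  r : Fin m → ℕ
  c : Fin n → ℕ
  bal : ∑ i, r i = ∑ j, c j
  k : ℕ
  coins : List Bool

/-- Code of an input: the instance followed by the coin flips. -/
def Input.enc (x : Input) : List Bool := encInst x.r x.c x.k ++ x.coins

end Vale.Agent.P328
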