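import Vale.Agent.P328.Alg

/-! Interface statements between the parts of the proof. -/

namespace Vale.Agent.P328

open Finset

/-- The transport inequality in dual form. -/
def DualD : Prop :=
  ∀ (m n : ℕ) (a : Fin m → ℕ) (c : Fin n → ℕ), ∑ i, a i + 1 = ∑ j, c j →
    ∀ (J : Fin n) (l : Fin m), 1 ≤ c J →
    ∀ (φ : Fin n → (Fin m → Fin n → ℕ) → ℝ) (ψ : Fin m → (Fin m → Fin n → ℕ) → ℝ),
      ((∑ X ∈ Omega a (c - Pi.single J 1), φ J X) / (Omega a (c - Pi.single J 1)).card -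
        (∑ Y ∈ Omega (a + Pi.single l 1) c, ψ l Y) / (Omega (a + Pi.single l 1) c).card) ^ 2 ≤
      (1 / ((Omega a (c - Pi.single J 1)).card : ℝ) + 1 / ((Omega (a + Pi.single l 1) c).card : ℝ)) *
        ∑ i : Fin m, ∑ K : Fin n, ∑ X ∈ Omega a (c - Pi.single K 1),
          (φ K X - ψ i (X + unit i K 1)) ^ 2

/-- Poincare inequality for the multi-scale switch graph. -/
def Poincare : Prop :=
  ∃ p : Polynomial ℕ, ∀ (m n q : ℕ) (r : Fin m → ℕ) (c : Fin n → ℕ), ∑ i, r i = ∑ j, c j →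
    m ≤ q → n ≤ q → ∑ i, (r i).size ≤ q → ∀ f : (Fin m → Fin n → ℕ) → ℝ,
      ∑ X ∈ Omega r c, (f X - (∑ Y ∈ Omega r c, f Y) / (Omega r c).card) ^ 2 ≤
        (p.eval q : ℕ) * ∑ s ∈ range q, ∑ i, ∑ i', ∑ J, ∑ K, ∑ X ∈ Omega r c,
          (f X - f (sw (2 ^ s) i i' J K X)) ^ 2

end Vale.Agent.P328
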