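import Vale.Agent.P328.Two
import Vale.Agent.P328.Iface

/-! The transport inequality for all margins, and its dual form. -/

namespace Vale.Agent.P328

open Finset

variable {m n d : ℕ}

def T2all (m : ℕ) : Prop := ∀ Λ r : V m, Antitone Λ → 0 ≤ Λ → T2 Λ r

lemma t2_succ (hsub : T2all d) {Λ : V (d + 1)} (hΛ : Antitone Λ) (h0 : 0 ≤ Λ)
    (hT : ∀ M : V (d + 1), Lo Λ M ≤ Up Λ M → TB (Lo Λ M) (Up Λ M)) (r : V (d + 1)) : T2 Λ r :=
  t2_perm (Tuple.sort r) (t2_step hΛ h0 (Tuple.monotone_sort r)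
    (fun κ h => hsub κ _ h.anti' (h.nonneg h0)) fun _ h1 h2 => t0_of hΛ h0 h1 h2 (hT _))

lemma t2_one : T2all 1 := fun _ r hΛ h0 => t2_succ (fun Λ r _ _ => t2_zero Λ r) hΛ h0
  (fun _ _ => by rw [Subsingleton.elim (Lo _ _) (Up _ _)]; exact tb_pt _) r

lemma d_of (h : T2all m) : ∀ {n : ℕ} (r : V m) (c : V n), D r c
  | 0, r, c => d_zero r c
  | _ + 1, r, _ => d_step (fun u => d_of h u _) fun Λ hΛ =>
      h Λ r (kap_supp hΛ).2.2 (kap_supp hΛ).1

lemma d_two_one (r : V 2) (c : V 1) : D r c := by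
  refine d_step (fun u => d_zero u _) fun Λ hΛ => ?_
  obtain rfl : Λ = 0 := ind_ne hΛ
  refine t2_succ t2_one antitone_const le_rfl (fun M h => ?_) r
  rw [le_antisymm h fun j => (min_le_left _ _).trans (le_max_left _ _)]
  exact tb_pt _

lemma t2_two : T2all 2 := fun _ r hΛ h0 =>
  t2_succ t2_one hΛ h0 (fun _ _ => tb_of_D fun u => d_two_one u _) r

lemma t2_all : ∀ m, T2all m
  | 0 => fun Λ r _ _ => t2_zero Λ r
  | m + 1 => fun _ r hΛ h0 =>
      t2_succ (t2_all m) hΛ h0 (fun _ _ => tb_of_D fun u => d_of t2_two u _) r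

theorem d_all (r : V m) (c : V n) : D r c := d_of (t2_all m) r c

lemma S_ne_zero : ∀ (k : ℕ) (w : V m) (c : V n), 0 ≤ w → 0 ≤ c → tot w = k → tot c = k →
    S w c ≠ 0
  | 0, w, c, h1, h2, h3, h4 => by
    obtain rfl : 0 = w := eq_of_le_of_tot h1 (by simp [h3])
    obtain rfl : 0 = c := eq_of_le_of_tot h2 (by simp [h4])
    exact S_ne.2 ⟨0, mem_Tab.2 ⟨fun _ => le_rfl, by simp, fun _ => by simp⟩⟩
  | k + 1, w, c, h1, h2, h3, h4 => by
    have ex : ∀ {m : ℕ} (x : V m), 0 ≤ x → tot x = (k + 1 : ℕ) → ∃ i, 0 ≤ x - e i := by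
      intro m x hx ht
      have : ∃ i, 0 < x i := by
        by_contra h
        push Not at h
        have : tot x ≤ 0 := sum_nonpos fun i _ => h i
        omega
      obtain ⟨i, hi⟩ := this
      refine ⟨i, fun a => ?_⟩
      have : 0 ≤ x a := hx a
      have := e_cases i a x x
      simp only [Pi.sub_apply, Pi.zero_apply]; omega
    obtain ⟨i, hi⟩ := ex w h1 h3
    obtain ⟨J, hJ⟩ := ex c h2 h4
    have := S_add (S_ne_zero k _ _ hi hJ (by simp; omega) (by simp; omega)) i
    rwa [sub_add_cancel] at this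

theorem dual_int (r : V m) (c : V n) (J : Fin n) (l : Fin m) (h1 : S r (c - e J) ≠ 0)
    (φ : Fin n → (Fin n → V m) → ℝ) (ψ : Fin m → (Fin n → V m) → ℝ) :
    ((∑ X ∈ Tab r (c - e J), φ J X) / S r (c - e J) -
      (∑ Y ∈ Tab (r + e l) c, ψ l Y) / S (r + e l) c) ^ 2 ≤
      (1 / S r (c - e J) + 1 / S (r + e l) c) * ∑ i, ∑ K, ∑ X ∈ Tab r (c - e K),
        (φ K X - ψ i (X + Pi.single K (e i))) ^ 2 := by
  have h2 := S_add h1 l
  obtain ⟨G, v, x1, x2, -, -, en⟩ := d_all r c (Pi.single J (1 / S r (c - e J)))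
    (Pi.single l (1 / S (r + e l) c)) (by
      rw [sum_eq_single J (fun K _ hK => by simp [hK]) (by simp),
        sum_eq_single l (fun K _ hK => by simp [hK]) (by simp)]
      simp [h1, h2])
  rw [sum_eq_single J (fun K _ hK => by simp [hK]) (by simp),
    sum_eq_single l (fun K _ hK => by simp [hK]) (by simp)] at en
  have e1 : EX r c G ≤ 1 / S r (c - e J) + 1 / S (r + e l) c := by
    have : 0 ≤ EY r c v := sum_nonneg fun _ _ => mul_nonneg (K_nonneg _ _)
      (sum_nonneg fun _ _ => mul_nonneg (kap_nonneg _ _) (sq_nonneg _))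
    simp only [Pi.single_eq_same] at en
    rw [sq, sq, mul_assoc, mul_assoc, one_div_mul_cancel h1, one_div_mul_cancel h2] at en
    linarith
  have a1 : (∑ X ∈ Tab r (c - e J), φ J X) / S r (c - e J) =
      ∑ i, ∑ K, ∑ X ∈ Tab r (c - e K), G i K X * φ K X := by
    symm
    rw [sum_comm, sum_congr rfl fun K _ => by
      rw [sum_comm, sum_congr rfl fun X hX => by rw [← sum_mul, x1 K X hX], ← mul_sum],
      sum_eq_single J (fun K _ hK => by simp [hK]) (by simp)]
    simp [div_eq_inv_mul]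
  have a2 : (∑ Y ∈ Tab (r + e l) c, ψ l Y) / S (r + e l) c =
      ∑ i, ∑ K, ∑ X ∈ Tab r (c - e K), G i K X * ψ i (X + Pi.single K (e i)) := by
    have b1 : ∀ i K, ∑ X ∈ Tab r (c - e K), G i K X * ψ i (X + Pi.single K (e i)) =
        ∑ Y ∈ Tab (r + e i) c, ind (1 ≤ Y K i) * G i K (Y - Pi.single K (e i)) * ψ i Y := by
      intro i K
      rw [sum_shift (A := Tab (r + e i) c) (B := Tab r (c - e K)) (Pi.single K (e i))]
      · refine sum_congr rfl fun X hX => ?_
        rw [ind_pos, add_sub_cancel_right, one_mul]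
        have : 0 ≤ X K i := (mem_Tab.1 hX).1 K i
        simp; omega
      · intro X hX
        have h3 := ind_ne (left_ne_zero_of_mul (left_ne_zero_of_mul hX))
        constructor
        · intro h
          have := Tab_add h K (- e i) fun a => by
            have : 0 ≤ (X + Pi.single K (e i) : Fin n → V m) K a := (mem_Tab.1 h).1 K a
            have := e_cases i a (X K) (X K)
            simp only [Pi.add_apply, Pi.single_eq_same, e_self, Pi.neg_apply, Pi.zero_apply] at *
            omega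
          rw [show tot (- e i) = -1 by rw [← zero_sub, tot_sub]; simp] at this
          simpa [Pi.single_neg, e, sub_eq_add_neg] using this
        · intro h
          have := Tab_add h K (e i) (add_nonneg ((mem_Tab.1 h).1 K) (e_nonneg i))
          rw [tot_e] at this
          simpa [e] using this
    simp only [b1]
    symm
    rw [sum_congr rfl fun i _ => by
      rw [sum_comm, sum_congr rfl fun Y hY => by rw [← sum_mul, x2 i Y hY], ← mul_sum],
      sum_eq_single l (fun K _ hK => by simp [hK]) (by simp)]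
    simp [div_eq_inv_mul]
  refine le_trans ?_ (mul_le_mul_of_nonneg_right e1 (sum_nonneg fun _ _ => sum_nonneg fun _ _ =>
    sum_nonneg fun _ _ => sq_nonneg _))
  rw [a1, a2, EX]
  simp only [← sum_sub_distrib, ← mul_sub, sum_sigma']
  exact sum_mul_sq_le_sq_mul_sq _ _ _

def toT (X : Fin m → Fin n → ℕ) : Fin n → V m := fun J i => X i J

def toN (Y : Fin n → V m) : Fin m → Fin n → ℕ := fun i J => (Y J i).toNat

lemma toN_toT (X : Fin m → Fin n → ℕ) : toN (toT X) = X := by
  funext i J; simp [toN, toT]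

lemma mem_Omega {a : Fin m → ℕ} {c : Fin n → ℕ} {X : Fin m → Fin n → ℕ} :
    X ∈ Omega a c ↔ (∀ i, ∑ j, X i j = a i) ∧ ∀ j, ∑ i, X i j = c j := by
  simp only [Omega, mem_filter, Fintype.mem_piFinset, mem_range, and_iff_right_iff_imp]
  intro h i j
  rw [← h.1 i]
  exact Nat.lt_succ_of_le (single_le_sum (f := X i) (fun _ _ => Nat.zero_le _) (mem_univ j))

lemma sum_Omega (a : Fin m → ℕ) (c : Fin n → ℕ) (F : (Fin m → Fin n → ℕ) → ℝ) :
    ∑ X ∈ Omega a c, F X = ∑ Y ∈ Tab (fun i => (a i : ℤ)) (fun j => (c j : ℤ)), F (toN Y) := by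
  have h1 : ∀ Y ∈ Tab (fun i => (a i : ℤ)) (fun j => (c j : ℤ)), toT (toN Y) = Y := fun Y hY => by
    funext J i
    exact Int.toNat_of_nonneg ((mem_Tab.1 hY).1 J i)
  have h2 : ∀ X, X ∈ Omega a c ↔ toT X ∈ Tab (fun i => (a i : ℤ)) (fun j => (c j : ℤ)) := by
    intro X
    rw [mem_Omega, mem_Tab]
    simp only [toT, tot, funext_iff, Finset.sum_apply, ← Nat.cast_sum, Nat.cast_inj]
    exact ⟨fun h => ⟨fun J i => Int.natCast_nonneg _, h⟩, fun h => h.2⟩
  exact sum_nbij' toT toN (fun X hX => (h2 X).1 hX) (fun Y hY => (h2 _).2 ((h1 Y hY).symm ▸ hY))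
    (fun X _ => toN_toT X) h1 fun X _ => by rw [toN_toT]

theorem dualD : DualD := by
  intro m n a c htot J l hJ φ ψ
  have c1 : ∀ K, 1 ≤ c K → (fun j => ((c - Pi.single K 1 : Fin n → ℕ) j : ℤ)) =
      (fun j => (c j : ℤ)) - e K := fun K hK => by
    funext j
    by_cases h : j = K
    · subst h; simp [hK]
    · simp [h, e_ne h]
  have c2 : (fun i => ((a + Pi.single l 1 : Fin m → ℕ) i : ℤ)) = (fun i => (a i : ℤ)) + e l := by
    funext j
    by_cases h : j = l
    · subst h; simp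
    · simp [h, e_ne h]
  have c3 : ∀ (a : Fin m → ℕ) (c : Fin n → ℕ), ((Omega a c).card : ℝ) =
      S (fun i => (a i : ℤ)) (fun j => (c j : ℤ)) := fun a c => by
    rw [S, ← sum_Omega a c fun _ => 1]; simp
  have h1 : S (fun i => (a i : ℤ)) ((fun j => (c j : ℤ)) - e J) ≠ 0 := by
    refine S_ne_zero (∑ i, a i) _ _ (fun i => Int.natCast_nonneg _) ?_ (by simp [tot]) ?_
    · rw [← c1 J hJ]; exact fun i => Int.natCast_nonneg _
    · simp only [tot_sub, tot_e]
      simp only [tot, ← Nat.cast_sum]; omega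
  have := dual_int _ _ J l h1 (fun K Y => φ K (toN Y)) fun i Y => ψ i (toN Y)
  rw [c3, c3, sum_Omega, sum_Omega, c1 J hJ, c2]
  refine this.trans_eq ?_
  congr 1
  refine sum_congr rfl fun i _ => sum_congr rfl fun K _ => ?_
  by_cases hK : 1 ≤ c K
  · rw [sum_Omega, c1 K hK]
    refine sum_congr rfl fun Y hY => ?_
    congr 3
    funext a b
    have : 0 ≤ Y b a := (mem_Tab.1 hY).1 b a
    by_cases hb : b = K
    · subst hb
      by_cases ha : a = i
      · subst ha; simp [toN, unit]; omega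
      · simp [toN, unit, ha, e_ne ha]
    · simp [toN, unit, hb]
  · rw [sum_eq_zero fun Y hY => ?_, sum_eq_zero fun X hX => ?_]
    · exfalso
      have h2 := mem_Omega.1 hX
      have h3 : ∑ i, a i = ∑ j, (c - Pi.single K 1 : Fin n → ℕ) j := by
        rw [← sum_congr rfl fun i _ => h2.1 i, sum_comm]
        exact sum_congr rfl fun j _ => h2.2 j
      have h4 : (c - Pi.single K 1 : Fin n → ℕ) = c := by
        funext j
        by_cases h : j = K
        · subst h; simp; omega
        · simp [h]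
      rw [h4] at h3
      omega
    · exfalso
      have h2 := (mem_Tab.1 hY).2.2 K
      have h3 : tot (0 : V m) ≤ tot (Y K) := tot_mono ((mem_Tab.1 hY).1 K)
      simp at h2 h3
      omega

end Vale.Agent.P328
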