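import Mathlib

/-! Generic tools: weighted averages, energy minimisers, solvability of linear systems. -/

namespace Vale.Agent.P328

open Finset

/-- Indicator of a proposition. -/
noncomputable def ind (p : Prop) : ℝ := by classical exact if p then 1 else 0

lemma ind_pos {p : Prop} (h : p) : ind p = 1 := by simp [ind, h]
lemma ind_neg {p : Prop} (h : ¬ p) : ind p = 0 := by simp [ind, h]
lemma ind_nonneg (p : Prop) : 0 ≤ ind p := by unfold ind; split_ifs <;> norm_num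
lemma ind_congr {p q : Prop} (h : p ↔ q) : ind p = ind q := by rw [propext h]
lemma ind_and (p q : Prop) : ind (p ∧ q) = ind p * ind q := by
  by_cases hp : p <;> by_cases hq : q <;> simp [ind, hp, hq]
lemma ind_ne {p : Prop} (h : ind p ≠ 0) : p := by
  by_contra h'; exact h (ind_neg h')
lemma ind_mul_congr {p : Prop} {a b : ℝ} (h : p → a = b) : ind p * a = ind p * b := by
  by_cases hp : p
  · rw [h hp]
  · simp [ind_neg hp]
lemma ind_mul_le {p : Prop} {a b : ℝ} (h : p → a ≤ b) : ind p * a ≤ ind p * b := by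
  by_cases hp : p
  · simpa [ind_pos hp] using h hp
  · simp [ind_neg hp]
lemma mul_congr_ne {k a b : ℝ} (h : k ≠ 0 → a = b) : k * a = k * b := by
  by_cases hk : k = 0
  · simp [hk]
  · rw [h hk]
lemma mul_le_ne {k a b : ℝ} (hk : 0 ≤ k) (h : k ≠ 0 → a ≤ b) : k * a ≤ k * b := by
  by_cases hk' : k = 0
  · simp [hk']
  · exact mul_le_mul_of_nonneg_left (h hk') hk

/-- Weighted average. -/
noncomputable def avg {α : Type*} (A : Finset α) (w x : α → ℝ) : ℝ :=
  (∑ a ∈ A, w a * x a) / ∑ a ∈ A, w a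

lemma avg_mul {α : Type*} (A : Finset α) {w : α → ℝ} (x : α → ℝ) (hw : ∀ a ∈ A, 0 ≤ w a) :
    (∑ a ∈ A, w a) * avg A w x = ∑ a ∈ A, w a * x a := by
  by_cases h : ∑ a ∈ A, w a = 0
  · rw [h, zero_mul]
    rw [sum_eq_zero_iff_of_nonneg hw] at h
    exact (sum_eq_zero fun a ha => by rw [h a ha, zero_mul]).symm
  · rw [avg, mul_div_cancel₀ _ h]

lemma avg_sq {α : Type*} (A : Finset α) {w : α → ℝ} (x : α → ℝ) (hw : ∀ a ∈ A, 0 ≤ w a) :
    (∑ a ∈ A, w a) * avg A w x ^ 2 ≤ ∑ a ∈ A, w a * x a ^ 2 := by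
  have h1 := avg_mul A x hw
  have h2 : 0 ≤ ∑ a ∈ A, w a * (x a - avg A w x) ^ 2 :=
    sum_nonneg fun a ha => mul_nonneg (hw a ha) (sq_nonneg _)
  have h3 : ∑ a ∈ A, w a * (x a - avg A w x) ^ 2 = ∑ a ∈ A, w a * x a ^ 2
      - 2 * avg A w x * ∑ a ∈ A, w a * x a + (∑ a ∈ A, w a) * avg A w x ^ 2 := by
    rw [mul_sum, sum_mul, ← sum_sub_distrib, ← sum_add_distrib]
    exact sum_congr rfl fun a _ => by ring
  rw [h3, ← h1] at h2
  nlinarith

lemma avg_quad {α : Type*} (A : Finset α) {w : α → ℝ} (x : α → ℝ) (hw : ∀ a ∈ A, 0 ≤ w a)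
    {p : ℝ} (hp : 0 ≤ p) (q : ℝ) :
    (∑ a ∈ A, w a) * (p * avg A w x ^ 2 - q * avg A w x) ≤
      ∑ a ∈ A, w a * (p * x a ^ 2 - q * x a) := by
  have h1 := avg_mul A x hw
  have h2 := avg_sq A x hw
  have h3 : ∑ a ∈ A, w a * (p * x a ^ 2 - q * x a) =
      p * ∑ a ∈ A, w a * x a ^ 2 - q * ∑ a ∈ A, w a * x a := by
    rw [mul_sum, mul_sum, ← sum_sub_distrib]
    exact sum_congr rfl fun a _ => by ring
  rw [h3, ← h1]
  nlinarith [mul_le_mul_of_nonneg_left h2 hp]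

/-- A nonnegative quadratic energy attains its minimum on a nonempty affine set. -/
lemma exists_min {E : Type*} (s : Finset E) (w : E → ℝ) (hw : ∀ a, 0 ≤ w a) (S : (E → ℝ) → Prop)
    (hS : ∀ (c : ℝ) x y z, S x → S y → S z → S (fun a => c * (x a - y a) + z a))
    (x₀ : E → ℝ) (h₀ : S x₀) :
    ∃ x, S x ∧ ∀ y, S y → ∑ a ∈ s, w a * x a ^ 2 ≤ ∑ a ∈ s, w a * y a ^ 2 := by
  classical
  let T : (E → ℝ) → EuclideanSpace ℝ s := fun x => WithLp.toLp 2 fun a => √(w a) * x a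
  let A : AffineSubspace ℝ (EuclideanSpace ℝ s) :=
    { carrier := {p | ∃ x, S x ∧ T x = p}
      smul_vsub_vadd_mem' := by
        rintro c _ _ _ ⟨x, hx, rfl⟩ ⟨y, hy, rfl⟩ ⟨z, hz, rfl⟩
        refine ⟨_, hS c x y z hx hy hz, ?_⟩
        ext a
        simp [T]
        ring }
  have hn : ∀ x, ‖T x‖ ^ 2 = ∑ a ∈ s, w a * x a ^ 2 := by
    intro x
    rw [EuclideanSpace.norm_sq_eq, ← sum_coe_sort s]
    refine sum_congr rfl fun a _ => ?_
    simp [T, mul_pow, Real.sq_sqrt (hw a)]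
  have hcl : IsClosed (A : Set (EuclideanSpace ℝ s)) := A.closed_of_finiteDimensional
  obtain ⟨p, ⟨x, hx, rfl⟩, hp⟩ := exists_norm_eq_iInf_of_complete_convex
    (K := (A : Set (EuclideanSpace ℝ s))) ⟨T x₀, x₀, h₀, rfl⟩ hcl.isComplete A.convex 0
  refine ⟨x, hx, fun y hy => ?_⟩
  rw [← hn, ← hn]
  have h1 : ‖(0 : EuclideanSpace ℝ s) - T x‖ ≤ ‖(0 : EuclideanSpace ℝ s) - T y‖ := by
    rw [hp]
    exact ciInf_le (f := fun q : (A : Set (EuclideanSpace ℝ s)) => ‖(0 : EuclideanSpace ℝ s) - q‖)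
      ⟨0, by rintro _ ⟨q, rfl⟩; exact norm_nonneg _⟩ ⟨T y, y, hy, rfl⟩
  simp only [zero_sub, norm_neg] at h1
  exact pow_le_pow_left₀ (norm_nonneg _) h1 2

/-- Fredholm alternative for finitely many linear equations. -/
lemma fredholm {N X : Type*} [AddCommGroup X] [Module ℝ X] (s : Finset N)
    (L : N → X →ₗ[ℝ] ℝ) (d : N → ℝ)
    (h : ∀ γ : N → ℝ, (∀ x, ∑ a ∈ s, γ a * L a x = 0) → ∑ a ∈ s, γ a * d a = 0) :
    ∃ x, ∀ a ∈ s, L a x = d a := by
  classical
  let T : X →ₗ[ℝ] EuclideanSpace ℝ s :=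
    { toFun := fun x => WithLp.toLp 2 fun a => L a x
      map_add' := fun x y => by ext a; simp
      map_smul' := fun c x => by ext a; simp }
  have hd : (WithLp.toLp 2 fun a : s => d a : EuclideanSpace ℝ s) ∈ (LinearMap.range T)ᗮᗮ := by
    rw [Submodule.mem_orthogonal]
    intro u hu
    have h1 := h (fun a => if ha : a ∈ s then u ⟨a, ha⟩ else 0) (fun x => by
      have := (Submodule.mem_orthogonal _ _).1 hu (T x) ⟨x, rfl⟩
      rw [← sum_coe_sort s]
      simpa [T, PiLp.inner_apply, mul_comm] using this)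
    rw [← sum_coe_sort s] at h1
    simpa [PiLp.inner_apply, mul_comm] using h1
  rw [Submodule.orthogonal_orthogonal] at hd
  obtain ⟨x, hx⟩ := hd
  refine ⟨x, fun a ha => ?_⟩
  have := congrArg (fun p : EuclideanSpace ℝ s => p ⟨a, ha⟩) hx
  simpa [T] using this

end Vale.Agent.P328
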