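import Vale.Agent.P328.Nf

/-! The local flows at one cell: conservation laws. -/

namespace Vale.Agent.P328

open Finset

variable {d : ℕ}

/-- Data of the local problem. -/
structure Ctx (d : ℕ) where
  Λ : V (d + 1)
  M : V (d + 1)
  θ : ℤ
  v : Fin (d + 1) → ℝ
  H : Fin (d + 1) → ℝ
  g : ℝ
  t : ℝ
  hΛ : Antitone Λ
  hM : Antitone M
  hl : M (Fin.last d) < Λ (Fin.last d)
  hH : H (Fin.last d) = 0

namespace Ctx

variable (c : Ctx d)

def L : V d := Lo c.Λ c.M
def U : V d := Up c.Λ c.M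
noncomputable def dU (i : Fin (d + 1)) : ℝ := if c.M i < c.Λ i then c.H i else c.v i
noncomputable def dL (i : Fin (d + 1)) : ℝ := if c.M i < c.Λ i then c.v i else c.H i
noncomputable def γ (j : Fin d) : ℝ := c.dU j.castSucc - c.dL j.succ
noncomputable def z (i : Fin (d + 1)) : ℝ := if c.M i < c.Λ i then c.H i - c.v i else 0
noncomputable def P : ℝ := c.t + ∑ i, c.z i
noncomputable def Q : ℝ := c.H 0 + ∑ j : Fin d, c.z j.succ - c.g
noncomputable def y (G : V d → Fin d → ℝ) (k : V d) (j : Fin d) : ℝ :=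
  if k j < c.L j then c.v j.succ else if c.U j ≤ k j then c.H j.castSucc
  else c.dU j.castSucc - G k j
noncomputable def w (G : V d → Fin d → ℝ) (k : V d) (j : Fin d) : ℝ :=
  if k j < c.L j then c.v j.succ else if c.U j ≤ k j then c.H j.castSucc
  else c.dL j.succ + G (Rf c.Λ c.M (k + e j)) j
noncomputable def w0 (b : V d → ℝ) (k : V d) : ℝ :=
  c.dL 0 + ind (c.θ ≤ tot (Rf c.Λ c.M k)) * b (Rf c.Λ c.M k)
def Hc : Prop := ∀ j k, c.θ - 1 ≤ tot k → R c.Λ c.M j k (-1) 0 → c.U j < c.L j →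
  c.M j.castSucc < c.Λ j.castSucc → c.M j.succ < c.Λ j.succ → c.v j.succ = c.H j.castSucc

lemma P_cast : c.P = c.t + ∑ j : Fin d, c.z j.castSucc - c.v (Fin.last d) := by
  rw [P, Fin.sum_univ_castSucc, z, if_pos c.hl, c.hH]; ring
lemma P_succ : c.P = c.t + c.z 0 + ∑ j : Fin d, c.z j.succ := by
  rw [P, Fin.sum_univ_succ]; ring
lemma dL_eq (i) : c.dL i = c.H i - c.z i := by unfold dL z; split_ifs <;> ring
lemma dU_eq (i) : c.dU i = c.v i + c.z i := by unfold dU z; split_ifs <;> ring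

lemma L_eq (j : Fin d) : c.L j = max (c.Λ j.succ) (c.M j.succ) := rfl
lemma U_eq (j : Fin d) : c.U j = min (c.Λ j.castSucc) (c.M j.castSucc) := rfl

lemma mem {k : V d} : k ∈ Icc c.L c.U ↔ GT k c.Λ ∧ GT k c.M := by rw [GT_core, mem_Icc]; rfl

variable {c} {G : V d → Fin d → ℝ} {b : V d → ℝ}

lemma up_term {k : V d} (h1 : GT k c.Λ) (h2 : GT k c.M) (j : Fin d) (a x : ℝ)
    (hx : x = if k j < c.L j then c.v j.succ else if c.U j ≤ k j then c.H j.castSucc else a) :
    ind (GT (k + e j) c.Λ) * x = c.v j.castSucc * ind (GT k (c.Λ - e j.castSucc)) +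
      ind (k j < c.U j) * (a - c.dU j.castSucc) + c.z j.castSucc := by
  have a1 := h1 j
  have a2 := h2 j
  have a3 := c.L_eq j
  have a4 := c.U_eq j
  rw [ind_congr (u1 h1), ind_congr (u3 h1), hx, dU_eq, z]
  unfold ind
  split_ifs <;> first | omega | ring

lemma down_term {k : V d} (h1 : GT k c.Λ) (h2 : GT k c.M) (j : Fin d) (a x : ℝ)
    (hx : x = if (k - e j) j < c.L j then c.v j.succ else if c.U j ≤ (k - e j) j then
      c.H j.castSucc else a) :
    ind (GT (k - e j) c.M) * x = ind (GT k (c.M + e j.succ)) * c.H j.succ +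
      ind (c.L j < k j) * (a - c.dL j.succ) - c.z j.succ := by
  have a1 := h1 j
  have a2 := h2 j
  have a3 := c.L_eq j
  have a4 := c.U_eq j
  have a5 : (k - e j) j = k j - 1 := by simp
  rw [ind_congr (u2 h2), ind_congr (u4 h2), hx, dL_eq, z]
  unfold ind
  split_ifs <;> first | omega | ring

lemma up_out {k : V d} (h1 : ¬ GT k c.Λ) (h2 : GT k c.M) (j : Fin d) (a x : ℝ)
    (hx : x = if k j < c.L j then c.v j.succ else a) :
    ind (GT (k + e j) c.Λ) * x = c.v j.succ * ind (GT k (c.Λ - e j.succ)) := by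
  rw [← ind_congr (n1 c.hΛ h2 h1), mul_comm (c.v _)]
  refine ind_mul_congr fun H => ?_
  have := n1' h1 H
  rw [hx, if_pos]
  simp only [L, Lo]; omega

lemma down_out {k : V d} (h1 : GT k c.Λ) (h2 : ¬ GT k c.M) (j : Fin d) (a x : ℝ)
    (hx : x = if (k - e j) j < c.L j then c.v j.succ else if c.U j ≤ (k - e j) j then
      c.H j.castSucc else a)
    (hc : GT (k - e j) c.M → c.U j < c.L j → c.M j.castSucc < c.Λ j.castSucc →
      c.M j.succ < c.Λ j.succ → c.v j.succ = c.H j.castSucc) :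
    ind (GT (k - e j) c.M) * x = ind (GT k (c.M + e j.castSucc)) * c.H j.castSucc := by
  rw [← ind_congr (n2'' c.hM h1 h2)]
  refine ind_mul_congr fun H => ?_
  have a0 := n2' h2 H
  have a1 := h1 j
  have a2 := H j
  have := hc H
  have a3 := c.L_eq j
  have a4 := c.U_eq j
  have a5 : (k - e j) j = k j - 1 := by simp
  rw [hx]
  split_ifs
  · exact this (by omega) (by omega) (by omega)
  · rfl
  · omega

lemma la (hB : BoxC c.L c.U c.θ c.γ c.P c.Q G b) {k : V d} (h2 : GT k c.M)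
    (hθ : c.θ - 1 ≤ tot k) :
    ∑ j, ind (GT (k + e j) c.Λ) * c.y G k j - ind (GT k c.Λ ∧ c.θ ≤ tot k) * b k =
      ∑ i, c.v i * ind (GT k (c.Λ - e i)) - c.t * ind (GT k c.Λ) := by
  by_cases h1 : GT k c.Λ
  · have h3 := hB.1 k (c.mem.2 ⟨h1, h2⟩) hθ
    rw [sum_congr rfl fun j _ => up_term h1 h2 j _ (c.y G k j) rfl, Fin.sum_univ_castSucc,
      ind_pos (u3l h1), ind_and, ind_pos h1]
    simp only [sum_add_distrib, sub_sub_cancel_left, mul_neg, sum_neg_distrib]
    rw [h3, P_cast]; ring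
  · rw [sum_congr rfl fun j _ => up_out h1 h2 j _ (c.y G k j) rfl, Fin.sum_univ_succ,
      ind_neg (n10 h1), ind_and, ind_neg h1]
    ring

lemma lb (hB : BoxC c.L c.U c.θ c.γ c.P c.Q G b) (hc : c.Hc) {k : V d} (h1 : GT k c.Λ)
    (hθ : c.θ ≤ tot k) :
    ∑ j, ind (GT (k - e j) c.M) * c.y G (k - e j) j + (c.g - b k) * ind (GT k c.M) =
      ∑ i, ind (GT k (c.M + e i)) * c.H i := by
  by_cases h2 : GT k c.M
  · have h3 := hB.2.1 k (c.mem.2 ⟨h1, h2⟩) hθ
    rw [sum_congr rfl fun j _ => down_term h1 h2 j _ (c.y G (k - e j) j) rfl, Fin.sum_univ_succ,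
      ind_pos (u40 h2), ind_pos h2]
    have : ∀ j : Fin d, c.dU j.castSucc - G (k - e j) j - c.dL j.succ = c.γ j - G (k - e j) j :=
      fun j => by rw [γ]; ring
    simp only [sum_add_distrib, sum_sub_distrib, this]
    rw [h3, Q]; ring
  · rw [sum_congr rfl fun j _ => down_out h1 h2 j _ (c.y G (k - e j) j) rfl ?_,
      Fin.sum_univ_castSucc, ind_neg h2, c.hH]
    · ring
    · intro H h4 h5 h6
      refine hc j (k - e j) (by simp; omega) ?_ h4 h5 h6
      have := nf_edge.1 ⟨H, by rwa [sub_add_cancel]⟩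
      rwa [if_pos h5, if_pos h6] at this

lemma Rf_add (k x : V d) : Rf c.Λ c.M (k + x) = Rf c.Λ c.M k - x := by
  simp only [Rf]; abel

lemma lt_U_iff (k : V d) (j : Fin d) : c.L j < Rf c.Λ c.M k j ↔ k j < c.U j := by
  simp only [Rf, L, U, Pi.add_apply, Pi.sub_apply]; omega

lemma lt_L_iff (k : V d) (j : Fin d) : Rf c.Λ c.M k j < c.U j ↔ c.L j < k j := by
  simp only [Rf, L, U, Pi.add_apply, Pi.sub_apply]; omega

lemma lc (hB : BoxC c.L c.U c.θ c.γ c.P c.Q G b) {k : V d} {a : ℤ} (h0 : c.M 0 ≤ a)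
    (h2 : GT k c.M) (ha : a = max (c.Λ 0) (c.M 0) + tot (Rf c.Λ c.M k) - c.θ) :
    ind (c.Λ 0 ≤ a + 1 ∧ GT k c.Λ) * c.w0 b k +
        ∑ j, ind (c.Λ 0 ≤ a ∧ GT (k + e j) c.Λ) * c.w G k j =
      ∑ i, c.v i * ind ((c.Λ - e i) 0 ≤ a ∧ GT k (c.Λ - e i)) +
        c.g * ind (c.Λ 0 ≤ a ∧ GT k c.Λ) := by
  by_cases h4 : c.Λ 0 ≤ a
  · have h5 : ∀ i : Fin (d + 1), (c.Λ - e i) 0 ≤ a := fun i => by
      have := e_nonneg i 0
      simp only [Pi.sub_apply]; omega
    have h6 : c.Λ 0 ≤ a + 1 := by omega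
    simp only [h4, h5, h6, true_and]
    by_cases h1 : GT k c.Λ
    · have hθ : c.θ ≤ tot (Rf c.Λ c.M k) := by omega
      have h3 := hB.2.1 _ (c.mem.2 (core_Rf.2 ⟨h1, h2⟩)) hθ
      rw [sum_congr rfl fun j _ => up_term h1 h2 j _ (c.w G k j) rfl, Fin.sum_univ_castSucc,
        ind_pos (u3l h1), ind_pos h1, w0, ind_pos hθ]
      have : ∀ j : Fin d, ind (k j < c.U j) * (c.dL j.succ + G (Rf c.Λ c.M (k + e j)) j -
          c.dU j.castSucc) = -(ind (c.L j < Rf c.Λ c.M k j) *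
            (c.γ j - G (Rf c.Λ c.M k - e j) j)) :=
        fun j => by rw [γ, Rf_add, ind_congr (lt_U_iff k j)]; ring
      simp only [sum_add_distrib, this, sum_neg_distrib]
      have e1 := c.P_cast
      have e2 := c.P_succ
      rw [h3, Q, dL_eq]; linarith
    · rw [sum_congr rfl fun j _ => up_out h1 h2 j _ (c.w G k j) rfl, Fin.sum_univ_succ,
        ind_neg (n10 h1), ind_neg h1]
      ring
  · have h5 : ∀ j : Fin d, ¬ (c.Λ - e j.succ) 0 ≤ a := fun j => by simpa using h4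
    have h6 : c.M 0 < c.Λ 0 := by omega
    rw [Fin.sum_univ_succ]
    simp only [h4, h5, false_and, ind_neg not_false, zero_mul, mul_zero, sum_const_zero, add_zero]
    rw [ind_congr (and_congr (by simp : _ ↔ c.Λ 0 ≤ a + 1) (nf_V0 h6 h2)), mul_comm (c.v 0)]
    refine ind_mul_congr fun H => ?_
    rw [w0, ind_neg (by omega), dL, if_pos h6]; ring

lemma ld (hB : BoxC c.L c.U c.θ c.γ c.P c.Q G b) (hc : c.Hc) {k : V d} {a : ℤ} (h0 : c.Λ 0 ≤ a)
    (h1 : GT k c.Λ) (ha : a = max (c.Λ 0) (c.M 0) + tot (Rf c.Λ c.M k) - c.θ + 1) :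
    ind (c.M 0 ≤ a - 1 ∧ GT k c.M) * c.w0 b k +
        ∑ j, ind (c.M 0 ≤ a ∧ GT (k - e j) c.M) * c.w G (k - e j) j =
      c.t * ind (c.M 0 ≤ a ∧ GT k c.M) +
        ∑ i, ind ((c.M + e i) 0 ≤ a ∧ GT k (c.M + e i)) * c.H i := by
  by_cases h4 : c.M 0 ≤ a
  · have hθ : c.θ - 1 ≤ tot (Rf c.Λ c.M k) := by omega
    by_cases h2 : GT k c.M
    · have h5 : ∀ j : Fin d, (c.M + e j.succ) 0 ≤ a := fun j => by simpa using h4
      have h3 := hB.1 _ (c.mem.2 (core_Rf.2 ⟨h1, h2⟩)) hθ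
      rw [Fin.sum_univ_succ]
      simp only [h4, h5, h2, u40 h2, true_and, and_true]
      rw [sum_congr rfl fun j _ => down_term h1 h2 j _ (c.w G (k - e j) j) rfl]
      have : ∀ j : Fin d, ind (c.L j < k j) * (c.dL j.succ + G (Rf c.Λ c.M (k - e j + e j)) j -
          c.dL j.succ) = ind (Rf c.Λ c.M k j < c.U j) * G (Rf c.Λ c.M k) j :=
        fun j => by rw [sub_add_cancel, ind_congr (lt_L_iff k j)]; ring
      simp only [sum_add_distrib, sum_sub_distrib, this]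
      rw [h3, P_succ, w0, dL_eq, z]
      have a5 : (c.M + e (0 : Fin (d + 1))) 0 = c.M 0 + 1 := by simp
      unfold ind
      split_ifs <;> first | omega | ring
    · simp only [h4, h2, true_and, and_false, ind_neg not_false]
      rw [sum_congr rfl fun j _ => down_out h1 h2 j _ (c.w G (k - e j) j) rfl ?_,
        Fin.sum_univ_castSucc, c.hH]
      · simp only [zero_mul, mul_zero, add_zero, zero_add]
        refine sum_congr rfl fun j _ => ?_
        congr 1
        refine ind_congr ⟨fun H => ⟨?_, H⟩, fun H => H.2⟩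
        have b1 := e_cases j.castSucc 0 c.Λ c.M
        have b2 := n2' h2 ((n2'' c.hM h1 h2).2 H)
        have b3 := h1 j
        simp only [Pi.add_apply]; omega
      · intro H h4 h5 h6
        refine hc j (Rf c.Λ c.M k) hθ ?_ h4 h5 h6
        have := (nf_edge' (k := Rf c.Λ c.M k)).1 ⟨by rwa [Rf_Rf], by rwa [Rf_Rf]⟩
        rwa [if_pos h5, if_pos h6] at this
  · have h5 : ∀ i : Fin (d + 1), ¬ (c.M + e i) 0 ≤ a := fun i => by
      have := e_nonneg i 0
      simp only [Pi.add_apply]; omega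
    have h6 : ¬ c.M 0 ≤ a - 1 := by omega
    simp only [h4, h5, h6, false_and, ind_neg not_false, zero_mul, mul_zero, sum_const_zero]

end Ctx

end Vale.Agent.P328
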