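import Vale.Agent.P328.Loc

/-! The local flows at one cell: counting and energy. -/

namespace Vale.Agent.P328

open Finset

variable {d : ℕ}

lemma box_shift (x : V (d + 1)) (a : V d) (B : Finset (V d)) (F : V d → ℝ)
    (h : ∀ k, GT (k + a) x → F (k + a) ≠ 0 → k ∈ B) :
    ∑ κ ∈ box x, F κ = ∑ k ∈ B, ind (GT (k + a) x) * F (k + a) := by
  rw [← sum_shift (A := box x) (f := fun κ => ind (GT κ x) * F κ) a]
  · exact sum_congr rfl fun κ hκ => by rw [ind_pos (mem_box.1 hκ), one_mul]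
  · intro k hk
    have h1 := ind_ne (left_ne_zero_of_mul hk)
    exact iff_of_true (mem_box.2 h1) (h k h1 (right_ne_zero_of_mul hk))

lemma box_sum (x : V (d + 1)) (B : Finset (V d)) (F : V d → ℝ)
    (h : ∀ k, GT k x → F k ≠ 0 → k ∈ B) :
    ∑ κ ∈ box x, F κ = ∑ k ∈ B, ind (GT k x) * F k := by
  simpa using box_shift x 0 B F (by simpa using h)

namespace Ctx

variable (c : Ctx d)

noncomputable def A0 : Finset (V d) := Icc (c.L - 1) (c.U + 1)
noncomputable def cnt (j : Fin d) (p q : ℤ) : ℝ :=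
  ∑ k ∈ c.A0, ind (c.θ - 1 ≤ tot k) * ind (R c.Λ c.M j k p q)
noncomputable def Am : ℝ := ∑ k ∈ Icc c.L c.U, ind (c.θ - 1 ≤ tot k)
noncomputable def Ap : ℝ := ∑ k ∈ Icc c.L c.U, ind (c.θ ≤ tot k)
noncomputable def cH (i : Fin (d + 1)) : ℝ :=
  ∑ κ ∈ box c.Λ, ind (c.θ ≤ tot κ) * ind (GT κ (c.M + e i))
noncomputable def cV (i : Fin (d + 1)) : ℝ :=
  ∑ κ ∈ box (c.Λ - e i), ind (c.θ - 1 ≤ tot κ) * ind (GT κ c.M)

variable {c}

lemma R_mem {j : Fin d} {k : V d} {p q : ℤ} (h : R c.Λ c.M j k p q) (hp : -1 ≤ p) (hq : q ≤ 0) :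
    k ∈ c.A0 ∧ k + e j ∈ c.A0 := by
  simp only [A0, mem_Icc, Pi.le_def, Pi.sub_apply, Pi.add_apply, Pi.one_apply, ← forall_and]
  intro i
  by_cases hi : i = j
  · subst hi
    have := h.2
    simp only [L, U, e_self]; omega
  · have := h.1 i hi
    simp only [L, U, e_ne hi]; omega

lemma core_mem {k : V d} (h : k ∈ Icc c.L c.U) : k ∈ c.A0 := by
  simp only [A0, mem_Icc, Pi.le_def, Pi.sub_apply, Pi.add_apply, Pi.one_apply] at h ⊢
  exact ⟨fun i => by have := h.1 i; omega, fun i => by have := h.2 i; omega⟩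

lemma sum_core (x : V (d + 1)) (F : V d → ℝ) (h : ∀ k, GT k c.M → (GT k x ↔ GT k c.Λ)) :
    ∑ κ ∈ box x, F κ * ind (GT κ c.M) = ∑ k ∈ Icc c.L c.U, F k := by
  rw [sum_supp (B := Icc c.L c.U)]
  · exact sum_congr rfl fun k hk => by rw [ind_pos (c.mem.1 hk).2, mul_one]
  · intro k hk
    have := ind_ne (right_ne_zero_of_mul hk)
    rw [mem_box, c.mem, h k this]
    exact (and_iff_left this).symm

lemma cH_of {j : Fin d} {i : Fin (d + 1)} {p q : ℤ} (hp : -1 ≤ p) (hq : q ≤ 0)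
    (h : ∀ k, GT (k + e j) c.Λ ∧ GT (k + e j) (c.M + e i) ↔ R c.Λ c.M j k p q) :
    c.cH i = c.cnt j p q := by
  rw [cH, box_shift _ (e j) c.A0]
  · refine sum_congr rfl fun k _ => ?_
    rw [← ind_congr (h k), ind_and, ind_congr (by simp : c.θ ≤ tot (k + e j) ↔
      c.θ - 1 ≤ tot k)]
    ring
  · exact fun k h1 h2 => (R_mem ((h k).1 ⟨h1, ind_ne (right_ne_zero_of_mul h2)⟩) hp hq).1

lemma cV_of {j : Fin d} {i : Fin (d + 1)} {p q : ℤ} (hp : -1 ≤ p) (hq : q ≤ 0)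
    (h : ∀ k, GT k (c.Λ - e i) ∧ GT k c.M ↔ R c.Λ c.M j k p q) :
    c.cV i = c.cnt j p q := by
  rw [cV, box_sum _ c.A0]
  · refine sum_congr rfl fun k _ => ?_
    rw [← ind_congr (h k), ind_and]
    ring
  · exact fun k h1 h2 => (R_mem ((h k).1 ⟨h1, ind_ne (right_ne_zero_of_mul h2)⟩) hp hq).1

lemma split (α β : Fin (d + 1) → ℝ) (hα : α (Fin.last d) = 0) :
    ∑ i, (c.cH i * α i + c.cV i * β i) =
      ∑ j : Fin d, (if c.M j.castSucc < c.Λ j.castSucc then α j.castSucc * c.cnt j (-1) 0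
        else β j.castSucc * c.cnt j 0 (-1)) +
      ∑ j : Fin d, (if c.M j.succ < c.Λ j.succ then β j.succ * c.cnt j (-1) 0
        else α j.succ * c.cnt j 0 (-1)) +
      (if c.M 0 < c.Λ 0 then β 0 * c.Am else α 0 * c.Ap) := by
  have h1 : ∀ i, c.cH i * α i + c.cV i * β i =
      (if c.M i < c.Λ i then α i * c.cH i else β i * c.cV i) +
      (if c.M i < c.Λ i then β i * c.cV i else α i * c.cH i) := fun i => by
    split_ifs <;> ring
  rw [sum_congr rfl fun i _ => h1 i, sum_add_distrib, Fin.sum_univ_castSucc, if_pos c.hl, hα,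
    zero_mul, add_zero, Fin.sum_univ_succ, add_assoc, add_comm (ite _ _ _)]
  congr 1
  · refine sum_congr rfl fun j _ => ?_
    split_ifs with h
    · rw [cH_of le_rfl le_rfl fun k => nf_Hc h]
    · rw [cV_of (by omega) (by omega) fun k => nf_Vc h]
  · congr 1
    · refine sum_congr rfl fun j _ => ?_
      split_ifs with h
      · rw [cV_of le_rfl le_rfl fun k => nf_Vs h]
      · rw [cH_of (by omega) (by omega) fun k => nf_Hs h]
    · split_ifs with h
      · rw [cV, sum_core _ _ fun k hk => nf_V0 h hk, Am]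
      · rw [cH, Ap, ← sum_core c.Λ _ fun _ _ => Iff.rfl]
        congr 1
        exact sum_congr rfl fun k hk => by rw [ind_congr (nf_H0 h (mem_box.1 hk))]

lemma R_core {j : Fin d} {k : V d} : R c.Λ c.M j k 0 (-1) ↔ k ∈ Icc c.L c.U ∧ k j < c.U j := by
  rw [c.mem, nf_core j]
  simp only [R, U]
  constructor
  · exact fun h => ⟨⟨h.1, h.2.1, by omega⟩, by omega⟩
  · exact fun h => ⟨h.1.1, h.1.2.1, by omega⟩

lemma sum_C (j : Fin d) (F : V d → ℝ) :
    ∑ k ∈ c.A0, ind (c.θ - 1 ≤ tot k) * (ind (R c.Λ c.M j k 0 (-1)) * F k) =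
      ∑ k ∈ Icc c.L c.U, ind (c.θ - 1 ≤ tot k) * (ind (k j < c.U j) * F k) := by
  rw [sum_supp (B := Icc c.L c.U)]
  · exact sum_congr rfl fun k hk => by rw [ind_congr R_core, ind_and, ind_pos hk, one_mul]
  · intro k hk
    have := R_core.1 (ind_ne (left_ne_zero_of_mul (right_ne_zero_of_mul hk)))
    exact iff_of_true (core_mem this.1) this.1

lemma cnt_add (j : Fin d) (h : c.L j ≤ c.U j) :
    c.cnt j (-1) 0 = c.Am + c.Ap - c.cnt j 0 (-1) := by
  have h1 : c.Am = c.cnt j 0 0 := by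
    rw [Am, cnt, sum_supp (A := c.A0) (B := Icc c.L c.U)]
    · exact sum_congr rfl fun k hk => by rw [ind_pos ((nf_core j).1 (c.mem.1 hk)), mul_one]
    · intro k hk
      have := c.mem.2 ((nf_core j).2 (ind_ne (right_ne_zero_of_mul hk)))
      exact iff_of_true (core_mem this) this
  have h2 : c.Ap = c.cnt j (-1) (-1) := by
    rw [Ap, ← sum_core c.Λ _ fun _ _ => Iff.rfl, box_shift _ (e j) c.A0]
    · refine sum_congr rfl fun k _ => ?_
      rw [← ind_congr (nf_core' j), ind_and, ind_congr (by simp : c.θ ≤ tot (k + e j) ↔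
        c.θ - 1 ≤ tot k)]
      ring
    · exact fun k h1 h2 => (R_mem ((nf_core' j).1 ⟨h1, ind_ne (right_ne_zero_of_mul h2)⟩)
        le_rfl (by omega)).1
  rw [h1, h2, cnt, cnt, cnt, cnt, ← sum_add_distrib, ← sum_sub_distrib]
  refine sum_congr rfl fun k _ => ?_
  rw [← mul_add, ← mul_sub]
  congr 1
  by_cases ho : Off c.Λ c.M j k
  · simp only [R, ho, true_and]
    simp only [L, U] at h
    unfold ind
    split_ifs <;> first | omega | ring
  · simp [R, ho, ind]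

lemma exists_G (hT : c.L ≤ c.U → TB c.L c.U)
    (bal : ∑ i, c.cH i * c.H i = ∑ i, c.v i * c.cV i - c.t * c.Am + c.g * c.Ap) :
    ∃ G b, BoxC c.L c.U c.θ c.γ c.P c.Q G b ∧ c.Hc := by
  have h1 := split (c := c) c.H (fun i => - c.v i) c.hH
  have h2 : ∑ i, (c.cH i * c.H i + c.cV i * - c.v i) = - c.t * c.Am + c.g * c.Ap := by
    rw [sum_add_distrib, bal, sum_congr rfl fun i _ => (by ring : c.cV i * - c.v i =
      -(c.v i * c.cV i)), sum_neg_distrib]
    ring
  rw [h2] at h1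
  by_cases hLU : c.L ≤ c.U
  · obtain ⟨G, b, h⟩ := hT hLU c.θ c.γ c.P c.Q (by
      have h3 : ∀ j, ∑ k ∈ Icc c.L c.U, ind (c.θ - 1 ≤ tot k) * ind (k j < c.U j) =
          c.cnt j 0 (-1) := fun j => by simpa [cnt] using (sum_C j fun _ => 1).symm
      have h4 : ∀ j : Fin d, (if c.M j.castSucc < c.Λ j.castSucc then
          c.H j.castSucc * c.cnt j (-1) 0 else - c.v j.castSucc * c.cnt j 0 (-1)) =
          - (c.dU j.castSucc * c.cnt j 0 (-1)) + (c.Am + c.Ap) *
            (if c.M j.castSucc < c.Λ j.castSucc then c.H j.castSucc else 0) := fun j => by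
        rw [cnt_add j (hLU j), dU]; split_ifs <;> ring
      have h5 : ∀ j : Fin d, (if c.M j.succ < c.Λ j.succ then
          - c.v j.succ * c.cnt j (-1) 0 else c.H j.succ * c.cnt j 0 (-1)) =
          c.dL j.succ * c.cnt j 0 (-1) + (c.Am + c.Ap) * c.z j.succ - (c.Am + c.Ap) *
            (if c.M j.succ < c.Λ j.succ then c.H j.succ else 0) := fun j => by
        rw [cnt_add j (hLU j), dL, z]; split_ifs <;> ring
      have h6 : ∑ j : Fin d, (if c.M j.castSucc < c.Λ j.castSucc then c.H j.castSucc else 0) =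
          (if c.M 0 < c.Λ 0 then c.H 0 else 0) +
          ∑ j : Fin d, (if c.M j.succ < c.Λ j.succ then c.H j.succ else 0) := by
        rw [← Fin.sum_univ_succ fun i => if c.M i < c.Λ i then c.H i else 0,
          Fin.sum_univ_castSucc, c.hH]
        simp
      simp only [h3, h4, h5, sum_add_distrib, sum_sub_distrib, ← mul_sum, sum_neg_distrib, h6,
        γ, sub_mul] at h1 ⊢
      rw [P_succ, Q, z]
      change _ = _ * c.Am + _ * c.Ap
      split_ifs at h1 ⊢ <;> linarith)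
    exact ⟨G, b, h, fun j _ _ _ h4 => absurd (hLU j) (not_le.2 h4)⟩
  · have he : Icc c.L c.U = ∅ := Icc_eq_empty hLU
    refine ⟨0, 0, by simp [BoxC, he], fun j k hk hR h4 h5 h6 => ?_⟩
    have hC : ∀ i, c.cnt i 0 (-1) = 0 := fun i => sum_eq_zero fun k _ => by
      rw [ind_congr R_core, he, ind_neg (p := _ ∧ _) (by simp), mul_zero]
    have hX : ∀ i, i ≠ j → c.cnt i (-1) 0 = 0 := fun i hi => sum_eq_zero fun k _ => by
      rw [ind_neg (p := R _ _ _ _ _ _), mul_zero]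
      intro h
      have := h.1 j hi.symm
      simp only [L, U] at h4; omega
    have hp : 0 < c.cnt j (-1) 0 := by
      refine sum_pos' (fun _ _ => mul_nonneg (ind_nonneg _) (ind_nonneg _))
        ⟨k, (R_mem hR le_rfl le_rfl).1, ?_⟩
      rw [ind_pos hk, ind_pos hR]; norm_num
    rw [sum_eq_single j (fun i _ hi => by simp [hC, hX i hi]) (by simp),
      sum_eq_single j (fun i _ hi => by simp [hC, hX i hi]) (by simp), if_pos h5, if_pos h6,
      Am, Ap, he] at h1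
    simp only [sum_empty, mul_zero, ite_self, add_zero] at h1
    apply mul_right_cancel₀ hp.ne'
    linarith

variable {G : V d → Fin d → ℝ} {b : V d → ℝ}

lemma edge_sq (hc : c.Hc) (j : Fin d) (k : V d) (hk : c.θ - 1 ≤ tot k) :
    ind (GT k c.M ∧ GT (k + e j) c.Λ) * c.y G k j ^ 2 +
      ind (GT (Rf c.Λ c.M k - e j) c.M ∧ GT (Rf c.Λ c.M k) c.Λ) *
        c.w G (Rf c.Λ c.M k - e j) j ^ 2 =
    (if c.M j.castSucc < c.Λ j.castSucc then c.H j.castSucc ^ 2 * ind (R c.Λ c.M j k (-1) 0)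
        else c.v j.castSucc ^ 2 * ind (R c.Λ c.M j k 0 (-1))) +
      (if c.M j.succ < c.Λ j.succ then c.v j.succ ^ 2 * ind (R c.Λ c.M j k (-1) 0)
        else c.H j.succ ^ 2 * ind (R c.Λ c.M j k 0 (-1))) -
      ind (R c.Λ c.M j k 0 (-1)) * (2 * G k j * (c.γ j - G k j)) := by
  rw [ind_congr nf_edge, ind_congr nf_edge', y, w, sub_add_cancel, Rf_Rf, γ, dU, dL]
  have h1 := hc j k hk
  by_cases ho : Off c.Λ c.M j k
  · simp only [R, ho, true_and] at h1 ⊢
    have a1 : Lo c.Λ c.M j = c.L j := rfl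
    have a2 : Up c.Λ c.M j = c.U j := rfl
    have a3 : (Rf c.Λ c.M k - e j) j = c.L j + c.U j - k j - 1 := by simp [Rf, L, U]
    have a4 := c.L_eq j
    have a5 := c.U_eq j
    have a6 : c.Λ j.succ ≤ c.Λ j.castSucc := c.hΛ (Fin.castSucc_le_succ j)
    have a7 : c.M j.succ ≤ c.M j.castSucc := c.hM (Fin.castSucc_le_succ j)
    rw [a1, a2] at h1 ⊢
    rw [a3]
    by_cases h5 : c.M j.castSucc < c.Λ j.castSucc <;> by_cases h6 : c.M j.succ < c.Λ j.succ <;>
      simp only [h5, h6, if_true, if_false] <;> unfold ind <;> split_ifs <;>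
      first | omega | ring1 | (rw [h1 (by omega) (by omega) h5 h6]; ring1)
  · simp [R, ho, ind]

lemma energy (hB : BoxC c.L c.U c.θ c.γ c.P c.Q G b) (hc : c.Hc) :
    ∑ κ ∈ Bx c.Λ, ind (c.θ - 1 ≤ tot κ) * ind (GT κ c.M) *
        ∑ j, ind (GT (κ + e j) c.Λ) * c.y G κ j ^ 2 +
      ∑ κ ∈ box c.Λ, ind (c.θ ≤ tot κ) * ind (GT κ c.M) *
        (3 * b κ ^ 2 - 2 * (c.g + c.t) * b κ) +
      ∑ k ∈ c.A0, ind (c.M 0 ≤ max (c.Λ 0) (c.M 0) + tot k - c.θ ∧ GT (Rf c.Λ c.M k) c.M) *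
        (ind (c.Λ 0 ≤ max (c.Λ 0) (c.M 0) + tot k - c.θ + 1 ∧ GT (Rf c.Λ c.M k) c.Λ) *
          c.w0 b (Rf c.Λ c.M k) ^ 2 +
        ∑ j, ind (c.Λ 0 ≤ max (c.Λ 0) (c.M 0) + tot k - c.θ ∧ GT (Rf c.Λ c.M k + e j) c.Λ) *
          c.w G (Rf c.Λ c.M k) j ^ 2) ≤
      ∑ i, (c.cH i * c.H i ^ 2 + c.cV i * c.v i ^ 2) := by
  rw [split _ _ (by rw [c.hH]; ring)]
  have e1 : ∑ κ ∈ Bx c.Λ, ind (c.θ - 1 ≤ tot κ) * ind (GT κ c.M) *
      ∑ j, ind (GT (κ + e j) c.Λ) * c.y G κ j ^ 2 = ∑ j, ∑ k ∈ c.A0, ind (c.θ - 1 ≤ tot k) *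
        (ind (GT k c.M ∧ GT (k + e j) c.Λ) * c.y G k j ^ 2) := by
    simp only [mul_sum]
    rw [sum_comm]
    refine sum_congr rfl fun j _ => ?_
    rw [sum_supp (B := c.A0)]
    · exact sum_congr rfl fun k _ => by rw [ind_and]; ring
    · intro k hk
      have h1 := ind_ne (right_ne_zero_of_mul (left_ne_zero_of_mul hk))
      have h2 := ind_ne (left_ne_zero_of_mul (right_ne_zero_of_mul hk))
      refine iff_of_true (mem_Bx.2 fun i => ?_) (R_mem (nf_edge.1 ⟨h1, h2⟩) (by omega) (by omega)).1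
      have := h2 i
      have := e_le j i
      have := e_nonneg j i
      simp only [Pi.add_apply] at *; omega
  have e2 : ∑ κ ∈ box c.Λ, ind (c.θ ≤ tot κ) * ind (GT κ c.M) *
      (3 * b κ ^ 2 - 2 * (c.g + c.t) * b κ) = ∑ k ∈ Icc c.L c.U, ind (c.θ ≤ tot k) *
      (3 * b k ^ 2 - 2 * (c.g + c.t) * b k) := by
    rw [← sum_core c.Λ _ fun _ _ => Iff.rfl]
    exact sum_congr rfl fun k _ => by ring
  have e3 : ∑ k ∈ c.A0, ind (c.M 0 ≤ max (c.Λ 0) (c.M 0) + tot k - c.θ ∧ GT (Rf c.Λ c.M k) c.M) *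
      (ind (c.Λ 0 ≤ max (c.Λ 0) (c.M 0) + tot k - c.θ + 1 ∧ GT (Rf c.Λ c.M k) c.Λ) *
          c.w0 b (Rf c.Λ c.M k) ^ 2) = (if c.M 0 < c.Λ 0 then c.v 0 ^ 2 * c.Am
            else c.H 0 ^ 2 * c.Ap) +
      ∑ k ∈ Icc c.L c.U, ind (c.θ ≤ tot k) * (b k ^ 2 + 2 * c.dL 0 * b k) := by
    rw [sum_supp (B := Icc c.L c.U), Am, Ap, mul_sum, mul_sum, ← sum_ite_irrel, ← sum_add_distrib]
    · refine sum_congr rfl fun k hk => ?_
      have h1 := core_Rf.2 (c.mem.1 hk)
      simp only [h1.1, h1.2, and_true, w0, Rf_Rf, dL]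
      unfold ind
      split_ifs <;> first | omega | ring
    · intro k hk
      have := c.mem.2 (core_Rf.1 ⟨(ind_ne (left_ne_zero_of_mul (right_ne_zero_of_mul hk))).2,
        (ind_ne (left_ne_zero_of_mul hk)).2⟩)
      exact iff_of_true (core_mem this) this
  have e4 : ∑ k ∈ c.A0, ind (c.M 0 ≤ max (c.Λ 0) (c.M 0) + tot k - c.θ ∧ GT (Rf c.Λ c.M k) c.M) *
      ∑ j, ind (c.Λ 0 ≤ max (c.Λ 0) (c.M 0) + tot k - c.θ ∧ GT (Rf c.Λ c.M k + e j) c.Λ) *
          c.w G (Rf c.Λ c.M k) j ^ 2 = ∑ j, ∑ k ∈ c.A0, ind (c.θ - 1 ≤ tot k) *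
        (ind (GT (Rf c.Λ c.M k - e j) c.M ∧ GT (Rf c.Λ c.M k) c.Λ) *
          c.w G (Rf c.Λ c.M k - e j) j ^ 2) := by
    simp only [mul_sum]
    rw [sum_comm]
    refine sum_congr rfl fun j _ => ?_
    rw [sum_shift (B := c.A0) (e j)]
    · refine sum_congr rfl fun k _ => ?_
      rw [Rf_add, sub_add_cancel, ← mul_assoc, ← mul_assoc, ← ind_and, ← ind_and]
      congr 1
      refine ind_congr ?_
      simp only [tot_add, tot_e]
      exact ⟨fun h => ⟨by omega, h.1.2, h.2.2⟩, fun h => ⟨⟨by omega, h.2.1⟩, by omega, h.2.2⟩⟩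
    · intro k hk
      have h1 := (ind_ne (left_ne_zero_of_mul hk)).2
      have h2 := (ind_ne (left_ne_zero_of_mul (right_ne_zero_of_mul hk))).2
      rw [Rf_add] at h1 h2
      rw [sub_add_cancel] at h2
      have := R_mem (nf_edge'.1 ⟨h1, h2⟩) (by omega) (by omega)
      exact iff_of_true this.2 this.1
  rw [e1, e2, sum_congr rfl fun k _ => mul_add _ _ _, sum_add_distrib, e3, e4]
  have e5 : ∀ j : Fin d, ∑ k ∈ c.A0, ind (c.θ - 1 ≤ tot k) *
        (ind (GT k c.M ∧ GT (k + e j) c.Λ) * c.y G k j ^ 2) + ∑ k ∈ c.A0, ind (c.θ - 1 ≤ tot k) *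
        (ind (GT (Rf c.Λ c.M k - e j) c.M ∧ GT (Rf c.Λ c.M k) c.Λ) *
          c.w G (Rf c.Λ c.M k - e j) j ^ 2) =
      (if c.M j.castSucc < c.Λ j.castSucc then c.H j.castSucc ^ 2 * c.cnt j (-1) 0
        else c.v j.castSucc ^ 2 * c.cnt j 0 (-1)) +
      (if c.M j.succ < c.Λ j.succ then c.v j.succ ^ 2 * c.cnt j (-1) 0
        else c.H j.succ ^ 2 * c.cnt j 0 (-1)) -
      ∑ k ∈ Icc c.L c.U, ind (c.θ - 1 ≤ tot k) *
        (ind (k j < c.U j) * (2 * G k j * (c.γ j - G k j))) := by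
    intro j
    rw [← sum_C, cnt, cnt]
    simp only [mul_sum]
    rw [← sum_ite_irrel, ← sum_ite_irrel, ← sum_add_distrib, ← sum_add_distrib, ← sum_sub_distrib]
    refine sum_congr rfl fun k _ => ?_
    rw [← mul_add, ind_mul_congr (edge_sq hc j k)]
    split_ifs <;> ring
  have e6 := sum_congr rfl fun j (_ : j ∈ (univ : Finset (Fin d))) => e5 j
  rw [sum_add_distrib, sum_sub_distrib, sum_add_distrib] at e6
  have e7 := hB.2.2
  simp only [mul_sum] at e7
  rw [sum_comm] at e7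
  have e8 : ∑ k ∈ Icc c.L c.U, ind (c.θ ≤ tot k) * (4 * b k ^ 2 - 2 * b k * (c.P - c.Q)) =
      ∑ k ∈ Icc c.L c.U, ind (c.θ ≤ tot k) * (3 * b k ^ 2 - 2 * (c.g + c.t) * b k) +
      ∑ k ∈ Icc c.L c.U, ind (c.θ ≤ tot k) * (b k ^ 2 + 2 * c.dL 0 * b k) := by
    rw [← sum_add_distrib]
    refine sum_congr rfl fun k _ => ?_
    rw [P_succ, Q, dL_eq]; ring
  linarith

end Ctx

theorem t0_of {Λ : V (d + 1)} {μ : V d} (hΛ : Antitone Λ) (h0 : 0 ≤ Λ) (hμ : Antitone μ)
    (h1 : ∀ j, -1 ≤ μ j)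
    (hT : Lo Λ (hat μ (-1)) ≤ Up Λ (hat μ (-1)) → TB (Lo Λ (hat μ (-1))) (Up Λ (hat μ (-1)))) :
    T0 Λ μ := by
  intro θ v h g t bal
  have h0' : ∀ i, 0 ≤ Λ i := h0
  let c : Ctx d :=
    { Λ := Λ, M := hat μ (-1), θ := θ, v := v, H := Fin.snoc h 0, g := g, t := t, hΛ := hΛ
      hM := by
        intro a b hab
        induction b using Fin.lastCases with
        | last => induction a using Fin.lastCases <;> simp [h1]
        | cast b =>
          induction a using Fin.lastCases with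
          | last => exact absurd hab (Fin.castSucc_lt_last b).not_ge
          | cast a => simpa using hμ (Fin.castSucc_le_castSucc_iff.1 hab)
      hl := by have := h0' (Fin.last d); simp; omega
      hH := by simp }
  have hx : ∀ {κ : V d} {x : V (d + 1)}, (∀ i, -1 ≤ x i) → GT κ x → ∀ j, -1 ≤ κ j :=
    fun hx H j => (hx _).trans (H j).1
  have hΛ1 : ∀ i, -1 ≤ Λ i := fun i => by have := h0' i; omega
  have hΛ2 : ∀ i j : Fin (d + 1), -1 ≤ (Λ - e i) j := fun i j => by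
    have := h0' j; have := e_le i j; simp only [Pi.sub_apply]; omega
  have cH : ∀ F : Fin (d + 1) → ℝ, F (Fin.last d) = 0 →
      ∑ i, c.cH i * F i = ∑ j, cM Λ (μ + e j) θ * F j.castSucc := by
    intro F hF
    rw [Fin.sum_univ_castSucc, hF, mul_zero, add_zero]
    refine sum_congr rfl fun j _ => ?_
    congr 1
    refine sum_congr rfl fun κ hκ => ?_
    rw [ind_congr (St_hat (hx hΛ1 (mem_box.1 hκ))), hat_add_e]
  have cV : ∀ i, c.cV i = cM (Λ - e i) μ (θ - 1) := fun i =>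
    sum_congr rfl fun κ hκ => by rw [ind_congr (St_hat (hx (hΛ2 i) (mem_box.1 hκ)))]
  have cA : ∀ θ', cM Λ μ θ' = ∑ k ∈ Icc c.L c.U, ind (θ' ≤ tot k) := fun θ' => by
    rw [← Ctx.sum_core c.Λ _ fun _ _ => Iff.rfl]
    exact sum_congr rfl fun κ hκ => by rw [ind_congr (St_hat (hx hΛ1 (mem_box.1 hκ)))]
  obtain ⟨G, b, hB, hc⟩ := c.exists_G hT (by
    rw [cH _ c.hH]
    simp only [cV]
    simpa [c, cA, Ctx.Am, Ctx.Ap] using bal)
  have hsum : ∀ F : Fin (d + 1) → ℝ, ∑ i, F i * c.H i = ∑ j : Fin d, F j.castSucc * h j := by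
    intro F
    rw [Fin.sum_univ_castSucc]; simp [c]
  have hlev : ∀ ν : V (d + 1), ν 0 = max (Λ 0) (hat μ (-1) 0) +
      tot (Rf Λ (hat μ (-1)) (Fin.tail ν)) - (tot Λ + tot μ - tot ν) := fun ν => by
    rw [tot_Rf, tot_hat, hat_last, min_eq_right (hΛ1 _), tot_succ ν]; ring
  have hGT : ∀ (μ' : V d) (ν : V (d + 1)), -1 ≤ ν (Fin.last d) → (GT μ' ν ↔
      hat μ' (-1) 0 ≤ ν 0 ∧ GT (Fin.tail ν) (hat μ' (-1))) := fun μ' ν hν => by
    rw [GT_hat hν, St_succ]
  let W : V (d + 1) → Fin (d + 1) → ℝ := fun ν =>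
    Fin.cons (c.w0 b (Fin.tail ν)) (c.w G (Fin.tail ν))
  refine ⟨c.y G, b, W, fun κ hκ hθ hs => ?_, fun κ hκ hθ => ?_, fun ν hν hs hθ => ?_,
    fun ν hs hθ => ?_, ?_⟩
  · refine Ctx.la hB ((St_hat fun j => ?_).1 hs) hθ
    have := (mem_Bx.1 hκ j).1
    have := h0' j.succ
    omega
  · have := Ctx.lb hB hc hκ hθ
    rw [hsum] at this
    have a1 : ∀ j i : Fin d, -1 ≤ (κ - e j) i := fun j i => by
      have := h0' i.succ; have := (hκ i).1; have := e_le j i
      simp only [Pi.sub_apply]; omega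
    simp only [fun j => St_hat (μ := μ) (a1 j), fun μ' => St_hat (μ := μ') (hx hΛ1 hκ), hat_add_e]
    exact this
  · have a1 := (hGT μ ν (hν _)).1 hs
    have := Ctx.lc hB (a := ν 0) a1.1 a1.2 (by rw [hlev ν, hθ]; simp [c])
    rw [Fin.sum_univ_succ]
    simpa [St_succ, W] using this
  · have a1 := St_succ.1 hs
    have a2 : ∀ i, 0 ≤ ν i := fun i => (h0' i).trans (hs.1 i)
    have a3 : ∀ j : Fin (d + 1), -1 ≤ (ν - e j) (Fin.last d) := fun j => by
      have := a2 (Fin.last d); have := e_le j (Fin.last d)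
      simp only [Pi.sub_apply]; omega
    have a4 : -1 ≤ ν (Fin.last d) := by have := a2 (Fin.last d); omega
    have := Ctx.ld hB hc (a := ν 0) a1.1 a1.2 (by rw [hlev ν, hθ]; simp [c]; ring)
    rw [hsum] at this
    rw [Fin.sum_univ_succ]
    simp only [fun j => hGT μ _ (a3 j), fun μ' => hGT μ' _ a4, hat_add_e]
    simpa [W] using this
  · have e0 := Ctx.energy hB hc
    rw [sum_add_distrib, cH _ (by rw [c.hH]; ring)] at e0
    simp only [cV] at e0
    refine le_of_eq_of_le ?_ (e0.trans_eq (by simp [c]))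
    congr 1
    · congr 1
      · refine sum_congr rfl fun κ hκ => ?_
        rw [ind_congr (St_hat (B := -1) fun j => ?_)]
        have : Λ j.succ - 1 ≤ κ j := (mem_Bx.1 hκ j).1
        have := h0' j.succ
        omega
      · exact sum_congr rfl fun κ hκ => by rw [ind_congr (St_hat (hx hΛ1 (mem_box.1 hκ)))]
    · have key : ∀ ν : V (d + 1), ind (GT μ ν) * ∑ j, ind (St Λ (ν + e j)) * W ν j ^ 2 =
          ind (hat μ (-1) 0 ≤ ν 0 ∧ GT (Fin.tail ν) (hat μ (-1))) *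
            ∑ j, ind (St Λ (ν + e j)) * W ν j ^ 2 := by
        intro ν
        by_cases hz : ∑ j, ind (St Λ (ν + e j)) * W ν j ^ 2 = 0
        · rw [hz, mul_zero, mul_zero]
        · obtain ⟨j, -, hj⟩ := exists_ne_zero_of_sum_ne_zero hz
          have := (ind_ne (left_ne_zero_of_mul hj)).1 (Fin.last d)
          have := h0' (Fin.last d)
          have := e_le j (Fin.last d)
          rw [ind_congr (hGT μ ν (by simp only [Pi.add_apply] at *; omega))]
      simp only [key]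
      rw [sum_Lev_Rf Λ (hat μ (-1)) _ c.A0]
      · refine sum_congr rfl fun k _ => ?_
        have a1 : tot Λ + tot μ - θ - tot (Rf Λ (hat μ (-1)) k) =
            max (Λ 0) (hat μ (-1) 0) + tot k - θ := by
          rw [tot_Rf, tot_hat, hat_last, min_eq_right (hΛ1 _)]; ring
        rw [a1, Fin.sum_univ_succ]
        simp [St_succ, W, c]
      · intro ν hne _
        have a1 := (ind_ne (left_ne_zero_of_mul hne)).2
        obtain ⟨j, -, hj⟩ := exists_ne_zero_of_sum_ne_zero (right_ne_zero_of_mul hne)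
        have a2 := ind_ne (left_ne_zero_of_mul hj)
        refine ⟨fun i => ?_, ?_⟩
        · have := a2.1 i
          have := h0' i
          have := e_le j i
          simp only [Pi.add_apply] at *; omega
        · simp only [Ctx.A0, mem_Icc, Pi.le_def, ← forall_and]
          intro i
          have b1 := a1 i
          have b2 := (St_succ.1 a2).2 i
          have b3 := e_le j i.succ
          have b4 := e_nonneg j i.succ
          simp only [Ctx.L, Ctx.U, c, Rf, Lo, Up, Fin.tail, Pi.add_apply, Pi.sub_apply,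
            Pi.one_apply] at *
          omega

end Vale.Agent.P328
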