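import Vale.Agent.P328.MixB

/-! From the Poincare inequality to the total variation bound. -/

namespace Vale.Agent.P328

open Finset

namespace Mx

variable {m n : ℕ}

/-- One step of the chain acting on functions. -/
noncomputable def P (q : ℕ) (f : (Fin m → Fin n → ℕ) → ℝ) (X : Fin m → Fin n → ℕ) : ℝ :=
  B q fun s i i' J K => (f X + f (swN s i i' J K X)) / 2

/-- `t` steps of the chain acting on functions. -/
noncomputable def Pt (q t : ℕ) (f : (Fin m → Fin n → ℕ) → ℝ) (X : Fin m → Fin n → ℕ) : ℝ :=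
  av (t * (5 * q + 1)) fun l => f (runN q t X l)

lemma Pt_zero (q : ℕ) (f : (Fin m → Fin n → ℕ) → ℝ) : Pt q 0 f = f := by
  funext X
  simp [Pt, av_zero, runN]

lemma Pt_succ (q t : ℕ) (f : (Fin m → Fin n → ℕ) → ℝ) : Pt q (t + 1) f = P q (Pt q t f) := by
  funext X
  unfold P
  rw [← av_step]
  unfold Pt
  rw [show (t + 1) * (5 * q + 1) = (5 * q + 1) + t * (5 * q + 1) by ring, av_append]
  refine av_congr fun u hu => av_congr fun v _ => ?_
  simp only [runN]
  rw [List.take_left' hu, List.drop_left' hu]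

lemma stat (r : Fin m → ℕ) (c : Fin n → ℕ) (q : ℕ) (g : (Fin m → Fin n → ℕ) → ℝ) :
    B q (fun s i i' J K => ∑ X ∈ Omega r c, (g (swN s i i' J K X) - g X)) = 0 :=
  B_anti q _ fun a b c' d e => swN_anti r c g a b c' d e

lemma sum_P (r : Fin m → ℕ) (c : Fin n → ℕ) (q : ℕ) (f : (Fin m → Fin n → ℕ) → ℝ) :
    ∑ X ∈ Omega r c, P q f X = ∑ X ∈ Omega r c, f X := by
  unfold P
  rw [← B_sum]
  have : (fun s i i' J K => ∑ X ∈ Omega r c, (f X + f (swN s i i' J K X)) / 2) =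
      fun s i i' J K => (fun _ _ _ _ _ => ∑ X ∈ Omega r c, f X) s i i' J K +
        (fun s i i' J K => 1 / 2 * ∑ X ∈ Omega r c, (f (swN s i i' J K X) - f X)) s i i' J K := by
    funext s i i' J K
    simp only [mul_sum, ← sum_add_distrib]
    exact sum_congr rfl fun X _ => by ring
  rw [this, B_add, B_const, B_mul, stat]
  ring

lemma sq_P (r : Fin m → ℕ) (c : Fin n → ℕ) (q : ℕ) (f : (Fin m → Fin n → ℕ) → ℝ) (μ : ℝ) :
    ∑ X ∈ Omega r c, (P q f X - μ) ^ 2 ≤ ∑ X ∈ Omega r c, (f X - μ) ^ 2 -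
      1 / 4 * B q (fun s i i' J K => ∑ X ∈ Omega r c, (f X - f (swN s i i' J K X)) ^ 2) := by
  have h1 : ∀ X, (P q f X - μ) ^ 2 ≤
      B q fun s i i' J K => ((f X + f (swN s i i' J K X)) / 2 + -μ) ^ 2 := by
    intro X
    refine le_trans (le_of_eq ?_) (B_sq _ _)
    rw [B_add, B_const]
    rfl
  refine (sum_le_sum fun X _ => h1 X).trans (le_of_eq ?_)
  rw [← B_sum]
  have : (fun s i i' J K => ∑ X ∈ Omega r c, ((f X + f (swN s i i' J K X)) / 2 + -μ) ^ 2) =
      fun s i i' J K => ((fun _ _ _ _ _ => ∑ X ∈ Omega r c, (f X - μ) ^ 2) s i i' J K +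
        (fun s i i' J K => 1 / 2 * ∑ X ∈ Omega r c,
          ((f (swN s i i' J K X) - μ) ^ 2 - (f X - μ) ^ 2)) s i i' J K) +
        (fun s i i' J K => -(1 / 4) * ∑ X ∈ Omega r c, (f X - f (swN s i i' J K X)) ^ 2)
          s i i' J K := by
    funext s i i' J K
    simp only [mul_sum, ← sum_add_distrib]
    exact sum_congr rfl fun X _ => by ring
  rw [this, B_add, B_add, B_const, B_mul, B_mul, stat r c q (fun X => (f X - μ) ^ 2)]
  ring

lemma energy_le (r : Fin m → ℕ) (c : Fin n → ℕ) {q : ℕ} (hq : 1 ≤ q) (hm : m ≤ q) (hn : n ≤ q)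
    (f : (Fin m → Fin n → ℕ) → ℝ) :
    (1 / (2 * q)) ^ 5 * ∑ s ∈ range q, ∑ i, ∑ i', ∑ J, ∑ K, ∑ X ∈ Omega r c,
          (f X - f (sw (2 ^ s) i i' J K X)) ^ 2 ≤
      B q (fun s i i' J K => ∑ X ∈ Omega r c, (f X - f (swN s i i' J K X)) ^ 2) := by
  refine le_trans (le_of_eq ?_) (B_lower hq hm hn fun _ _ _ _ _ => by positivity)
  rw [← Fin.sum_univ_eq_sum_range (fun s => ∑ i, ∑ i', ∑ J, ∑ K, ∑ X ∈ Omega r c,
          (f X - f (sw (2 ^ s) i i' J K X)) ^ 2) q]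
  simp [swN]

lemma decay (r : Fin m → ℕ) (c : Fin n → ℕ) {q C : ℕ} (hq : 1 ≤ q) (hm : m ≤ q) (hn : n ≤ q)
    (hP : ∀ f : (Fin m → Fin n → ℕ) → ℝ,
      ∑ X ∈ Omega r c, (f X - (∑ Y ∈ Omega r c, f Y) / (Omega r c).card) ^ 2 ≤
        (C : ℕ) * ∑ s ∈ range q, ∑ i, ∑ i', ∑ J, ∑ K, ∑ X ∈ Omega r c,
          (f X - f (sw (2 ^ s) i i' J K X)) ^ 2) (f : (Fin m → Fin n → ℕ) → ℝ) (t : ℕ) :
    ∑ X ∈ Omega r c, Pt q t f X = ∑ X ∈ Omega r c, f X ∧
    ∑ X ∈ Omega r c, (Pt q t f X - (∑ Y ∈ Omega r c, f Y) / (Omega r c).card) ^ 2 ≤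
      (1 - 1 / ((128 * q ^ 5 * (C + 1) : ℕ) : ℝ)) ^ t *
        ∑ X ∈ Omega r c, (f X - (∑ Y ∈ Omega r c, f Y) / (Omega r c).card) ^ 2 := by
  have hq' : (1 : ℝ) ≤ q := by exact_mod_cast hq
  have hc : 0 ≤ 1 - 1 / ((128 * q ^ 5 * (C + 1) : ℕ) : ℝ) := by
    rw [sub_nonneg, div_le_one (by positivity)]
    exact_mod_cast Nat.succ_le_of_lt (by positivity)
  induction t with
  | zero => simp [Pt_zero]
  | succ t ih =>
    obtain ⟨ih1, ih2⟩ := ih
    rw [Pt_succ]
    refine ⟨by rw [sum_P, ih1], ?_⟩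
    refine (sq_P r c q _ _).trans ?_
    have h1 := energy_le r c hq hm hn (Pt q t f)
    have h2 := hP (Pt q t f)
    rw [ih1] at h2
    set E := ∑ s ∈ range q, ∑ i, ∑ i', ∑ J, ∑ K, ∑ X ∈ Omega r c,
          (Pt q t f X - Pt q t f (sw (2 ^ s) i i' J K X)) ^ 2
    set V := ∑ X ∈ Omega r c, (Pt q t f X - (∑ Y ∈ Omega r c, f Y) / (Omega r c).card) ^ 2
    have hE : 0 ≤ E := by positivity
    have h3 : 1 / ((128 * q ^ 5 * (C + 1) : ℕ) : ℝ) * V ≤ 1 / 4 * ((1 / (2 * q)) ^ 5 * E) := by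
      have h4 : V ≤ (C + 1) * E := by nlinarith
      calc 1 / ((128 * q ^ 5 * (C + 1) : ℕ) : ℝ) * V
          ≤ 1 / ((128 * q ^ 5 * (C + 1) : ℕ) : ℝ) * ((C + 1) * E) := by gcongr
        _ = _ := by push_cast; field_simp; ring
    have h5 := mul_le_mul_of_nonneg_left ih2 hc
    rw [pow_succ', mul_assoc]
    nlinarith

lemma pow_half {C : ℕ} (hC : 1 ≤ C) (a : ℕ) : (1 - 1 / (C : ℝ)) ^ (C * a) ≤ (1 / 2) ^ a := by
  have hC' : (1 : ℝ) ≤ C := by exact_mod_cast hC
  have h0 : 0 ≤ 1 - 1 / (C : ℝ) := by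
    rw [sub_nonneg, div_le_one (by positivity)]; exact hC'
  rw [pow_mul]
  refine pow_le_pow_left₀ (by positivity) ?_ a
  have h1 : 1 - 1 / (C : ℝ) ≤ Real.exp (-(1 / C)) := by
    have := Real.add_one_le_exp (-(1 / (C : ℝ))); linarith
  calc (1 - 1 / (C : ℝ)) ^ C ≤ Real.exp (-(1 / C)) ^ C := pow_le_pow_left₀ h0 h1 C
    _ = Real.exp (-1) := by rw [← Real.exp_nat_mul]; congr 1; field_simp
    _ ≤ 1 / 2 := by
      rw [Real.exp_neg, one_div]
      refine inv_anti₀ (by norm_num) ?_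
      have := Real.add_one_le_exp 1; linarith

end Mx

open Mx in
/-- PART B2: mixing. -/
theorem mixing (h : Poincare) : ∃ p : Polynomial ℕ, ∀ (m n : ℕ) (r : Fin m → ℕ) (c : Fin n → ℕ)
    (bal : ∑ i, r i = ∑ j, c j) (k : ℕ),
    (∀ l, out ⟨m, n, r, c, bal, k, l⟩ ∈ Omega r c) ∧
    (1 / 2 : ℝ) * ∑ X ∈ Omega r c,
      |((univ.filter fun ω : Fin (p.eval (encInst r c k).length) → Bool =>
          out ⟨m, n, r, c, bal, k, List.ofFn ω⟩ = X).card : ℝ) /
          2 ^ (p.eval (encInst r c k).length) - 1 / (Omega r c).card| ≤ (1 / 2) ^ k := by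
  obtain ⟨p, hp⟩ := h
  refine ⟨128 * Polynomial.X ^ 5 * (p + 1) * (3 * (Polynomial.X * Polynomial.X) + 2 * Polynomial.X)
    * (5 * Polynomial.X + 1), fun m n r c bal k => ⟨fun l => runN_mem _ _ (start_mem r c bal) _, ?_⟩⟩
  obtain ⟨hm, hn, hr, hk, hq⟩ := len_facts r c k
  have hout : ∀ l, out ⟨m, n, r, c, bal, k, l⟩ =
    runN (encInst r c k).length l.length (start r c) l := fun _ => rfl
  simp only [hout]
  generalize (encInst r c k).length = q at *
  set C := 128 * q ^ 5 * (p.eval q + 1) with hC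
  set t := C * (3 * (q * q) + 2 * q) with ht
  have hev : (128 * Polynomial.X ^ 5 * (p + 1) * (3 * (Polynomial.X * Polynomial.X) +
      2 * Polynomial.X) * (5 * Polynomial.X + 1) : Polynomial ℕ).eval q = t * (5 * q + 1) := by
    simp [ht, hC]
  rw [hev]
  have hs := start_mem r c bal
  have hcard : (0 : ℝ) < (Omega r c).card := by exact_mod_cast card_pos.2 ⟨_, hs⟩
  have hle : ((Omega r c).card : ℝ) ≤ 2 ^ (q * q) := by exact_mod_cast card_Om_le r c hn hr
  have key : ∀ Y ∈ Omega r c, |((univ.filter fun ω : Fin (t * (5 * q + 1)) → Bool =>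
      runN q (List.ofFn ω).length (start r c) (List.ofFn ω) = Y).card : ℝ) /
        2 ^ (t * (5 * q + 1)) - 1 / (Omega r c).card| ≤ (1 / 2) ^ k / (Omega r c).card := by
    intro Y hY
    have e1 : ((univ.filter fun ω : Fin (t * (5 * q + 1)) → Bool =>
      runN q (List.ofFn ω).length (start r c) (List.ofFn ω) = Y).card : ℝ) /
        2 ^ (t * (5 * q + 1)) = Pt q t (fun X => if X = Y then 1 else 0) (start r c) := by
      unfold Pt av
      rw [sum_boole]
      congr 3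
      refine filter_congr fun ω _ => ?_
      have e0 := runN_more q t (t * (5 * q)) (start r c) (List.ofFn ω) List.length_ofFn
      rw [List.length_ofFn, ← e0, show t + t * (5 * q) = t * (5 * q + 1) by ring]
    rw [e1]
    have h2 := (decay r c hq hm hn (hp m n q r c bal hm hn hr)
      (fun X => if X = Y then 1 else 0) t).2
    have e2 : ∑ X ∈ Omega r c, (if X = Y then (1 : ℝ) else 0) = 1 := by simp [hY]
    rw [e2] at h2
    have h3 := single_le_sum (f := fun X => (Pt q t (fun X => if X = Y then 1 else 0) X -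
      1 / (Omega r c).card) ^ 2) (fun _ _ => sq_nonneg _) hs
    have h1' : (1 : ℝ) ≤ (Omega r c).card := by exact_mod_cast card_pos.2 ⟨_, hs⟩
    have h4 : ∑ X ∈ Omega r c, ((if X = Y then (1 : ℝ) else 0) - 1 / (Omega r c).card) ^ 2 ≤
        2 ^ (q * q) := by
      refine le_trans (sum_le_card_nsmul _ _ 1 fun X _ => ?_) (by simpa using hle)
      have a1 : 0 ≤ 1 / ((Omega r c).card : ℝ) := by positivity
      have a2 : 1 / ((Omega r c).card : ℝ) ≤ 1 := by rw [div_le_one hcard]; exact h1'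
      split_ifs <;> nlinarith
    have h5 := pow_half (C := C) (Nat.succ_le_of_lt (by positivity)) (3 * (q * q) + 2 * q)
    have h6 : (Pt q t (fun X => if X = Y then 1 else 0) (start r c) - 1 / (Omega r c).card) ^ 2 ≤
        ((1 / 2) ^ (q * q + q)) ^ 2 := by
      refine h3.trans (h2.trans ?_)
      calc _ ≤ (1 / 2 : ℝ) ^ (3 * (q * q) + 2 * q) * 2 ^ (q * q) :=
            mul_le_mul h5 h4 (by positivity) (by positivity)
        _ = _ := by
            rw [← pow_mul, show 3 * (q * q) + 2 * q = (q * q + q) * 2 + q * q by ring, pow_add,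
              mul_assoc, ← mul_pow]
            norm_num
    refine (abs_le_of_sq_le_sq' h6 (by positivity) |> abs_le.2).trans ?_
    rw [le_div_iff₀ hcard, pow_add]
    have h7 : (1 / 2 : ℝ) ^ q ≤ (1 / 2) ^ k := pow_le_pow_of_le_one (by norm_num) (by norm_num) hk
    calc (1 / 2 : ℝ) ^ (q * q) * (1 / 2) ^ q * (Omega r c).card
        ≤ (1 / 2 : ℝ) ^ (q * q) * (1 / 2) ^ k * 2 ^ (q * q) := by gcongr
      _ = _ := by rw [mul_right_comm, ← mul_pow]; norm_num
  have := sum_le_card_nsmul _ _ _ key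
  rw [nsmul_eq_mul, mul_div_cancel₀ _ hcard.ne'] at this
  have h0 : (0 : ℝ) ≤ (1 / 2) ^ k := by positivity
  linarith

end Vale.Agent.P328
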