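import Vale.Agent.P328.Iface

/-! Averages over coin strings. -/

namespace Vale.Agent.P328.Mx

open Finset

/-- Average over all coin strings of length `n`. -/
noncomputable def av (n : ℕ) (F : List Bool → ℝ) : ℝ :=
  (∑ ω : Fin n → Bool, F (List.ofFn ω)) / 2 ^ n

lemma av_zero (F : List Bool → ℝ) : av 0 F = F [] := by simp [av]

lemma av_succ (n : ℕ) (F : List Bool → ℝ) :
    av (n + 1) F = (av n (fun l => F (false :: l)) + av n (fun l => F (true :: l))) / 2 := by
  unfold av
  rw [← (Fin.consEquiv (fun _ : Fin (n + 1) => Bool)).sum_comp, Fintype.sum_prod_type]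
  simp only [Fin.consEquiv_apply, List.ofFn_succ, Fin.cons_zero, Fin.cons_succ,
    Fintype.sum_bool]
  field_simp
  ring

lemma av_mono {n : ℕ} {F G : List Bool → ℝ} (h : ∀ l, l.length = n → F l ≤ G l) :
    av n F ≤ av n G := by
  unfold av
  gcongr with ω
  exact h _ (by simp)

lemma av_congr {n : ℕ} {F G : List Bool → ℝ} (h : ∀ l, l.length = n → F l = G l) :
    av n F = av n G :=
  le_antisymm (av_mono fun l hl => (h l hl).le) (av_mono fun l hl => (h l hl).ge)

lemma av_const (n : ℕ) (a : ℝ) : av n (fun _ => a) = a := by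
  simp [av]

lemma av_add (n : ℕ) (F G : List Bool → ℝ) : av n (fun l => F l + G l) = av n F + av n G := by
  simp [av, sum_add_distrib, add_div]

lemma av_mul (n : ℕ) (a : ℝ) (F : List Bool → ℝ) : av n (fun l => a * F l) = a * av n F := by
  simp [av, ← mul_sum, mul_div_assoc]

lemma av_sum {ι : Type*} (n : ℕ) (s : Finset ι) (F : ι → List Bool → ℝ) :
    av n (fun l => ∑ x ∈ s, F x l) = ∑ x ∈ s, av n (F x) := by
  unfold av
  rw [sum_comm, sum_div]

lemma av_comm (a b : ℕ) (F : List Bool → List Bool → ℝ) :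
    av a (fun u => av b (fun v => F u v)) = av b (fun v => av a (fun u => F u v)) := by
  simp only [av, ← sum_div]
  rw [sum_comm, div_div, div_div, mul_comm]

lemma av_sq (n : ℕ) (F : List Bool → ℝ) : av n F ^ 2 ≤ av n (fun l => F l ^ 2) := by
  unfold av
  have h := sq_sum_le_card_mul_sum_sq (s := (univ : Finset (Fin n → Bool)))
    (f := fun ω => F (List.ofFn ω))
  simp only [card_univ, Fintype.card_fun, Fintype.card_bool, Fintype.card_fin] at h
  push_cast at h
  rw [div_pow, div_le_div_iff₀ (by positivity) (by positivity)]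
  have h2 : (0 : ℝ) < 2 ^ n := by positivity
  nlinarith

lemma av_append (a b : ℕ) (F : List Bool → ℝ) :
    av (a + b) F = av a (fun u => av b (fun v => F (u ++ v))) := by
  induction a generalizing F with
  | zero => simp [av_zero]
  | succ a ih =>
    rw [show a + 1 + b = (a + b) + 1 by ring, av_succ, av_succ, ih, ih]
    simp

/-- Binary value of a coin string. -/
def val (l : List Bool) : ℕ := l.foldl (fun v b => 2 * v + b.toNat) 0

lemma foldl_mod (q : ℕ) (l : List Bool) (v : ℕ) :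
    l.foldl (fun v b => (2 * v + b.toNat) % q) (v % q) =
      l.foldl (fun v b => 2 * v + b.toNat) v % q := by
  induction l generalizing v with
  | nil => simp
  | cons b l ih =>
    simp only [List.foldl_cons]
    rw [← ih]
    congr 1
    simp [Nat.add_mod, Nat.mul_mod]

lemma pick_eq (q : ℕ) (l : List Bool) : pick q l = val l % q := by
  unfold pick val
  rw [← foldl_mod]
  simp

lemma av_val (n : ℕ) (G : ℕ → ℝ) :
    av n (fun l => G (val l)) = (∑ x ∈ range (2 ^ n), G x) / 2 ^ n := by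
  induction n generalizing G with
  | zero => simp [av_zero, val]
  | succ n ih =>
    rw [av_append]
    have : ∀ u : List Bool, av 1 (fun v => G (val (u ++ v))) =
        (G (2 * val u) + G (2 * val u + 1)) / 2 := by
      intro u
      rw [av_succ, av_zero, av_zero]
      simp [val]
    simp only [this]
    rw [ih (fun x => (G (2 * x) + G (2 * x + 1)) / 2)]
    have h2 : ∀ N : ℕ, ∑ x ∈ range (2 * N), G x = ∑ x ∈ range N, (G (2 * x) + G (2 * x + 1)) := by
      intro N
      induction N with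
      | zero => simp
      | succ N ih => rw [show 2 * (N + 1) = 2 * N + 1 + 1 by ring, sum_range_succ, sum_range_succ,
          sum_range_succ, ih]; ring
    rw [pow_succ' 2 n, h2, ← sum_div]
    rw [pow_succ]
    field_simp

/-- Average over the number picked from `q` coins. -/
noncomputable def A (q : ℕ) (G : ℕ → ℝ) : ℝ := av q fun u => G (pick q u)

lemma A_mono {q : ℕ} {F G : ℕ → ℝ} (h : ∀ a, F a ≤ G a) : A q F ≤ A q G :=
  av_mono fun _ _ => h _

lemma A_lower {q m : ℕ} (hq : 1 ≤ q) (hm : m ≤ q) {G : ℕ → ℝ} (hG : ∀ a, 0 ≤ G a) :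
    1 / (2 * q) * ∑ a : Fin m, G a ≤ A q G := by
  unfold A
  simp only [pick_eq]
  rw [av_val q (fun x => G (x % q)), Fin.sum_univ_eq_sum_range G m]
  have h1 : ∑ a ∈ range m, G a ≤ ∑ a ∈ range q, G a :=
    sum_le_sum_of_subset_of_nonneg (range_subset_range.2 hm) fun a _ _ => hG a
  have h2 : ∀ t : ℕ, ∑ x ∈ range (q * t), G (x % q) = t * ∑ a ∈ range q, G a := by
    intro t
    induction t with
    | zero => simp
    | succ t ih =>
      rw [Nat.mul_succ, sum_range_add, ih]
      have : ∑ x ∈ range q, G ((q * t + x) % q) = ∑ a ∈ range q, G a :=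
        sum_congr rfl fun x hx => by
          rw [Nat.mul_add_mod, Nat.mod_eq_of_lt (mem_range.1 hx)]
      rw [this]; push_cast; ring
  have h3 : ∑ x ∈ range (q * (2 ^ q / q)), G (x % q) ≤ ∑ x ∈ range (2 ^ q), G (x % q) :=
    sum_le_sum_of_subset_of_nonneg (range_subset_range.2 (Nat.mul_div_le _ _)) fun a _ _ => hG _
  rw [h2] at h3
  have h4 : 2 ^ q ≤ 2 * q * (2 ^ q / q) := by
    have h5 : q ≤ 2 ^ q := Nat.lt_two_pow_self.le
    have h6 : 1 ≤ 2 ^ q / q := (Nat.le_div_iff_mul_le (by omega)).2 (by omega)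
    have h7 := Nat.div_add_mod (2 ^ q) q
    have h8 := Nat.mod_lt (2 ^ q) (show 0 < q by omega)
    nlinarith
  have h4' : (2 : ℝ) ^ q ≤ 2 * q * ((2 ^ q / q : ℕ) : ℝ) := by exact_mod_cast h4
  have h0 : 0 ≤ ∑ a ∈ range q, G a := sum_nonneg fun a _ => hG a
  have hq' : (0 : ℝ) < q := by exact_mod_cast hq
  rw [le_div_iff₀ (by positivity)]
  calc 1 / (2 * q) * (∑ a ∈ range m, G a) * 2 ^ q
      ≤ 1 / (2 * q) * (∑ a ∈ range q, G a) * (2 * q * ((2 ^ q / q : ℕ) : ℝ)) := by gcongr
    _ = ((2 ^ q / q : ℕ) : ℝ) * ∑ a ∈ range q, G a := by field_simp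
    _ ≤ _ := h3

/-- Average over five picked numbers. -/
noncomputable def B (q : ℕ) (H : ℕ → ℕ → ℕ → ℕ → ℕ → ℝ) : ℝ :=
  A q fun s => A q fun i => A q fun i' => A q fun J => A q fun K => H s i i' J K

lemma B_mono {q : ℕ} {F G : ℕ → ℕ → ℕ → ℕ → ℕ → ℝ} (h : ∀ a b c d e, F a b c d e ≤ G a b c d e) :
    B q F ≤ B q G :=
  A_mono fun _ => A_mono fun _ => A_mono fun _ => A_mono fun _ => A_mono fun _ => h _ _ _ _ _

lemma A_sq (q : ℕ) (F : ℕ → ℝ) : A q F ^ 2 ≤ A q (fun a => F a ^ 2) := av_sq _ _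

lemma B_sq (q : ℕ) (F : ℕ → ℕ → ℕ → ℕ → ℕ → ℝ) :
    B q F ^ 2 ≤ B q (fun a b c d e => F a b c d e ^ 2) :=
  (A_sq _ _).trans <| A_mono fun _ => (A_sq _ _).trans <| A_mono fun _ => (A_sq _ _).trans <|
    A_mono fun _ => (A_sq _ _).trans <| A_mono fun _ => A_sq _ _

lemma B_const (q : ℕ) (a : ℝ) : B q (fun _ _ _ _ _ => a) = a := by
  simp [B, A, av_const]

lemma B_add (q : ℕ) (F G : ℕ → ℕ → ℕ → ℕ → ℕ → ℝ) :
    B q (fun a b c d e => F a b c d e + G a b c d e) = B q F + B q G := by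
  simp only [B, A, av_add]

lemma B_mul (q : ℕ) (t : ℝ) (F : ℕ → ℕ → ℕ → ℕ → ℕ → ℝ) :
    B q (fun a b c d e => t * F a b c d e) = t * B q F := by
  simp only [B, A, av_mul]

lemma B_sum {ι : Type*} (q : ℕ) (s : Finset ι) (F : ι → ℕ → ℕ → ℕ → ℕ → ℕ → ℝ) :
    B q (fun a b c d e => ∑ x ∈ s, F x a b c d e) = ∑ x ∈ s, B q (F x) := by
  simp only [B, A, av_sum]

lemma B_anti (q : ℕ) (F : ℕ → ℕ → ℕ → ℕ → ℕ → ℝ) (h : ∀ a b c d e, F a b c d e = -F a b c e d) :
    B q F = 0 := by
  have : ∀ a b c, (A q fun J => A q fun K => F a b c J K) = 0 := by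
    intro a b c
    have h1 : (A q fun J => A q fun K => F a b c J K) =
        -1 * (A q fun J => A q fun K => F a b c J K) := by
      conv_lhs => simp only [A]; rw [av_comm]
      simp only [A, ← av_mul]
      exact av_congr fun _ _ => av_congr fun _ _ => by rw [h]; ring
    linarith
  simp only [B, this]
  simp [A, av_const]

lemma B_lower {q m n : ℕ} (hq : 1 ≤ q) (hm : m ≤ q) (hn : n ≤ q)
    {G : ℕ → ℕ → ℕ → ℕ → ℕ → ℝ} (hG : ∀ a b c d e, 0 ≤ G a b c d e) :
    (1 / (2 * q)) ^ 5 * ∑ s : Fin q, ∑ i : Fin m, ∑ i' : Fin m, ∑ J : Fin n, ∑ K : Fin n,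
      G s i i' J K ≤ B q G := by
  have hA : ∀ {F : ℕ → ℝ}, (∀ a, 0 ≤ F a) → 0 ≤ A q F := fun {F} hF => by
    have := A_mono (q := q) (F := fun _ => 0) hF
    simpa [A, av_const] using this
  have hc : (0 : ℝ) ≤ 1 / (2 * q) := by positivity
  refine le_trans ?_ (A_lower hq le_rfl fun _ => hA fun _ => hA fun _ => hA fun _ => hA fun _ =>
    hG _ _ _ _ _)
  rw [pow_succ', mul_assoc, mul_sum]
  gcongr with s
  refine le_trans ?_ (A_lower hq hm fun _ => hA fun _ => hA fun _ => hA fun _ => hG _ _ _ _ _)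
  rw [pow_succ', mul_assoc, mul_sum]
  gcongr with i
  refine le_trans ?_ (A_lower hq hm fun _ => hA fun _ => hA fun _ => hG _ _ _ _ _)
  rw [pow_succ', mul_assoc, mul_sum]
  gcongr with i'
  refine le_trans ?_ (A_lower hq hn fun _ => hA fun _ => hG _ _ _ _ _)
  rw [pow_succ', mul_assoc, mul_sum]
  gcongr with J
  rw [pow_one]
  exact A_lower hq hn fun _ => hG _ _ _ _ _

lemma av_step {m n : ℕ} (q : ℕ) (X : Fin m → Fin n → ℕ) (f : (Fin m → Fin n → ℕ) → ℝ) :
    av (5 * q + 1) (fun l => f (step q X l)) =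
      B q fun s i i' J K => (f X + f (swN s i i' J K X)) / 2 := by
  rw [show 5 * q + 1 = q + (q + (q + (q + (q + 1)))) by ring]
  simp only [av_append, B, A]
  refine av_congr fun u1 h1 => av_congr fun u2 h2 => av_congr fun u3 h3 => av_congr fun u4 h4 =>
    av_congr fun u5 h5 => ?_
  rw [av_succ, av_zero, av_zero]
  have e : ∀ b : Bool, step q X (u1 ++ (u2 ++ (u3 ++ (u4 ++ (u5 ++ [b]))))) =
      if b then swN (pick q u1) (pick q u2) (pick q u3) (pick q u4) (pick q u5) X else X := by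
    intro b
    unfold step
    have d1 : (u1 ++ (u2 ++ (u3 ++ (u4 ++ (u5 ++ [b]))))).drop q =
        u2 ++ (u3 ++ (u4 ++ (u5 ++ [b]))) := List.drop_left' h1
    have d2 : (u1 ++ (u2 ++ (u3 ++ (u4 ++ (u5 ++ [b]))))).drop (2 * q) =
        u3 ++ (u4 ++ (u5 ++ [b])) := by
      rw [← List.append_assoc]; exact List.drop_left' (by simp; omega)
    have d3 : (u1 ++ (u2 ++ (u3 ++ (u4 ++ (u5 ++ [b]))))).drop (3 * q) =
        u4 ++ (u5 ++ [b]) := by
      rw [← List.append_assoc, ← List.append_assoc]; exact List.drop_left' (by simp; omega)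
    have d4 : (u1 ++ (u2 ++ (u3 ++ (u4 ++ (u5 ++ [b]))))).drop (4 * q) = u5 ++ [b] := by
      rw [← List.append_assoc, ← List.append_assoc, ← List.append_assoc]
      exact List.drop_left' (by simp; omega)
    have d5 : (u1 ++ (u2 ++ (u3 ++ (u4 ++ (u5 ++ [b]))))).getD (5 * q) false = b := by
      rw [← List.append_assoc, ← List.append_assoc, ← List.append_assoc, ← List.append_assoc,
        List.getD_append_right _ _ _ _ (by simp; omega)]
      rw [show 5 * q - (u1 ++ u2 ++ u3 ++ u4 ++ u5).length = 0 by simp; omega]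
      simp
    rw [d1, d2, d3, d4, d5, List.take_left' h1, List.take_left' h2, List.take_left' h3,
      List.take_left' h4, List.take_left' h5]
  simp only [e]
  simp

end Vale.Agent.P328.Mx
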