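import Vale.Agent.P328.MixA

/-! Combinatorial facts on tables and switches. -/

namespace Vale.Agent.P328.Mx

open Finset

variable {m n : ℕ}

lemma mem_Om {r : Fin m → ℕ} {c : Fin n → ℕ} {X : Fin m → Fin n → ℕ} :
    X ∈ Omega r c ↔ (∀ i, ∑ j, X i j = r i) ∧ ∀ j, ∑ i, X i j = c j := by
  unfold Omega
  rw [mem_filter]
  refine ⟨fun h => h.2, fun h => ⟨?_, h⟩⟩
  simp only [Fintype.mem_piFinset, mem_range]
  intro i j
  have := single_le_sum (f := fun j => X i j) (fun j _ => Nat.zero_le _) (mem_univ j)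
  have := h.1 i
  omega

lemma unit_row (i : Fin m) (j : Fin n) (h : ℕ) (a : Fin m) :
    ∑ b, unit i j h a b = if a = i then h else 0 := by
  unfold unit
  by_cases ha : a = i <;> simp [ha]

lemma unit_col (i : Fin m) (j : Fin n) (h : ℕ) (b : Fin n) :
    ∑ a, unit i j h a b = if b = j then h else 0 := by
  unfold unit
  by_cases hb : b = j <;> simp [hb]

/-- The switch can be made. -/
def ok (h : ℕ) (i i' : Fin m) (J K : Fin n) (X : Fin m → Fin n → ℕ) : Prop :=
  i ≠ i' ∧ J ≠ K ∧ h ≤ X i K ∧ h ≤ X i' J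

instance (h : ℕ) (i i' : Fin m) (J K : Fin n) (X : Fin m → Fin n → ℕ) :
    Decidable (ok h i i' J K X) := by unfold ok; infer_instance

lemma sw_not {h : ℕ} {i i' : Fin m} {J K : Fin n} {X : Fin m → Fin n → ℕ}
    (hX : ¬ ok h i i' J K X) : sw h i i' J K X = X := if_neg hX

lemma sw_apply {h : ℕ} {i i' : Fin m} {J K : Fin n} {X : Fin m → Fin n → ℕ}
    (hX : ok h i i' J K X) (a : Fin m) (b : Fin n) :
    sw h i i' J K X a b + unit i K h a b + unit i' J h a b =
      X a b + unit i J h a b + unit i' K h a b := by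
  have hs : sw h i i' J K X = X + unit i J h + unit i' K h - unit i K h - unit i' J h :=
    if_pos hX
  obtain ⟨h1, h2, h3, h4⟩ := hX
  rw [hs]
  simp only [Pi.add_apply, Pi.sub_apply, unit]
  by_cases ha : a = i <;> by_cases ha' : a = i' <;> by_cases hb : b = J <;> by_cases hb' : b = K <;>
    simp_all

lemma sw_mem {r : Fin m → ℕ} {c : Fin n → ℕ} {X : Fin m → Fin n → ℕ} (hX : X ∈ Omega r c)
    (h : ℕ) (i i' : Fin m) (J K : Fin n) : sw h i i' J K X ∈ Omega r c := by
  by_cases hk : ok h i i' J K X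
  · rw [mem_Om] at hX ⊢
    constructor
    · intro a
      have := sum_congr (rfl : (univ : Finset (Fin n)) = univ) fun b _ => sw_apply hk a b
      simp only [sum_add_distrib, unit_row] at this
      have := hX.1 a
      omega
    · intro b
      have := sum_congr (rfl : (univ : Finset (Fin m)) = univ) fun a _ => sw_apply hk a b
      simp only [sum_add_distrib, unit_col] at this
      have := hX.2 b
      omega
  · rw [sw_not hk]; exact hX

lemma ok_sw {h : ℕ} {i i' : Fin m} {J K : Fin n} {X : Fin m → Fin n → ℕ}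
    (hX : ok h i i' J K X) : ok h i i' K J (sw h i i' J K X) := by
  have e1 := sw_apply hX i J
  have e2 := sw_apply hX i' K
  obtain ⟨h1, h2, h3, h4⟩ := hX
  refine ⟨h1, h2.symm, ?_, ?_⟩
  · simp [unit, h1, h2] at e1; omega
  · simp [unit, h1.symm, h2.symm] at e2; omega

lemma sw_sw {h : ℕ} {i i' : Fin m} {J K : Fin n} {X : Fin m → Fin n → ℕ}
    (hX : ok h i i' J K X) : sw h i i' K J (sw h i i' J K X) = X := by
  funext a b
  have e1 := sw_apply hX a b
  have e2 := sw_apply (ok_sw hX) a b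
  omega

lemma sw_stat (r : Fin m → ℕ) (c : Fin n → ℕ) (g : (Fin m → Fin n → ℕ) → ℝ) (h : ℕ)
    (i i' : Fin m) (J K : Fin n) :
    ∑ X ∈ Omega r c, (g (sw h i i' J K X) - g X) =
      ∑ X ∈ (Omega r c).filter (ok h i i' K J), g X -
        ∑ X ∈ (Omega r c).filter (ok h i i' J K), g X := by
  have h1 : ∑ X ∈ (Omega r c).filter (ok h i i' J K), g (sw h i i' J K X) =
      ∑ X ∈ (Omega r c).filter (ok h i i' K J), g X := by
    refine sum_nbij' (sw h i i' J K) (sw h i i' K J) ?_ ?_ ?_ ?_ ?_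
    · intro X hX
      rw [mem_filter] at hX ⊢
      exact ⟨sw_mem hX.1 _ _ _ _ _, ok_sw hX.2⟩
    · intro X hX
      rw [mem_filter] at hX ⊢
      exact ⟨sw_mem hX.1 _ _ _ _ _, ok_sw hX.2⟩
    · intro X hX
      exact sw_sw (mem_filter.1 hX).2
    · intro X hX
      exact sw_sw (mem_filter.1 hX).2
    · intro X _
      rfl
  rw [← h1, ← sum_sub_distrib, sum_filter]
  refine sum_congr rfl fun X _ => ?_
  split_ifs with hk
  · rfl
  · rw [sw_not hk]; ring

lemma swN_anti (r : Fin m → ℕ) (c : Fin n → ℕ) (g : (Fin m → Fin n → ℕ) → ℝ) (s i i' J K : ℕ) :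
    ∑ X ∈ Omega r c, (g (swN s i i' J K X) - g X) =
      -∑ X ∈ Omega r c, (g (swN s i i' K J X) - g X) := by
  unfold swN
  by_cases hh : i < m ∧ i' < m ∧ J < n ∧ K < n
  · have hh' : i < m ∧ i' < m ∧ K < n ∧ J < n := ⟨hh.1, hh.2.1, hh.2.2.2, hh.2.2.1⟩
    simp only [dif_pos hh, dif_pos hh', sw_stat]
    ring
  · have hh' : ¬ (i < m ∧ i' < m ∧ K < n ∧ J < n) := fun h => hh ⟨h.1, h.2.1, h.2.2.2, h.2.2.1⟩
    simp [dif_neg hh, dif_neg hh']

lemma swN_mem {r : Fin m → ℕ} {c : Fin n → ℕ} {X : Fin m → Fin n → ℕ} (hX : X ∈ Omega r c)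
    (s i i' J K : ℕ) : swN s i i' J K X ∈ Omega r c := by
  unfold swN
  split_ifs
  · exact sw_mem hX _ _ _ _ _
  · exact hX

lemma step_mem {r : Fin m → ℕ} {c : Fin n → ℕ} {X : Fin m → Fin n → ℕ} (hX : X ∈ Omega r c)
    (q : ℕ) (l : List Bool) : step q X l ∈ Omega r c := by
  unfold step
  split_ifs
  · exact swN_mem hX _ _ _ _ _
  · exact hX

lemma runN_mem {r : Fin m → ℕ} {c : Fin n → ℕ} (q t : ℕ) {X : Fin m → Fin n → ℕ}
    (hX : X ∈ Omega r c) (l : List Bool) : runN q t X l ∈ Omega r c := by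
  induction t generalizing X l with
  | zero => exact hX
  | succ t ih => exact ih (step_mem hX _ _) _

lemma runN_nil (q t : ℕ) (X : Fin m → Fin n → ℕ) : runN q t X [] = X := by
  induction t generalizing X with
  | zero => rfl
  | succ t ih => simp [runN, ih, step]

lemma runN_more (q t e : ℕ) (X : Fin m → Fin n → ℕ) (l : List Bool)
    (hl : l.length = t * (5 * q + 1)) : runN q (t + e) X l = runN q t X l := by
  induction t generalizing X l with
  | zero =>
    have : l = [] := List.length_eq_zero_iff.1 (by simpa using hl)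
    subst this
    simp [runN_nil]
  | succ t ih =>
    rw [show t + 1 + e = (t + e) + 1 by ring]
    simp only [runN]
    exact ih _ _ (by rw [List.length_drop, hl, Nat.succ_mul]; omega)

lemma pre_succ (r : Fin m → ℕ) (i : Fin m) : pre r (i + 1) = pre r i + r i := by
  unfold pre
  rw [List.sum_take_succ _ _ (by simp)]
  simp

lemma pre_zero (r : Fin m → ℕ) : pre r 0 = 0 := by simp [pre]

lemma pre_top (r : Fin m → ℕ) : pre r m = ∑ i, r i := by
  unfold pre
  rw [List.take_of_length_le (by simp), List.sum_ofFn]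

lemma pre_le (r : Fin m → ℕ) (a : ℕ) : pre r a ≤ ∑ i, r i := by
  unfold pre
  rw [← List.sum_ofFn]
  conv_rhs => rw [← List.sum_take_add_sum_drop (List.ofFn r) a]
  omega

lemma tele (c : Fin n → ℕ) (a b : ℕ) (hab : a ≤ b) (hb : b ≤ ∑ j, c j) :
    ∑ j : Fin n, (min b (pre c (j + 1)) - max a (pre c j)) = b - a := by
  have key : ∀ t, t ≤ n → ∑ j ∈ range t, (min b (pre c (j + 1)) - max a (pre c j)) + a =
      max a (min b (pre c t)) := by
    intro t
    induction t with
    | zero => simp [pre_zero]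
    | succ t ih =>
      intro ht
      have h1 := ih (by omega)
      have h2 := pre_succ c ⟨t, by omega⟩
      simp only at h2
      rw [sum_range_succ]
      omega
  have := key n le_rfl
  rw [pre_top] at this
  rw [Fin.sum_univ_eq_sum_range (fun j => min b (pre c (j + 1)) - max a (pre c j)) n]
  omega

lemma start_mem (r : Fin m → ℕ) (c : Fin n → ℕ) (bal : ∑ i, r i = ∑ j, c j) :
    start r c ∈ Omega r c := by
  rw [mem_Om]
  constructor
  · intro i
    unfold start
    rw [tele c _ _ (by rw [pre_succ]; omega) (bal ▸ pre_le r _), pre_succ]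
    omega
  · intro j
    unfold start
    simp only [min_comm (pre r _), max_comm (pre r _)]
    rw [tele r _ _ (by rw [pre_succ]; omega) (bal ▸ pre_le c _), pre_succ]
    omega

lemma len_encNat (a : ℕ) : (encNat a).length = 2 * a.size + 1 := by
  unfold encNat
  rw [← Nat.size_eq_bits_len]
  simp [List.length_flatMap]
  ring

lemma len_encList (r : Fin m → ℕ) :
    (encList (List.ofFn r)).length = ∑ i, (2 * (r i).size + 2) + 1 := by
  unfold encList
  simp [List.length_flatMap, len_encNat, List.map_ofFn, List.sum_ofFn]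

lemma len_facts (r : Fin m → ℕ) (c : Fin n → ℕ) (k : ℕ) :
    m ≤ (encInst r c k).length ∧ n ≤ (encInst r c k).length ∧
      ∑ i, (r i).size ≤ (encInst r c k).length ∧ k ≤ (encInst r c k).length ∧
      1 ≤ (encInst r c k).length := by
  unfold encInst
  simp only [List.length_append, len_encList, List.length_replicate, List.length_singleton,
    sum_add_distrib, ← mul_sum, sum_const, card_univ, Fintype.card_fin, smul_eq_mul]
  omega

lemma card_Om_le (r : Fin m → ℕ) (c : Fin n → ℕ) {q : ℕ} (hn : n ≤ q)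
    (hr : ∑ i, (r i).size ≤ q) : (Omega r c).card ≤ 2 ^ (q * q) := by
  unfold Omega
  refine (card_filter_le _ _).trans ?_
  simp only [Fintype.card_piFinset, card_range, prod_const, card_univ, Fintype.card_fin]
  calc ∏ i, (r i + 1) ^ n ≤ ∏ i, (2 ^ (r i).size) ^ n :=
        prod_le_prod' fun i _ => Nat.pow_le_pow_left (Nat.lt_size_self _) _
    _ = 2 ^ ((∑ i, (r i).size) * n) := by rw [prod_pow, prod_pow_eq_pow_sum, ← pow_mul]
    _ ≤ 2 ^ (q * q) := Nat.pow_le_pow_right (by norm_num) (Nat.mul_le_mul hr hn)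

end Vale.Agent.P328.Mx
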