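import Vale.Agent.P328.Stmt

/-! Normal forms for interlacing conditions near the common box of two shapes. -/

namespace Vale.Agent.P328

open Finset

variable {m d : ℕ} {Λ M x : V (d + 1)} {k : V d} {j : Fin d}

lemma e_cases (a b : Fin m) (x y : V m) : e a b = 0 ∨ (e a b = 1 ∧ x b = x a ∧ y b = y a) := by
  by_cases h : b = a
  · subst h; simp
  · exact Or.inl (e_ne h)

lemma e_cc {i j : Fin d} (h : i ≠ j) : e j.castSucc i.castSucc = 0 := e_ne (by simpa using h)
lemma e_ss {i j : Fin d} (h : i ≠ j) : e j.succ i.succ = 0 := e_ne (by simpa using h)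
lemma e_cs (j : Fin d) : e j.castSucc j.succ = 0 := e_ne Fin.castSucc_lt_succ.ne'
lemma e_sc (j : Fin d) : e j.succ j.castSucc = 0 := e_ne Fin.castSucc_lt_succ.ne
lemma e_0s (j : Fin d) : e 0 j.succ = 0 := e_ne (Fin.succ_ne_zero j)
lemma e_lc (j : Fin d) : e (Fin.last d) j.castSucc = 0 := e_ne (Fin.castSucc_lt_last j).ne

def Off (Λ M : V (d + 1)) (j : Fin d) (k : V d) : Prop :=
  ∀ i, i ≠ j → Lo Λ M i ≤ k i ∧ k i ≤ Up Λ M i

def R (Λ M : V (d + 1)) (j : Fin d) (k : V d) (p q : ℤ) : Prop :=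
  Off Λ M j k ∧ Lo Λ M j + p ≤ k j ∧ k j ≤ Up Λ M j + q

lemma nf {x y : V (d + 1)} {k₁ k₂ : V d} (j : Fin d) {p q : ℤ}
    (h : ∀ i, i ≠ j → ((x i.succ ≤ k₁ i ∧ k₁ i ≤ x i.castSucc) ∧
      (y i.succ ≤ k₂ i ∧ k₂ i ≤ y i.castSucc) ↔ Lo Λ M i ≤ k i ∧ k i ≤ Up Λ M i))
    (h' : (x j.succ ≤ k₁ j ∧ k₁ j ≤ x j.castSucc) ∧ (y j.succ ≤ k₂ j ∧ k₂ j ≤ y j.castSucc) ↔
      Lo Λ M j + p ≤ k j ∧ k j ≤ Up Λ M j + q) :
    GT k₁ x ∧ GT k₂ y ↔ R Λ M j k p q := by
  constructor
  · exact fun H => ⟨fun i hi => (h i hi).1 ⟨H.1 i, H.2 i⟩, h'.1 ⟨H.1 j, H.2 j⟩⟩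
  · intro H
    have : ∀ i, (x i.succ ≤ k₁ i ∧ k₁ i ≤ x i.castSucc) ∧
        (y i.succ ≤ k₂ i ∧ k₂ i ≤ y i.castSucc) := fun i => by
      by_cases hi : i = j
      · subst hi; exact h'.2 H.2
      · exact (h i hi).2 (H.1 i hi)
    exact ⟨fun i => (this i).1, fun i => (this i).2⟩

lemma nf_core (j : Fin d) : GT k Λ ∧ GT k M ↔ R Λ M j k 0 0 := by
  refine nf j (fun i _ => ?_) ?_ <;> simp only [Lo, Up] <;> omega

lemma nf_core' (j : Fin d) : GT (k + e j) Λ ∧ GT (k + e j) M ↔ R Λ M j k (-1) (-1) := by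
  refine nf j (fun i hi => ?_) ?_
  · simp only [Lo, Up, Pi.add_apply, e_ne hi]; omega
  · simp only [Lo, Up, Pi.add_apply, e_self]; omega

lemma nf_edge : GT k M ∧ GT (k + e j) Λ ↔ R Λ M j k (if M j.succ < Λ j.succ then -1 else 0)
    (if M j.castSucc < Λ j.castSucc then 0 else -1) := by
  refine nf j (fun i hi => ?_) ?_
  · simp only [Lo, Up, Pi.add_apply, e_ne hi]; omega
  · simp only [Lo, Up, Pi.add_apply, e_self]; omega

lemma nf_edge' : GT (Rf Λ M k - e j) M ∧ GT (Rf Λ M k) Λ ↔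
    R Λ M j k (if M j.castSucc < Λ j.castSucc then -1 else 0)
      (if M j.succ < Λ j.succ then 0 else -1) := by
  refine nf j (fun i hi => ?_) ?_
  · simp only [Rf, Lo, Up, Pi.add_apply, Pi.sub_apply, e_ne hi]; omega
  · simp only [Rf, Lo, Up, Pi.add_apply, Pi.sub_apply, e_self]; omega

lemma nf_Hc (h : M j.castSucc < Λ j.castSucc) :
    GT (k + e j) Λ ∧ GT (k + e j) (M + e j.castSucc) ↔ R Λ M j k (-1) 0 := by
  refine nf j (fun i hi => ?_) ?_
  · have := e_cases j.castSucc i.succ Λ M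
    simp only [Lo, Up, Pi.add_apply, e_ne hi, e_cc hi]; omega
  · simp only [Lo, Up, Pi.add_apply, e_self, e_cs]; omega

lemma nf_Hs (h : ¬ M j.succ < Λ j.succ) :
    GT (k + e j) Λ ∧ GT (k + e j) (M + e j.succ) ↔ R Λ M j k 0 (-1) := by
  refine nf j (fun i hi => ?_) ?_
  · have := e_cases j.succ i.castSucc Λ M
    simp only [Lo, Up, Pi.add_apply, e_ne hi, e_ss hi]; omega
  · simp only [Lo, Up, Pi.add_apply, e_self, e_sc]; omega

lemma nf_Vc (h : ¬ M j.castSucc < Λ j.castSucc) :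
    GT k (Λ - e j.castSucc) ∧ GT k M ↔ R Λ M j k 0 (-1) := by
  refine nf j (fun i hi => ?_) ?_
  · have := e_cases j.castSucc i.succ Λ M
    simp only [Lo, Up, Pi.sub_apply, e_cc hi]; omega
  · simp only [Lo, Up, Pi.sub_apply, e_self, e_cs]; omega

lemma nf_Vs (h : M j.succ < Λ j.succ) :
    GT k (Λ - e j.succ) ∧ GT k M ↔ R Λ M j k (-1) 0 := by
  refine nf j (fun i hi => ?_) ?_
  · have := e_cases j.succ i.castSucc Λ M
    simp only [Lo, Up, Pi.sub_apply, e_ss hi]; omega
  · simp only [Lo, Up, Pi.sub_apply, e_self, e_sc]; omega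

lemma nf_V0 (h : M 0 < Λ 0) (hM : GT k M) : GT k (Λ - e 0) ↔ GT k Λ := by
  refine forall_congr' fun i => ?_
  have := e_cases 0 i.castSucc Λ M
  have := hM i
  simp only [Pi.sub_apply, e_0s]; omega

lemma nf_H0 (h : ¬ M 0 < Λ 0) (hΛ : GT k Λ) : GT k (M + e 0) ↔ GT k M := by
  refine forall_congr' fun i => ?_
  have := e_cases 0 i.castSucc Λ M
  have := hΛ i
  simp only [Pi.add_apply, e_0s]; omega

lemma u1 (h : GT k x) : GT (k + e j) x ↔ k j < x j.castSucc :=
  ⟨fun H => by have := (H j).2; simp only [Pi.add_apply, e_self] at this; omega, h.up⟩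

lemma u2 (h : GT k x) : GT (k - e j) x ↔ x j.succ < k j :=
  ⟨fun H => by have := (H j).1; simp only [Pi.sub_apply, e_self] at this; omega, h.down⟩

lemma u3 (h : GT k x) : GT k (x - e j.castSucc) ↔ k j < x j.castSucc := by
  refine ⟨fun H => by have := (H j).2; simp only [Pi.sub_apply, e_self] at this; omega,
    fun H i => ?_⟩
  have := h i
  have := e_nonneg j.castSucc i.succ
  by_cases hi : i = j
  · subst hi; simp only [Pi.sub_apply, e_self]; omega
  · simp only [Pi.sub_apply, e_cc hi]; omega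

lemma u3l (h : GT k x) : GT k (x - e (Fin.last d)) := by
  intro i
  have := h i
  have := e_nonneg (Fin.last d) i.succ
  simp only [Pi.sub_apply, e_lc]; omega

lemma u4 (h : GT k x) : GT k (x + e j.succ) ↔ x j.succ < k j := by
  refine ⟨fun H => by have := (H j).1; simp only [Pi.add_apply, e_self] at this; omega,
    fun H i => ?_⟩
  have := h i
  have := e_nonneg j.succ i.castSucc
  by_cases hi : i = j
  · subst hi; simp only [Pi.add_apply, e_self]; omega
  · simp only [Pi.add_apply, e_ss hi]; omega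

lemma u40 (h : GT k x) : GT k (x + e 0) := by
  intro i
  have := h i
  have := e_nonneg 0 i.castSucc
  simp only [Pi.add_apply, e_0s]; omega

lemma not_GT (hn : ¬ GT k x) (h : ∀ i, i ≠ j → x i.succ ≤ k i ∧ k i ≤ x i.castSucc) :
    ¬ (x j.succ ≤ k j ∧ k j ≤ x j.castSucc) := by
  intro H
  refine hn fun i => ?_
  by_cases hi : i = j
  · subst hi; exact H
  · exact h i hi

lemma n1' (hn : ¬ GT k Λ) (H : GT (k + e j) Λ) : k j + 1 = Λ j.succ := by
  have h1 := not_GT (j := j) hn fun i hi => by simpa [e_ne hi] using H i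
  have h2 := H j
  simp only [Pi.add_apply, e_self] at h2
  omega

lemma n1 (hΛ : Antitone Λ) (hM : GT k M) (hn : ¬ GT k Λ) :
    GT (k + e j) Λ ↔ GT k (Λ - e j.succ) := by
  constructor
  · intro H i
    have h1 := n1' hn H
    have h2 := H i
    have := e_cases j.succ i.castSucc Λ M
    have := hM i
    have := hM j
    by_cases hi : i = j
    · subst hi; simp only [Pi.sub_apply, Pi.add_apply, e_self] at *; omega
    · simp only [Pi.sub_apply, Pi.add_apply, e_ss hi, e_ne hi] at *; omega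
  · intro H
    have h0 : ∀ i, i ≠ j → Λ i.succ ≤ k i ∧ k i ≤ Λ i.castSucc := fun i hi => by
      have := H i
      have := e_nonneg j.succ i.castSucc
      simp only [Pi.sub_apply, e_ss hi] at *; omega
    have h1 := not_GT hn h0
    have h2 := H j
    have h3 : Λ j.succ ≤ Λ j.castSucc := hΛ (Fin.castSucc_le_succ j)
    intro i
    by_cases hi : i = j
    · subst hi; simp only [Pi.sub_apply, Pi.add_apply, e_self, e_sc] at *; omega
    · simpa [e_ne hi] using h0 i hi

lemma n10 (hn : ¬ GT k Λ) : ¬ GT k (Λ - e 0) := by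
  refine fun H => hn fun i => ?_
  have := H i
  have := e_nonneg 0 i.castSucc
  simp only [Pi.sub_apply, e_0s] at *; omega

lemma n2' (hn : ¬ GT k M) (H : GT (k - e j) M) : k j - 1 = M j.castSucc := by
  have h1 := not_GT (j := j) hn fun i hi => by simpa [e_ne hi] using H i
  have h2 := H j
  simp only [Pi.sub_apply, e_self] at h2
  omega

lemma n2 (hM : Antitone M) (hΛ : GT k Λ) (hn : ¬ GT k M) (hl : M j.castSucc < Λ j.castSucc) :
    GT (k - e j) M ↔ GT k (M + e j.castSucc) := by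
  constructor
  · intro H i
    have h1 := n2' hn H
    have h2 := H i
    have := e_cases j.castSucc i.succ Λ M
    have := hΛ i
    by_cases hi : i = j
    · subst hi; simp only [Pi.sub_apply, Pi.add_apply, e_self, e_cs] at *; omega
    · simp only [Pi.sub_apply, Pi.add_apply, e_cc hi, e_ne hi] at *; omega
  · intro H
    have h0 : ∀ i, i ≠ j → M i.succ ≤ k i ∧ k i ≤ M i.castSucc := fun i hi => by
      have := H i
      have := e_nonneg j.castSucc i.succ
      simp only [Pi.add_apply, e_cc hi] at *; omega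
    have h1 := not_GT hn h0
    have h2 := H j
    have h3 : M j.succ ≤ M j.castSucc := hM (Fin.castSucc_le_succ j)
    intro i
    by_cases hi : i = j
    · subst hi; simp only [Pi.sub_apply, Pi.add_apply, e_self, e_cs] at *; omega
    · simpa [e_ne hi] using h0 i hi

lemma n2'' (hM : Antitone M) (hΛ : GT k Λ) (hn : ¬ GT k M) :
    GT (k - e j) M ↔ GT k (M + e j.castSucc) := by
  by_cases hl : M j.castSucc < Λ j.castSucc
  · exact n2 hM hΛ hn hl
  · have h0 := hΛ j
    constructor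
    · intro H
      have := n2' hn H
      omega
    · intro H
      refine absurd (fun i => ?_) hn
      have := H i
      have := e_nonneg j.castSucc i.succ
      by_cases hi : i = j
      · subst hi; simp only [Pi.add_apply, e_self, e_cs] at *; omega
      · simp only [Pi.add_apply, e_cc hi] at *; omega

end Vale.Agent.P328
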