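import Vale.Agent.P328.PoinC

/-! The Poincare inequality from the transport inequality. -/

namespace Vale.Agent.P328

open Finset Mx

namespace Pc

variable {m n : ℕ}

/-- Total energy density. -/
noncomputable def ee (q : ℕ) (f : (Fin m → Fin n → ℕ) → ℝ) (X : Fin m → Fin n → ℕ) : ℝ :=
  ∑ s ∈ range q, en (2 ^ s) f X

lemma ee_nonneg (q : ℕ) (f : (Fin m → Fin n → ℕ) → ℝ) (X : Fin m → Fin n → ℕ) : 0 ≤ ee q f X :=
  sum_nonneg fun _ _ => en_nonneg _ _ _

/-- The potential. -/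
noncomputable def Phi (r : Fin m → ℕ) : ℝ := ∑ l, Real.log (r l + 1)

lemma Phi_nonneg (r : Fin m → ℕ) : 0 ≤ Phi r :=
  sum_nonneg fun l _ => Real.log_nonneg (by have : (0 : ℝ) ≤ r l := Nat.cast_nonneg _; linarith)

lemma Phi_le (r : Fin m → ℕ) : Phi r ≤ (∑ l, (r l).size : ℕ) := by
  push_cast
  refine sum_le_sum fun l _ => ?_
  have h1 : ((r l + 1 : ℕ) : ℝ) ≤ (2 ^ (r l).size : ℕ) := by exact_mod_cast Nat.lt_size_self (r l)
  push_cast at h1
  refine (Real.log_le_log (by positivity) h1).trans ?_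
  rw [Real.log_pow]
  have := Real.log_le_sub_one_of_pos (show (0 : ℝ) < 2 by norm_num)
  have h0 : (0 : ℝ) ≤ (r l).size := Nat.cast_nonneg _
  nlinarith

lemma Phi_add (a : Fin m → ℕ) (i : Fin m) (k : ℕ) :
    Phi a ≤ Phi (a + Pi.single i k) - k / ((a + Pi.single i k : Fin m → ℕ) i + 1) := by
  unfold Phi
  rw [← add_sum_erase _ _ (mem_univ i), ← add_sum_erase _ _ (mem_univ i)]
  have h1 : ∑ l ∈ univ.erase i, Real.log ((a + Pi.single i k : Fin m → ℕ) l + 1) =
      ∑ l ∈ univ.erase i, Real.log (a l + 1) :=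
    sum_congr rfl fun l hl => by simp [Pi.single_apply, ne_of_mem_erase hl]
  rw [h1]
  simp only [Pi.add_apply, Pi.single_eq_same]
  push_cast
  have h2 := Real.log_le_sub_one_of_pos (show (0 : ℝ) < (a i + 1) / (a i + k + 1) by positivity)
  rw [Real.log_div (by positivity) (by positivity)] at h2
  have h3 : ((a i : ℝ) + 1) / (a i + k + 1) - 1 = -(k / (a i + k + 1)) := by field_simp; ring
  linarith

lemma var_split {T : Type*} (S : Finset T) (f : T → ℝ) (μ : ℝ) :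
    ∑ X ∈ S, (f X - μ) ^ 2 = ∑ X ∈ S, (f X - (∑ Y ∈ S, f Y) / S.card) ^ 2 +
      (∑ X ∈ S, (f X - μ)) ^ 2 / S.card := by
  rcases S.eq_empty_or_nonempty with rfl | h
  · simp
  have h1 : (0 : ℝ) < S.card := by exact_mod_cast card_pos.2 h
  simp only [sub_sq, sum_add_distrib, sum_sub_distrib, ← sum_mul, ← mul_sum, sum_const,
    nsmul_eq_mul]
  field_simp
  ring

lemma sum_ind (R x : ℕ) (hx : x ≤ R) (u : ℕ → ℝ) :
    ∑ k ∈ Icc 1 R, (if k ≤ x then u k else 0) = ∑ k ∈ Icc 1 x, u k := by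
  rw [← sum_filter]
  congr 1
  ext k
  simp only [mem_filter, mem_Icc]
  omega

lemma sum_lin (x : ℕ) (a b : ℝ) : ∑ k ∈ Icc 1 x, (a - k / b) = x * a - x * (x + 1) / (2 * b) := by
  induction x with
  | zero => simp
  | succ x ih => rw [sum_Icc_succ_top (by omega), ih]; push_cast; ring

lemma weight {r : Fin m → ℕ} {c : Fin n → ℕ} {X : Fin m → Fin n → ℕ} (hX : X ∈ Omega r c)
    (i : Fin m) (hi : 1 ≤ r i) {q : ℕ} (hn : n ≤ q) (hq : 1 ≤ q) (a : ℝ) :
    ∑ J, ∑ k ∈ Icc 1 (r i), (if k ≤ X i J then a - k / (r i + 1) else 0) ≤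
      r i * (a - 1 / (4 * q)) := by
  simp only [sum_ind _ _ (le_row hX i _), sum_lin]
  simp only [sum_sub_distrib, ← sum_mul, ← sum_div]
  have h1 : ∑ J, (X i J : ℝ) = r i := by exact_mod_cast (mem_Om.1 hX).1 i
  have h2 := sq_sum_le_card_mul_sum_sq (s := univ) (f := fun J => (X i J : ℝ))
  rw [h1] at h2 ⊢
  simp only [card_univ, Fintype.card_fin] at h2
  have h3 : ∑ J, (X i J : ℝ) ^ 2 ≤ ∑ J, (X i J : ℝ) * (X i J + 1) :=
    sum_le_sum fun J _ => by have : (0 : ℝ) ≤ X i J := Nat.cast_nonneg _; nlinarith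
  have h4 : 0 ≤ ∑ J, (X i J : ℝ) ^ 2 := by positivity
  have hn' : (n : ℝ) ≤ q := by exact_mod_cast hn
  have hq' : (1 : ℝ) ≤ q := by exact_mod_cast hq
  have hi' : (1 : ℝ) ≤ r i := by exact_mod_cast hi
  have h5 : (r i : ℝ) ^ 2 ≤ q * ∑ J, (X i J : ℝ) * (X i J + 1) := h2.trans (by gcongr)
  have h6 : (r i : ℝ) * (1 / (4 * q)) ≤ (∑ J, (X i J : ℝ) * (X i J + 1)) / (2 * (r i + 1)) := by
    rw [mul_one_div, div_le_div_iff₀ (by positivity) (by positivity)]
    nlinarith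
  linarith

lemma choose_scale (R M : ℕ) (hR : 1 ≤ R) (hM : 1 ≤ M) :
    ∃ s, s < R.size ∧ R ≤ 2 ^ s * (2 * M) ∧ (2 ^ s - 1) * M ≤ R := by
  by_cases h : R / M = 0
  · refine ⟨0, Nat.size_pos.2 hR, ?_, by simp⟩
    have := (Nat.div_eq_zero_iff_lt hM).1 h
    omega
  · have h1 := Nat.pow_log_le_self 2 h
    have h2 := Nat.lt_pow_succ_log_self (b := 2) (by norm_num) (R / M)
    have h3 := (Nat.le_div_iff_mul_le hM).1 h1
    have h4 := (Nat.div_lt_iff_lt_mul hM).1 h2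
    refine ⟨Nat.log 2 (R / M), Nat.lt_size.2 ?_, ?_, ?_⟩
    · exact (Nat.le_mul_of_pos_right _ hM).trans h3
    · rw [pow_succ] at h4; nlinarith
    · exact (Nat.mul_le_mul_right _ (Nat.sub_le _ _)).trans h3

lemma main (hD : DualD) (q : ℕ) (hm : m ≤ q) (hn : n ≤ q) (N : ℕ) : ∀ (r : Fin m → ℕ)
    (c : Fin n → ℕ), ∑ l, r l = N → ∑ i, r i = ∑ j, c j → ∑ i, (r i).size ≤ q →
    ∀ f : (Fin m → Fin n → ℕ) → ℝ,
    ∑ X ∈ Omega r c, (f X - (∑ Y ∈ Omega r c, f Y) / (Omega r c).card) ^ 2 ≤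
      128 * q ^ 2 * ((64 * q ^ 3 * (1 + (q + 1) * (q * q)) : ℕ) : ℝ) ^ 2 * Phi r *
        ∑ X ∈ Omega r c, ee q f X := by
  induction N using Nat.strong_induction_on with
  | _ N ih =>
  intro r c hN hb hs f
  have hE : 0 ≤ ∑ X ∈ Omega r c, ee q f X := sum_nonneg fun _ _ => ee_nonneg _ _ _
  have hΦ := Phi_nonneg r
  by_cases h0 : ∀ i, r i = 0
  · have : Omega r c = {start r c} := by
      refine eq_singleton_iff_unique_mem.2 ⟨start_mem r c hb, fun X hX => ?_⟩
      funext i j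
      have h1 := le_row hX i j
      have h2 := le_row (start_mem r c hb) i j
      have := h0 i
      omega
    refine le_trans (le_of_eq ?_) (show 0 ≤ _ by positivity)
    simp [this]
  push Not at h0
  obtain ⟨i, hi⟩ := h0
  have hi : 1 ≤ r i := Nat.pos_of_ne_zero hi
  have hsz : (r i).size ≤ q :=
    (single_le_sum (f := fun i => (r i).size) (fun _ _ => Nat.zero_le _) (mem_univ i)).trans hs
  have hq : 1 ≤ q := (Nat.size_pos.2 hi).trans_le hsz
  set M := 64 * q ^ 3 * (1 + (q + 1) * (q * q)) with hM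
  obtain ⟨s, hs1, hs2, hs3⟩ := choose_scale (r i) M hi (Nat.succ_le_of_lt (by positivity))
  set α : ℝ := 128 * q ^ 2 * (M : ℝ) ^ 2 with hα
  have hα0 : 0 ≤ α := by positivity
  set μ := (∑ Y ∈ Omega r c, f Y) / (Omega r c).card with hμ
  set V := ∑ X ∈ Omega r c, (f X - μ) ^ 2 with hV
  set E := ∑ X ∈ Omega r c, ee q f X with hEd
  have hV0 : 0 ≤ V := by positivity
  have hc := card_pos' hb
  have e1 : r i * V = ∑ J, ∑ k ∈ Icc 1 (r i),
      ∑ X ∈ (Omega r c).filter (fun X => k ≤ X i J), (f X - μ) ^ 2 := by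
    simp only [sum_filter]
    rw [hV, mul_sum]
    simp only [sum_comm (t := Omega r c)]
    refine sum_congr rfl fun X hX => ?_
    simp only [sum_ind _ _ (le_row hX i _), sum_const, Nat.card_Icc, add_tsub_cancel_right,
      nsmul_eq_mul, ← sum_mul]
    rw [← (mem_Om.1 hX).1 i]; push_cast; rfl
  have e2 : ∀ J, ∀ k ∈ Icc 1 (r i), ∑ X ∈ (Omega r c).filter (fun X => k ≤ X i J),
      (f X - (∑ Y ∈ (Omega r c).filter (fun X => k ≤ X i J), f Y) /
        ((Omega r c).filter (fun X => k ≤ X i J)).card) ^ 2 ≤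
      α * ∑ X ∈ (Omega r c).filter (fun X => k ≤ X i J), (Phi r - k / (r i + 1)) * ee q f X := by
    intro J k hk
    rcases ((Omega r c).filter (fun X => k ≤ X i J)).eq_empty_or_nonempty with he | ⟨X, hX⟩
    · simp [he]
    rw [mem_filter] at hX
    rw [mem_Icc] at hk
    have h2 : k ≤ c J := hX.2.trans (le_col hX.1 i J)
    clear_value μ V E M α
    obtain ⟨a, rfl⟩ : ∃ a : Fin m → ℕ, r = a + Pi.single i k := ⟨_, (sub_add_single hk.2).symm⟩
    obtain ⟨b, rfl⟩ : ∃ b : Fin n → ℕ, c = b + Pi.single J k := ⟨_, (sub_add_single h2).symm⟩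
    rw [sum_add_single, sum_add_single, add_left_inj] at hb
    rw [sum_add_single] at hN
    rw [shift_sum, shift_sum, shift_sum, shift_card, ← mul_sum, ← mul_assoc]
    refine (ih (∑ l, a l) (by omega) a b rfl hb (le_trans (sum_le_sum fun l _ =>
      Nat.size_le_size (by simp)) hs) (fun Y => f (Y + unit i J k))).trans ?_
    have h3 := Phi_add a i k
    have h4 := Phi_nonneg a
    refine mul_le_mul (mul_le_mul_of_nonneg_left h3 hα0) (sum_le_sum fun Y _ =>
      sum_le_sum fun s _ => en_shift _ _ _ _) (sum_nonneg fun _ _ => ee_nonneg _ _ _)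
      (mul_nonneg hα0 (h4.trans h3))
  have e3 : ∑ J, ∑ k ∈ Icc 1 (r i), α * ∑ X ∈ (Omega r c).filter (fun X => k ≤ X i J),
      (Phi r - k / (r i + 1)) * ee q f X ≤ α * (r i * (Phi r - 1 / (4 * q)) * E) := by
    simp only [← mul_sum (a := α)]
    refine mul_le_mul_of_nonneg_left ?_ hα0
    simp only [sum_filter]
    rw [hEd, mul_sum]
    simp only [sum_comm (t := Omega r c)]
    refine sum_le_sum fun X hX => ?_
    refine le_trans (le_of_eq ?_) (mul_le_mul_of_nonneg_right (weight hX i hi hn hq (Phi r))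
      (ee_nonneg q f X))
    simp only [sum_mul, ite_mul, zero_mul]
  have hq' : (1 : ℝ) ≤ q := by exact_mod_cast hq
  have hm' : (m : ℝ) ≤ q := by exact_mod_cast hm
  have hn' : (n : ℝ) ≤ q := by exact_mod_cast hn
  have hi' : (1 : ℝ) ≤ r i := by exact_mod_cast hi
  have hM' : (M : ℝ) = 64 * q ^ 3 * (1 + (q + 1) * (q * q)) := by rw [hM]; push_cast; ring
  have e4 : ∀ J, ∑ k ∈ Icc 1 (r i), (∑ X ∈ (Omega r c).filter (fun X => k ≤ X i J), (f X - μ)) ^ 2 /
      ((Omega r c).filter (fun X => k ≤ X i J)).card ≤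
      16 * r i * M ^ 2 * E + r i / (8 * q ^ 3) * V := by
    intro J
    refine (scale hD r c i J (h := 2 ^ s) (by positivity) (2 * M) hs2 (fun X => f X - μ) ?_).trans
      (add_le_add ?_ ?_)
    · rw [sum_sub_distrib, sum_const, nsmul_eq_mul, hμ, mul_div_cancel₀ _ hc.ne', sub_self]
    · have : ∑ X ∈ Omega r c, en (2 ^ s) (fun X => f X - μ) X ≤ E := by
        refine sum_le_sum fun X _ => le_trans (le_of_eq ?_) (single_le_sum
          (f := fun s => en (2 ^ s) f X) (fun _ _ => en_nonneg _ _ _)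
          (mem_range.2 (hs1.trans_le hsz)))
        simp [en]
      calc _ ≤ 4 * (r i : ℝ) * ((2 * M : ℕ) : ℝ) ^ 2 * E := by gcongr
        _ = _ := by push_cast; ring
    · refine mul_le_mul_of_nonneg_right ?_ hV0
      have h1 : (((2 ^ s : ℕ) : ℝ) - 1) * M ≤ r i := by
        have : ((2 ^ s - 1 : ℕ) : ℝ) = ((2 ^ s : ℕ) : ℝ) - 1 := by
          rw [Nat.cast_sub Nat.one_le_two_pow]; simp
        rw [← this]; exact_mod_cast hs3
      have h2 : (0 : ℝ) ≤ ((2 ^ s : ℕ) : ℝ) - 1 := by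
        have : (1 : ℝ) ≤ ((2 ^ s : ℕ) : ℝ) := by exact_mod_cast Nat.one_le_two_pow
        linarith
      have h3 : (1 : ℝ) + (m + 1) * (m * n) ≤ 1 + (q + 1) * (q * q) := by gcongr
      rw [le_div_iff₀ (by positivity)]
      rw [hM'] at h1
      calc _ ≤ 8 * ((((2 ^ s : ℕ) : ℝ) - 1) * (1 + (q + 1) * (q * q))) * (8 * (q : ℝ) ^ 3) := by
            gcongr
        _ ≤ _ := by linarith
  have e5 : r i * V ≤ α * (r i * (Phi r - 1 / (4 * q)) * E) +
      q * (16 * r i * M ^ 2 * E + r i / (8 * q ^ 3) * V) := by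
    rw [e1]
    simp only [var_split _ f μ, sum_add_distrib]
    refine add_le_add ((sum_le_sum fun J _ => sum_le_sum (e2 J)).trans e3) ?_
    refine (sum_le_card_nsmul _ _ _ fun J _ => e4 J).trans ?_
    simp only [card_univ, Fintype.card_fin, nsmul_eq_mul]
    gcongr
  have e6 : V ≤ α * (Phi r - 1 / (4 * q)) * E + 16 * q * M ^ 2 * E + 1 / (8 * q ^ 2) * V := by
    refine le_of_mul_le_mul_left (e5.trans (le_of_eq ?_)) (show (0 : ℝ) < r i by linarith)
    field_simp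
    ring
  have hΦq : Phi r ≤ q := (Phi_le r).trans (by exact_mod_cast hs)
  have e7 : 1 / (8 * (q : ℝ) ^ 2) * (α * Phi r * E) ≤ 16 * q * M ^ 2 * E := by
    calc _ ≤ 1 / (8 * (q : ℝ) ^ 2) * (α * q * E) := by gcongr
      _ = _ := by rw [hα]; field_simp; ring
  have e8 : α * (1 / (4 * q)) * E = 32 * q * M ^ 2 * E := by rw [hα]; field_simp; ring
  have e9 : 1 / (8 * (q : ℝ) ^ 2) < 1 := by
    rw [div_lt_one (by positivity)]; nlinarith
  refine le_of_mul_le_mul_left ?_ (sub_pos.2 e9)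
  nlinarith

end Pc

open Pc in
/-- PART B1 -/
theorem poincare (h : DualD) : Poincare := by
  refine ⟨128 * Polynomial.X ^ 2 * (64 * Polynomial.X ^ 3 * (1 + (Polynomial.X + 1) *
    (Polynomial.X * Polynomial.X))) ^ 2 * Polynomial.X, fun m n q r c hb hm hn hs f => ?_⟩
  refine (main h q hm hn _ r c rfl hb hs f).trans ?_
  have e : ∑ X ∈ Omega r c, ee q f X = ∑ s ∈ range q, ∑ i, ∑ i', ∑ J, ∑ K, ∑ X ∈ Omega r c,
      (f X - f (sw (2 ^ s) i i' J K X)) ^ 2 := by
    simp only [ee, en, sum_comm (t := Omega r c)]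
  rw [← e]
  refine mul_le_mul_of_nonneg_right ?_ (sum_nonneg fun _ _ => ee_nonneg _ _ _)
  have hΦq : Phi r ≤ q := (Phi_le r).trans (by exact_mod_cast hs)
  simp only [Polynomial.eval_mul, Polynomial.eval_pow, Polynomial.eval_add, Polynomial.eval_X,
    Polynomial.eval_ofNat, Polynomial.eval_one]
  push_cast
  gcongr

end Vale.Agent.P328
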