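import Vale.Agent.P328.MixB

/-! Shifts, scalings and energy densities. -/

namespace Vale.Agent.P328.Pc

open Finset Mx

variable {m n : ℕ}

/-- Energy density of `f` at `X` for switches of size `h`. -/
noncomputable def en (h : ℕ) (f : (Fin m → Fin n → ℕ) → ℝ) (X : Fin m → Fin n → ℕ) : ℝ :=
  ∑ i, ∑ i', ∑ J, ∑ K, (f X - f (sw h i i' J K X)) ^ 2

lemma en_nonneg (h : ℕ) (f : (Fin m → Fin n → ℕ) → ℝ) (X : Fin m → Fin n → ℕ) : 0 ≤ en h f X := by
  unfold en; positivity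

/-- The affine map `Y ↦ ρ + h Y`. -/
def aff (ρ : Fin m → Fin n → ℕ) (h : ℕ) (Y : Fin m → Fin n → ℕ) : Fin m → Fin n → ℕ :=
  fun a b => ρ a b + h * Y a b

lemma unit_mul (i : Fin m) (j : Fin n) (h k : ℕ) (a : Fin m) (b : Fin n) :
    unit i j (h * k) a b = h * unit i j k a b := by
  unfold unit; split_ifs <;> simp

lemma sw_aff (ρ : Fin m → Fin n → ℕ) (h : ℕ) {k : ℕ} {i i' : Fin m} {J K : Fin n}
    {Y : Fin m → Fin n → ℕ} (hY : ok k i i' J K Y) :
    sw (h * k) i i' J K (aff ρ h Y) = aff ρ h (sw k i i' J K Y) := by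
  have h2 : ok (h * k) i i' J K (aff ρ h Y) :=
    ⟨hY.1, hY.2.1, le_add_left (Nat.mul_le_mul_left _ hY.2.2.1),
      le_add_left (Nat.mul_le_mul_left _ hY.2.2.2)⟩
  funext a b
  have e1 := sw_apply h2 a b
  have e2 := congrArg (h * ·) (sw_apply hY a b)
  simp only [unit_mul, mul_add] at e1 e2
  simp only [aff] at e1 ⊢
  omega

lemma en_aff (ρ : Fin m → Fin n → ℕ) (h k : ℕ) (f : (Fin m → Fin n → ℕ) → ℝ)
    (Y : Fin m → Fin n → ℕ) : en k (fun Y => f (aff ρ h Y)) Y ≤ en (h * k) f (aff ρ h Y) := by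
  unfold en
  refine sum_le_sum fun i _ => sum_le_sum fun i' _ => sum_le_sum fun J _ => sum_le_sum fun K _ => ?_
  by_cases hY : ok k i i' J K Y
  · rw [sw_aff ρ h hY]
  · rw [sw_not hY, sub_self, zero_pow two_ne_zero]; positivity

lemma aff_one (ρ Y : Fin m → Fin n → ℕ) : aff ρ 1 Y = Y + ρ := by
  funext a b; simp [aff, add_comm]

lemma en_shift (ρ : Fin m → Fin n → ℕ) (k : ℕ) (f : (Fin m → Fin n → ℕ) → ℝ)
    (Y : Fin m → Fin n → ℕ) : en k (fun Y => f (Y + ρ)) Y ≤ en k f (Y + ρ) := by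
  simpa [aff_one] using en_aff ρ 1 k f Y

lemma add_unit_mem {a : Fin m → ℕ} {b : Fin n → ℕ} {Y : Fin m → Fin n → ℕ} (i : Fin m) (J : Fin n)
    (k : ℕ) : Y + unit i J k ∈ Omega (a + Pi.single i k) (b + Pi.single J k) ↔ Y ∈ Omega a b := by
  simp only [mem_Om, Pi.add_apply, sum_add_distrib, unit_row, unit_col, Pi.single_apply,
    add_left_inj]

lemma sub_add_unit {X : Fin m → Fin n → ℕ} {i : Fin m} {J : Fin n} {k : ℕ} (h : k ≤ X i J) :
    X - unit i J k + unit i J k = X := by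
  funext a b
  simp only [Pi.add_apply, Pi.sub_apply, unit]
  split_ifs with h1
  · obtain ⟨rfl, rfl⟩ := h1; omega
  · simp

lemma shift_sum (a : Fin m → ℕ) (b : Fin n → ℕ) (i : Fin m) (J : Fin n) (k : ℕ)
    (g : (Fin m → Fin n → ℕ) → ℝ) :
    ∑ X ∈ (Omega (a + Pi.single i k) (b + Pi.single J k)).filter (fun X => k ≤ X i J), g X =
      ∑ Y ∈ Omega a b, g (Y + unit i J k) := by
  symm
  refine sum_nbij' (fun Y => Y + unit i J k) (fun X => X - unit i J k) ?_ ?_ ?_ ?_ ?_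
  · intro Y hY
    rw [mem_filter, add_unit_mem]
    exact ⟨hY, by simp [unit]⟩
  · intro X hX
    rw [mem_filter] at hX
    rw [← add_unit_mem i J k, sub_add_unit hX.2]
    exact hX.1
  · intro Y _
    simp
  · intro X hX
    exact sub_add_unit (mem_filter.1 hX).2
  · intro Y _
    rfl

lemma shift_card (a : Fin m → ℕ) (b : Fin n → ℕ) (i : Fin m) (J : Fin n) (k : ℕ) :
    (((Omega (a + Pi.single i k) (b + Pi.single J k)).filter (fun X => k ≤ X i J)).card : ℝ) =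
      (Omega a b).card := by
  simpa using shift_sum a b i J k (fun _ => 1)

lemma shift_le (a : Fin m → ℕ) (b : Fin n → ℕ) (i : Fin m) (J : Fin n) (k : ℕ)
    (g : (Fin m → Fin n → ℕ) → ℝ) (hg : ∀ X, 0 ≤ g X) :
    ∑ Y ∈ Omega a b, g (Y + unit i J k) ≤
      ∑ X ∈ Omega (a + Pi.single i k) (b + Pi.single J k), g X := by
  rw [← shift_sum]
  exact sum_le_sum_of_subset_of_nonneg (filter_subset _ _) fun X _ _ => hg X

lemma card_shift_le (a : Fin m → ℕ) (b : Fin n → ℕ) (i : Fin m) (J : Fin n) (k : ℕ) :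
    ((Omega a b).card : ℝ) ≤ (Omega (a + Pi.single i k) (b + Pi.single J k)).card := by
  simpa using shift_le a b i J k (fun _ => 1) (fun _ => zero_le_one)

lemma bal_of_mem {r : Fin m → ℕ} {c : Fin n → ℕ} {X : Fin m → Fin n → ℕ} (hX : X ∈ Omega r c) :
    ∑ i, r i = ∑ j, c j := by
  rw [mem_Om] at hX
  simp only [← hX.1, ← hX.2]
  exact sum_comm

lemma card_pos' {r : Fin m → ℕ} {c : Fin n → ℕ} (h : ∑ i, r i = ∑ j, c j) :
    (0 : ℝ) < (Omega r c).card := by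
  exact_mod_cast card_pos.2 ⟨_, start_mem r c h⟩

lemma le_row {r : Fin m → ℕ} {c : Fin n → ℕ} {X : Fin m → Fin n → ℕ} (hX : X ∈ Omega r c)
    (i : Fin m) (j : Fin n) : X i j ≤ r i := by
  rw [← (mem_Om.1 hX).1 i]
  exact single_le_sum (f := fun j => X i j) (fun _ _ => Nat.zero_le _) (mem_univ j)

lemma le_col {r : Fin m → ℕ} {c : Fin n → ℕ} {X : Fin m → Fin n → ℕ} (hX : X ∈ Omega r c)
    (i : Fin m) (j : Fin n) : X i j ≤ c j := by
  rw [← (mem_Om.1 hX).2 j]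
  exact single_le_sum (f := fun i => X i j) (fun _ _ => Nat.zero_le _) (mem_univ i)

lemma sub_add_single {ι : Type*} [DecidableEq ι] {r : ι → ℕ} {i : ι} {k : ℕ} (h : k ≤ r i) :
    r - Pi.single i k + Pi.single i k = r := by
  funext l
  simp only [Pi.add_apply, Pi.sub_apply, Pi.single_apply]
  split_ifs with h1
  · subst h1; omega
  · simp

lemma sum_add_single {ι : Type*} [DecidableEq ι] [Fintype ι] (r : ι → ℕ) (i : ι) (k : ℕ) :
    ∑ l, (r + Pi.single i k : ι → ℕ) l = ∑ l, r l + k := by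
  simp [sum_add_distrib]

/-- Residue class of a table. -/
def cls (h : ℕ) (X : Fin m → Fin n → ℕ) : Fin m → Fin n → ℕ := fun a b => X a b % h

lemma cls_sum {r a : Fin m → ℕ} {c b : Fin n → ℕ} {h : ℕ} (hh : 0 < h) {ρ : Fin m → Fin n → ℕ}
    (hρ : ∀ x y, ρ x y < h) (hr : ∀ l, r l = ∑ j, ρ l j + h * a l)
    (hc : ∀ j, c j = ∑ l, ρ l j + h * b j) (g : (Fin m → Fin n → ℕ) → ℝ) :
    ∑ X ∈ (Omega r c).filter (fun X => cls h X = ρ), g X = ∑ Y ∈ Omega a b, g (aff ρ h Y) := by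
  have key : ∀ Y, aff ρ h Y ∈ Omega r c ↔ Y ∈ Omega a b := by
    intro Y
    simp only [mem_Om, aff, sum_add_distrib, ← mul_sum, hr, hc, add_right_inj,
      mul_right_inj' hh.ne']
  have k2 : ∀ X, cls h X = ρ → aff ρ h (fun x y => X x y / h) = X := by
    rintro X rfl
    funext x y
    simp [aff, cls, Nat.mod_add_div]
  symm
  refine sum_nbij' (aff ρ h) (fun X x y => X x y / h) ?_ ?_ ?_ ?_ ?_
  · intro Y hY
    rw [mem_filter, key]
    refine ⟨hY, ?_⟩
    funext x y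
    simp [cls, aff, Nat.mod_eq_of_lt (hρ x y)]
  · intro X hX
    rw [mem_filter] at hX
    rw [← key, k2 X hX.2]
    exact hX.1
  · intro Y _
    funext x y
    simp [aff, Nat.add_mul_div_left _ _ hh, Nat.div_eq_of_lt (hρ x y)]
  · intro X hX
    exact k2 X (mem_filter.1 hX).2
  · intro Y _
    rfl

lemma cls_margins {r : Fin m → ℕ} {c : Fin n → ℕ} (h : ℕ) {X : Fin m → Fin n → ℕ}
    (hX : X ∈ Omega r c) : ∃ (a : Fin m → ℕ) (b : Fin n → ℕ), ∑ l, a l = ∑ j, b j ∧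
      (∀ l, r l = ∑ j, cls h X l j + h * a l) ∧ ∀ j, c j = ∑ l, cls h X l j + h * b j := by
  rw [mem_Om] at hX
  refine ⟨fun l => ∑ j, X l j / h, fun j => ∑ l, X l j / h, sum_comm, fun l => ?_, fun j => ?_⟩
  · simp only [cls, mul_sum, ← sum_add_distrib, Nat.mod_add_div, hX.1]
  · simp only [cls, mul_sum, ← sum_add_distrib, Nat.mod_add_div, hX.2]

end Vale.Agent.P328.Pc
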