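import Vale.Agent.P328.PoinA

/-! Consequences of the transport inequality at scale one. -/

namespace Vale.Agent.P328.Pc

open Finset Mx

variable {m n : ℕ}

lemma col_pos {a : Fin m → ℕ} {c : Fin n → ℕ} (hb : ∑ i, a i + 1 = ∑ j, c j) {K : Fin n}
    {X : Fin m → Fin n → ℕ} (hX : X ∈ Omega a (c - Pi.single K 1)) : 1 ≤ c K := by
  by_contra h
  have h1 : c - Pi.single K 1 = c := by
    funext j
    simp only [Pi.sub_apply, Pi.single_apply]
    split_ifs with h2
    · subst h2; omega
    · simp
  rw [h1] at hX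
  have := bal_of_mem hX
  omega

lemma star (hD : DualD) (a : Fin m → ℕ) (b : Fin n → ℕ) (hb : ∑ l, a l = ∑ j, b j) (i : Fin m)
    (J : Fin n) (f : (Fin m → Fin n → ℕ) → ℝ) :
    ((∑ X ∈ Omega a b, f (X + unit i J 1)) / (Omega a b).card -
      (∑ Y ∈ Omega (a + Pi.single i 1) (b + Pi.single J 1), f Y) /
        (Omega (a + Pi.single i 1) (b + Pi.single J 1)).card) ^ 2 ≤
      2 / (Omega a b).card * ∑ Y ∈ Omega (a + Pi.single i 1) (b + Pi.single J 1), en 1 f Y := by
  classical
  have hb' : ∑ l, a l + 1 = ∑ j, (b + Pi.single J 1 : Fin n → ℕ) j := by rw [sum_add_single, hb]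
  have h := hD m n a (b + Pi.single J 1) hb' J i (by simp) (fun K X => f (X + unit i K 1))
    (fun i' Y => if i' = i then f Y else if h : ∃ K0, 1 ≤ Y i' K0 then
      f (Y - unit i' h.choose 1 + unit i h.choose 1) else 0)
  simp only [add_tsub_cancel_right, if_true] at h
  refine h.trans ?_
  set c := b + Pi.single J 1 with hc
  refine mul_le_mul ?_ ?_ (by positivity) (by positivity)
  · have h1 := card_shift_le a b i J 1
    have h2 := card_pos' hb
    have h3 := one_div_le_one_div_of_le h2 h1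
    rw [show (2 : ℝ) / (Omega a b).card = 1 / (Omega a b).card + 1 / (Omega a b).card by ring]
    linarith
  · have term : ∀ i' K, ∀ X ∈ Omega a (c - Pi.single K 1), (f (X + unit i K 1) -
        (if i' = i then f (X + unit i' K 1) else if h : ∃ K0, 1 ≤ (X + unit i' K 1) i' K0 then
          f (X + unit i' K 1 - unit i' h.choose 1 + unit i h.choose 1) else 0)) ^ 2 ≤
        ∑ K0, (f (X + unit i K 1) - f (sw 1 i i' K0 K (X + unit i K 1))) ^ 2 := by
      intro i' K X _
      by_cases hi : i' = i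
      · subst hi
        simp only [if_true, sub_self]
        rw [zero_pow two_ne_zero]; positivity
      · have hex : ∃ K0, 1 ≤ (X + unit i' K 1) i' K0 := ⟨K, by simp [unit]⟩
        rw [if_neg hi, dif_pos hex]
        have hs := hex.choose_spec
        generalize hex.choose = K0 at hs
        by_cases hK : K0 = K
        · subst hK
          rw [add_tsub_cancel_right, sub_self, zero_pow two_ne_zero]; positivity
        · have hs' : 1 ≤ X i' K0 := by simpa [unit, hK] using hs
          have hok : ok 1 i i' K0 K (X + unit i K 1) :=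
            ⟨Ne.symm hi, hK, by simp [unit], by simpa [unit, hi] using hs'⟩
          have e : X + unit i' K 1 - unit i' K0 1 + unit i K0 1 =
              sw 1 i i' K0 K (X + unit i K 1) := by
            funext x y
            have e1 := sw_apply hok x y
            have e2 := congrFun (congrFun (sub_add_unit hs) x) y
            simp only [Pi.add_apply, Pi.sub_apply] at e1 e2 ⊢
            omega
          rw [e]
          exact single_le_sum (f := fun K0 =>
            (f (X + unit i K 1) - f (sw 1 i i' K0 K (X + unit i K 1))) ^ 2)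
            (fun _ _ => sq_nonneg _) (mem_univ K0)
    calc _ ≤ ∑ i', ∑ K, ∑ X ∈ Omega a (c - Pi.single K 1),
          ∑ K0, (f (X + unit i K 1) - f (sw 1 i i' K0 K (X + unit i K 1))) ^ 2 :=
          sum_le_sum fun i' _ => sum_le_sum fun K _ => sum_le_sum (term i' K)
      _ ≤ ∑ i', ∑ K, ∑ Z ∈ Omega (a + Pi.single i 1) c,
          ∑ K0, (f Z - f (sw 1 i i' K0 K Z)) ^ 2 := by
          refine sum_le_sum fun i' _ => sum_le_sum fun K _ => ?_
          rcases (Omega a (c - Pi.single K 1)).eq_empty_or_nonempty with he | ⟨X, hX⟩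
          · rw [he, sum_empty]; positivity
          · have := shift_le a (c - Pi.single K 1) i K 1
              (fun Z => ∑ K0, (f Z - f (sw 1 i i' K0 K Z)) ^ 2) (fun _ => by positivity)
            rwa [sub_add_single (col_pos hb' hX)] at this
      _ = ∑ Z ∈ Omega (a + Pi.single i 1) c, ∑ i', ∑ K0, ∑ K, (f Z - f (sw 1 i i' K0 K Z)) ^ 2 := by
          rw [sum_comm (s := Omega (a + Pi.single i 1) c)]
          refine sum_congr rfl fun i' _ => ?_
          rw [sum_comm]
          exact sum_congr rfl fun Z _ => sum_comm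
      _ ≤ _ := sum_le_sum fun Z _ => single_le_sum (f := fun i => ∑ i', ∑ K0, ∑ K,
          (f Z - f (sw 1 i i' K0 K Z)) ^ 2) (fun _ _ => by positivity) (mem_univ i)

lemma unit_succ (i : Fin m) (J : Fin n) (k : ℕ) : unit i J 1 + unit i J k = unit i J (k + 1) := by
  funext x y
  simp only [Pi.add_apply, unit]
  split_ifs <;> omega

lemma single_succ {ι : Type*} [DecidableEq ι] (a : ι → ℕ) (i : ι) (k : ℕ) :
    a + Pi.single i 1 + Pi.single i k = a + Pi.single i (k + 1) := by
  rw [add_assoc, ← Pi.single_add, add_comm 1 k]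

lemma tele (hD : DualD) (i : Fin m) (J : Fin n) (k : ℕ) (a : Fin m → ℕ) (b : Fin n → ℕ)
    (hb : ∑ l, a l = ∑ j, b j) (f : (Fin m → Fin n → ℕ) → ℝ) (w : ℝ) (hw : 0 ≤ w)
    (hE : 2 * ∑ Y ∈ Omega (a + Pi.single i k) (b + Pi.single J k), en 1 f Y ≤
      w ^ 2 * (Omega a b).card) :
    |(∑ X ∈ Omega a b, f (X + unit i J k)) / (Omega a b).card -
      (∑ Y ∈ Omega (a + Pi.single i k) (b + Pi.single J k), f Y) /
        (Omega (a + Pi.single i k) (b + Pi.single J k)).card| ≤ k * w := by
  induction k generalizing a b with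
  | zero =>
    have : unit i J 0 = 0 := by funext x y; simp [unit]
    simp [this]
  | succ k ih =>
    have hb1 : ∑ l, (a + Pi.single i 1 : Fin m → ℕ) l = ∑ j, (b + Pi.single J 1 : Fin n → ℕ) j := by
      rw [sum_add_single, sum_add_single, hb]
    have h1 := ih (a + Pi.single i 1) (b + Pi.single J 1) hb1 (by
      rw [single_succ, single_succ]
      exact hE.trans (mul_le_mul_of_nonneg_left (card_shift_le a b i J 1) (sq_nonneg _)))
    rw [single_succ, single_succ] at h1
    have h2 := star hD a b hb i J (fun X => f (X + unit i J k))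
    simp only [add_assoc, unit_succ] at h2
    have h3 : ∑ Y ∈ Omega (a + Pi.single i 1) (b + Pi.single J 1),
        en 1 (fun X => f (X + unit i J k)) Y ≤
        ∑ Y ∈ Omega (a + Pi.single i (k + 1)) (b + Pi.single J (k + 1)), en 1 f Y := by
      rw [← single_succ a i k, ← single_succ b J k]
      exact (sum_le_sum fun Y _ => en_shift _ _ _ _).trans
        (shift_le _ _ i J k (en 1 f) (en_nonneg 1 f))
    have h4 := card_pos' hb
    have h5 : 2 / ((Omega a b).card : ℝ) * ∑ Y ∈ Omega (a + Pi.single i 1) (b + Pi.single J 1),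
        en 1 (fun X => f (X + unit i J k)) Y ≤ w ^ 2 := by
      rw [div_mul_eq_mul_div, div_le_iff₀ h4]; linarith
    have h6 := abs_le_of_sq_le_sq' (h2.trans h5) hw
    rw [abs_le] at h1 ⊢
    push_cast
    constructor <;> linarith [h1.1, h1.2, h6.1, h6.2]

lemma cond_mean (hD : DualD) (i : Fin m) (J : Fin n) (k : ℕ) (r : Fin m → ℕ) (c : Fin n → ℕ)
    (f : (Fin m → Fin n → ℕ) → ℝ) :
    (((Omega r c).filter (fun X => k ≤ X i J)).card : ℝ) *
      ((∑ X ∈ (Omega r c).filter (fun X => k ≤ X i J), f X) /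
        ((Omega r c).filter (fun X => k ≤ X i J)).card -
      (∑ Y ∈ Omega r c, f Y) / (Omega r c).card) ^ 2 ≤ 2 * (r i) ^ 2 * ∑ Y ∈ Omega r c, en 1 f Y := by
  have hE : 0 ≤ ∑ Y ∈ Omega r c, en 1 f Y := sum_nonneg fun Y _ => en_nonneg _ _ _
  rcases ((Omega r c).filter (fun X => k ≤ X i J)).eq_empty_or_nonempty with he | ⟨X, hX⟩
  · rw [he, card_empty, Nat.cast_zero, zero_mul]; positivity
  rw [mem_filter] at hX
  have h1 : k ≤ r i := hX.2.trans (le_row hX.1 i J)
  have h2 : k ≤ c J := hX.2.trans (le_col hX.1 i J)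
  have hb := bal_of_mem hX.1
  obtain ⟨a, rfl⟩ : ∃ a : Fin m → ℕ, r = a + Pi.single i k := ⟨_, (sub_add_single h1).symm⟩
  obtain ⟨b, rfl⟩ : ∃ b : Fin n → ℕ, c = b + Pi.single J k := ⟨_, (sub_add_single h2).symm⟩
  rw [sum_add_single, sum_add_single, add_left_inj] at hb
  rw [shift_sum, shift_card]
  have h4 := card_pos' hb
  set E := ∑ Y ∈ Omega (a + Pi.single i k) (b + Pi.single J k), en 1 f Y
  have h5 : Real.sqrt (2 * E / (Omega a b).card) ^ 2 = 2 * E / (Omega a b).card :=
    Real.sq_sqrt (by positivity)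
  have h := tele hD i J k a b hb f (Real.sqrt (2 * E / (Omega a b).card)) (Real.sqrt_nonneg _)
    (by rw [h5, div_mul_cancel₀ _ h4.ne'])
  have h6 := pow_le_pow_left₀ (abs_nonneg _) h 2
  rw [sq_abs, mul_pow, h5] at h6
  have h7 : (k : ℝ) ≤ (a + Pi.single i k : Fin m → ℕ) i := by exact_mod_cast h1
  calc _ ≤ ((Omega a b).card : ℝ) * ((k : ℝ) ^ 2 * (2 * E / (Omega a b).card)) := by gcongr
    _ = 2 * (k : ℝ) ^ 2 * E := by field_simp
    _ ≤ _ := by gcongr

lemma card_move (a : Fin m → ℕ) (b : Fin n → ℕ) (hb : ∑ l, a l = ∑ j, b j) (l : Fin m)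
    (J K : Fin n) :
    (Omega a (b + Pi.single J 1 - Pi.single K 1)).card ≤ m * (Omega a b).card := by
  by_cases hK : K = J
  · subst hK
    rw [add_tsub_cancel_right]
    exact Nat.le_mul_of_pos_left _ l.pos
  have hb' : ∑ l, a l + 1 = ∑ j, (b + Pi.single J 1 : Fin n → ℕ) j := by rw [sum_add_single, hb]
  have hsub : Omega a (b + Pi.single J 1 - Pi.single K 1) ⊆ univ.biUnion fun i' : Fin m =>
      (Omega a b).image fun Y => Y + unit i' J 1 - unit i' K 1 := by
    intro X hX
    have h1 := col_pos hb' hX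
    have h2 : ∃ i', 1 ≤ X i' J := by
      by_contra h
      push Not at h
      have h3 := (mem_Om.1 hX).2 J
      rw [sum_eq_zero fun i' _ => by have := h i'; omega] at h3
      simp [Pi.single_apply, Ne.symm hK] at h3
    obtain ⟨i', hi'⟩ := h2
    have h4 := (add_unit_mem i' K 1).2 hX
    rw [sub_add_single h1] at h4
    have h5 : 1 ≤ (X + unit i' K 1) i' J := le_add_right hi'
    rw [← sub_add_unit h5, add_unit_mem] at h4
    refine mem_biUnion.2 ⟨i', mem_univ _, mem_image.2 ⟨_, h4, ?_⟩⟩
    rw [sub_add_unit h5, add_tsub_cancel_right]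
  refine (card_le_card hsub).trans (card_biUnion_le.trans ?_)
  refine (sum_le_card_nsmul _ _ _ fun i' _ => card_image_le).trans ?_
  simp

lemma lip (hD : DualD) (a : Fin m → ℕ) (b : Fin n → ℕ) (hb : ∑ l, a l = ∑ j, b j) (i l : Fin m)
    (J0 J : Fin n) (F : ℕ → ℝ) (hF : ∀ x, |F (x + 1) - F x| ≤ 1) :
    |(∑ X ∈ Omega a b, F (X i J0)) / (Omega a b).card -
      (∑ Y ∈ Omega (a + Pi.single l 1) (b + Pi.single J 1), F (Y i J0)) /
        (Omega (a + Pi.single l 1) (b + Pi.single J 1)).card| ≤ m + 1 := by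
  have hb' : ∑ l, a l + 1 = ∑ j, (b + Pi.single J 1 : Fin n → ℕ) j := by rw [sum_add_single, hb]
  have h := hD m n a (b + Pi.single J 1) hb' J l (by simp) (fun _ X => F (X i J0))
    (fun _ Y => F (Y i J0))
  simp only [add_tsub_cancel_right] at h
  have hm := card_move a b hb l J J0
  set c := b + Pi.single J 1 with hc
  have h1 : ∑ i' : Fin m, ∑ K : Fin n, ∑ X ∈ Omega a (c - Pi.single K 1),
      (F (X i J0) - F ((X + unit i' K 1) i J0)) ^ 2 ≤ (Omega a (c - Pi.single J0 1)).card := by
    rw [sum_eq_single i, sum_eq_single J0]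
    · refine (sum_le_card_nsmul _ _ 1 fun X _ => ?_).trans (by simp)
      have := hF (X i J0)
      rw [abs_sub_comm, ← sq_le_one_iff_abs_le_one] at this
      simpa [unit] using this
    · intro K _ hK
      simp [unit, Ne.symm hK]
    · simp
    · intro i' _ hi
      simp [unit, Ne.symm hi]
    · simp
  have h2 : ((Omega a (c - Pi.single J0 1)).card : ℝ) ≤ (Omega (a + Pi.single l 1) c).card := by
    rcases (Omega a (c - Pi.single J0 1)).eq_empty_or_nonempty with he | ⟨X, hX⟩
    · rw [he]; simp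
    · have := card_shift_le a (c - Pi.single J0 1) l J0 1
      rwa [sub_add_single (col_pos hb' hX)] at this
  have h3 : ((Omega a (c - Pi.single J0 1)).card : ℝ) ≤ m * (Omega a b).card := by
    exact_mod_cast hm
  have h4 := card_pos' hb
  have h5 : (0 : ℝ) < (Omega (a + Pi.single l 1) c).card :=
    h4.trans_le (card_shift_le a b l J 1)
  have h6 : (1 / ((Omega a b).card : ℝ) + 1 / ((Omega (a + Pi.single l 1) c).card : ℝ)) *
      ((Omega a (c - Pi.single J0 1)).card : ℝ) ≤ m + 1 := by
    rw [add_mul, one_div_mul_eq_div, one_div_mul_eq_div]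
    exact add_le_add ((div_le_iff₀ h4).2 h3) ((div_le_one h5).2 h2)
  have h7 := h.trans ((mul_le_mul_of_nonneg_left h1 (by positivity)).trans h6)
  refine abs_le.2 (abs_le_of_sq_le_sq' (h7.trans ?_) (by positivity))
  have : (0 : ℝ) ≤ m := by positivity
  nlinarith

lemma lip_chain (hD : DualD) (i : Fin m) (J0 : Fin n) (F : ℕ → ℝ) (hF : ∀ x, |F (x + 1) - F x| ≤ 1)
    (A : Fin m → ℕ) (B : Fin n → ℕ) (hB : ∑ l, A l = ∑ j, B j) (d : ℕ) (a : Fin m → ℕ)
    (b : Fin n → ℕ) (hb : ∑ l, a l = ∑ j, b j) (ha : ∀ l, a l ≤ A l) (hb2 : ∀ j, b j ≤ B j)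
    (hd : ∑ l, a l + d = ∑ l, A l) :
    |(∑ X ∈ Omega a b, F (X i J0)) / (Omega a b).card -
      (∑ Y ∈ Omega A B, F (Y i J0)) / (Omega A B).card| ≤ (m + 1) * d := by
  induction d generalizing a b with
  | zero =>
    have h1 : a = A := funext fun l =>
      (sum_eq_sum_iff_of_le fun l _ => ha l).1 (by simpa using hd) l (mem_univ _)
    have h2 : b = B := funext fun l =>
      (sum_eq_sum_iff_of_le fun l _ => hb2 l).1 (by omega) l (mem_univ _)
    simp [h1, h2]
  | succ d ih =>
    obtain ⟨l, -, hl⟩ := exists_lt_of_sum_lt (s := univ) (f := a) (g := A) (by omega)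
    obtain ⟨J, -, hJ⟩ := exists_lt_of_sum_lt (s := univ) (f := b) (g := B) (by omega)
    have h1 := lip hD a b hb i l J0 J F hF
    have h2 := ih (a + Pi.single l 1) (b + Pi.single J 1)
      (by rw [sum_add_single, sum_add_single, hb])
      (fun x => by
        simp only [Pi.add_apply, Pi.single_apply]
        split_ifs with h
        · subst h; omega
        · simpa using ha x)
      (fun x => by
        simp only [Pi.add_apply, Pi.single_apply]
        split_ifs with h
        · subst h; omega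
        · simpa using hb2 x)
      (by rw [sum_add_single]; omega)
    rw [abs_le] at h1 h2 ⊢
    push_cast
    constructor <;> linarith [h1.1, h1.2, h2.1, h2.2]

end Vale.Agent.P328.Pc
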