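import Vale.Agent.P328.PoinB

/-! Passing to scale `h`. -/

namespace Vale.Agent.P328.Pc

open Finset Mx

variable {m n : ℕ}

lemma numeric {ι : Type*} (R : Finset ι) (a N s G : ι → ℝ) (ha : ∀ x ∈ R, 0 ≤ a x)
    (hN : ∀ x ∈ R, 0 < N x) (hs : ∀ x ∈ R, s x = a x * (s x / a x))
    (hG : ∑ x ∈ R, N x * G x = 0) :
    (∑ x ∈ R, s x) ^ 2 / (∑ x ∈ R, a x) ≤ 2 * ∑ x ∈ R, a x * (s x / a x - G x) ^ 2 +
      4 * ∑ x ∈ R, N x * |a x / N x - (∑ x ∈ R, a x) / ∑ x ∈ R, N x| * G x ^ 2 := by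
  set A := ∑ x ∈ R, a x with hA
  set M := ∑ x ∈ R, N x with hM
  have hA0 : 0 ≤ A := sum_nonneg ha
  have hM0 : 0 ≤ M := sum_nonneg fun x hx => (hN x hx).le
  have p1 : 0 ≤ ∑ x ∈ R, a x * (s x / a x - G x) ^ 2 :=
    sum_nonneg fun x hx => mul_nonneg (ha x hx) (sq_nonneg _)
  have p2 : 0 ≤ ∑ x ∈ R, N x * |a x / N x - A / M| * G x ^ 2 :=
    sum_nonneg fun x hx => mul_nonneg (mul_nonneg (hN x hx).le (abs_nonneg _)) (sq_nonneg _)
  rcases hA0.eq_or_lt with h0 | h0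
  · rw [← h0, div_zero]; rw [← h0] at p2; positivity
  have e : ∑ x ∈ R, s x = ∑ x ∈ R, a x * (s x / a x - G x) +
      ∑ x ∈ R, N x * (a x / N x - A / M) * G x := by
    have : ∑ x ∈ R, N x * (a x / N x - A / M) * G x =
        ∑ x ∈ R, a x * G x - A / M * ∑ x ∈ R, N x * G x := by
      rw [mul_sum, ← sum_sub_distrib]
      refine sum_congr rfl fun x hx => ?_
      have := (hN x hx).ne'
      field_simp
    rw [this, hG, mul_zero, sub_zero, ← sum_add_distrib]
    refine sum_congr rfl fun x hx => ?_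
    linarith [hs x hx]
  have c1 : (∑ x ∈ R, a x * (s x / a x - G x)) ^ 2 ≤ A * ∑ x ∈ R, a x * (s x / a x - G x) ^ 2 :=
    sum_sq_le_sum_mul_sum_of_sq_eq_mul R ha (fun x hx => mul_nonneg (ha x hx) (sq_nonneg _))
      fun x _ => by ring
  have c2 : (∑ x ∈ R, N x * (a x / N x - A / M) * G x) ^ 2 ≤
      (∑ x ∈ R, N x * |a x / N x - A / M|) * ∑ x ∈ R, N x * |a x / N x - A / M| * G x ^ 2 :=
    sum_sq_le_sum_mul_sum_of_sq_eq_mul R (fun x hx => mul_nonneg (hN x hx).le (abs_nonneg _))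
      (fun x hx => mul_nonneg (mul_nonneg (hN x hx).le (abs_nonneg _)) (sq_nonneg _))
      fun x _ => by
        have := sq_abs (a x / N x - A / M)
        calc _ = N x ^ 2 * (a x / N x - A / M) ^ 2 * G x ^ 2 := by ring
          _ = _ := by rw [← this]; ring
  have c3 : ∑ x ∈ R, N x * |a x / N x - A / M| ≤ 2 * A := by
    have h1 : ∑ x ∈ R, N x * |a x / N x - A / M| ≤ ∑ x ∈ R, (a x + A / M * N x) := by
      refine sum_le_sum fun x hx => ?_
      have h2 := hN x hx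
      have h3 : |a x / N x - A / M| ≤ a x / N x + A / M := by
        have h4 : 0 ≤ a x / N x := div_nonneg (ha x hx) h2.le
        have h5 : 0 ≤ A / M := div_nonneg hA0 hM0
        rw [abs_le]; constructor <;> linarith
      calc _ ≤ N x * (a x / N x + A / M) := by gcongr
        _ = _ := by field_simp
    rw [sum_add_distrib, ← mul_sum] at h1
    have h6 : A / M * M ≤ A := by
      rcases hM0.eq_or_lt with h7 | h7
      · rw [← h7, mul_zero]; exact hA0
      · rw [div_mul_cancel₀ _ h7.ne']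
    linarith
  rw [div_le_iff₀ h0, e]
  have c4 := c2.trans (mul_le_mul_of_nonneg_right c3 p2)
  nlinarith [sq_nonneg (∑ x ∈ R, a x * (s x / a x - G x) -
    ∑ x ∈ R, N x * (a x / N x - A / M) * G x)]

lemma abstract {T ι : Type*} [DecidableEq T] (Ω : Finset T) (cl : T → T) (g e : T → ℝ)
    (hg : ∑ X ∈ Ω, g X = 0) (I : Finset ι) (p : ι → T → Prop) [∀ k, DecidablePred (p k)]
    (c1 W : ℝ) (hW : 0 ≤ W)
    (H1 : ∀ k ∈ I, ∀ ρ ∈ Ω.image cl, (((Ω.filter (cl · = ρ)).filter (p k)).card : ℝ) *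
      ((∑ X ∈ (Ω.filter (cl · = ρ)).filter (p k), g X) / ((Ω.filter (cl · = ρ)).filter (p k)).card -
        (∑ X ∈ Ω.filter (cl · = ρ), g X) / (Ω.filter (cl · = ρ)).card) ^ 2 ≤
        c1 * ∑ X ∈ Ω.filter (cl · = ρ), e X)
    (H2 : ∀ ρ ∈ Ω.image cl, ∑ k ∈ I, |(((Ω.filter (cl · = ρ)).filter (p k)).card : ℝ) /
      (Ω.filter (cl · = ρ)).card - ((Ω.filter (p k)).card : ℝ) / Ω.card| ≤ W) :
    ∑ k ∈ I, (∑ X ∈ Ω.filter (p k), g X) ^ 2 / (Ω.filter (p k)).card ≤
      2 * I.card * c1 * ∑ X ∈ Ω, e X + 4 * W * ∑ X ∈ Ω, g X ^ 2 := by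
  have fib : ∀ u : T → ℝ, ∑ ρ ∈ Ω.image cl, ∑ X ∈ Ω.filter (cl · = ρ), u X = ∑ X ∈ Ω, u X :=
    fun u => sum_fiberwise_of_maps_to (fun X hX => mem_image_of_mem cl hX) u
  have fib2 : ∀ k, ∀ u : T → ℝ, ∑ ρ ∈ Ω.image cl, ∑ X ∈ (Ω.filter (cl · = ρ)).filter (p k), u X =
      ∑ X ∈ Ω.filter (p k), u X := by
    intro k u
    simp only [sum_filter (p := p k)]
    exact fib _
  have hN : ∀ ρ ∈ Ω.image cl, (0 : ℝ) < (Ω.filter (cl · = ρ)).card := by
    intro ρ hρ
    obtain ⟨X, hX, rfl⟩ := mem_image.1 hρ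
    exact Nat.cast_pos.2 (card_pos.2 ⟨X, mem_filter.2 ⟨hX, rfl⟩⟩)
  have step : ∀ k ∈ I, (∑ X ∈ Ω.filter (p k), g X) ^ 2 / (Ω.filter (p k)).card ≤
      2 * (c1 * ∑ X ∈ Ω, e X) + 4 * ∑ ρ ∈ Ω.image cl, (Ω.filter (cl · = ρ)).card *
        |(((Ω.filter (cl · = ρ)).filter (p k)).card : ℝ) /
          (Ω.filter (cl · = ρ)).card - ((Ω.filter (p k)).card : ℝ) / Ω.card| *
        ((∑ X ∈ Ω.filter (cl · = ρ), g X) / (Ω.filter (cl · = ρ)).card) ^ 2 := by
    intro k hk
    have h := numeric (Ω.image cl) (fun ρ => (((Ω.filter (cl · = ρ)).filter (p k)).card : ℝ))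
      (fun ρ => ((Ω.filter (cl · = ρ)).card : ℝ))
      (fun ρ => ∑ X ∈ (Ω.filter (cl · = ρ)).filter (p k), g X)
      (fun ρ => (∑ X ∈ Ω.filter (cl · = ρ), g X) / (Ω.filter (cl · = ρ)).card)
      (fun _ _ => Nat.cast_nonneg _) hN (fun ρ _ => by
        rcases ((Ω.filter (cl · = ρ)).filter (p k)).eq_empty_or_nonempty with he | he
        · simp [he]
        · have : (0 : ℝ) < ((Ω.filter (cl · = ρ)).filter (p k)).card := by
            exact_mod_cast card_pos.2 he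
          field_simp) (by
        rw [← hg, ← fib g]
        exact sum_congr rfl fun ρ hρ => mul_div_cancel₀ _ (hN ρ hρ).ne')
    have e1 := fib2 k (fun _ => 1)
    have e2 := fib (fun _ => 1)
    simp only [sum_const, nsmul_eq_mul, mul_one] at e1 e2
    rw [fib2, e1, e2] at h
    refine h.trans (add_le_add_left ?_ _)
    rw [← fib e, mul_sum _ _ c1]
    exact mul_le_mul_of_nonneg_left (sum_le_sum (H1 k hk)) zero_le_two
  refine (sum_le_sum step).trans ?_
  rw [sum_add_distrib, sum_const, nsmul_eq_mul, ← mul_sum, sum_comm]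
  have last : ∑ ρ ∈ Ω.image cl, ∑ k ∈ I, (Ω.filter (cl · = ρ)).card *
        |(((Ω.filter (cl · = ρ)).filter (p k)).card : ℝ) /
          (Ω.filter (cl · = ρ)).card - ((Ω.filter (p k)).card : ℝ) / Ω.card| *
        ((∑ X ∈ Ω.filter (cl · = ρ), g X) / (Ω.filter (cl · = ρ)).card) ^ 2 ≤
      W * ∑ X ∈ Ω, g X ^ 2 := by
    rw [← fib (fun X => g X ^ 2), mul_sum]
    refine sum_le_sum fun ρ hρ => ?_
    rw [← sum_mul, ← mul_sum]
    have h1 := hN ρ hρ
    have h2 := sq_sum_le_card_mul_sum_sq (s := Ω.filter (cl · = ρ)) (f := g)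
    calc _ ≤ (Ω.filter (cl · = ρ)).card * W *
          ((∑ X ∈ Ω.filter (cl · = ρ), g X) / (Ω.filter (cl · = ρ)).card) ^ 2 := by
          gcongr; exact H2 ρ hρ
      _ = W * ((∑ X ∈ Ω.filter (cl · = ρ), g X) ^ 2 / (Ω.filter (cl · = ρ)).card) := by
          field_simp
      _ ≤ _ := by
          gcongr
          rw [div_le_iff₀ h1]; linarith
  linarith

lemma lip_ext {F : ℕ → ℝ} (hF : ∀ x, |F (x + 1) - F x| ≤ 1) (x t : ℕ) : |F (x + t) - F x| ≤ t := by
  induction t with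
  | zero => simp
  | succ t ih =>
    have := hF (x + t)
    rw [abs_le] at this ih ⊢
    push_cast
    rw [← add_assoc]
    constructor <;> linarith [this.1, this.2, ih.1, ih.2]

lemma abs_mean_le {T : Type*} (S : Finset T) (u : T → ℝ) (w : ℝ) (hw : 0 ≤ w)
    (h : ∀ X ∈ S, |u X| ≤ w) : |(∑ X ∈ S, u X) / S.card| ≤ w := by
  rw [abs_div, Nat.abs_cast]
  refine div_le_of_le_mul₀ (Nat.cast_nonneg _) hw ?_
  refine (abs_sum_le_sum_abs _ _).trans ((sum_le_card_nsmul _ _ _ h).trans ?_)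
  rw [nsmul_eq_mul, mul_comm]

lemma class_lip (hD : DualD) (r : Fin m → ℕ) (c : Fin n → ℕ) (i : Fin m) (J : Fin n) {h : ℕ}
    (hh : 0 < h) (F : ℕ → ℝ) (hF : ∀ x, |F (x + 1) - F x| ≤ 1) :
    ∃ R : ℝ, ∀ ρ ∈ (Omega r c).image (cls h),
      |(∑ X ∈ (Omega r c).filter (cls h · = ρ), F (X i J)) /
        ((Omega r c).filter (cls h · = ρ)).card - R| ≤ (h - 1) * (1 + (m + 1) * (m * n)) := by
  set A : Fin m → ℕ := (fun l => r l / h) + Pi.single i (∑ j, c j / h - ∑ l, r l / h) with hA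
  set B : Fin n → ℕ := (fun j => c j / h) + Pi.single J (∑ l, r l / h - ∑ j, c j / h) with hB
  have hAs : ∑ l, A l = ∑ l, r l / h + (∑ j, c j / h - ∑ l, r l / h) := sum_add_single _ _ _
  have hBs : ∑ j, B j = ∑ j, c j / h + (∑ l, r l / h - ∑ j, c j / h) := sum_add_single _ _ _
  refine ⟨h * ((∑ Y ∈ Omega A B, F (h * Y i J) / h) / (Omega A B).card), fun ρ hρ => ?_⟩
  obtain ⟨X0, hX0, rfl⟩ := mem_image.1 hρ
  obtain ⟨a, b, hab, hr, hc⟩ := cls_margins h hX0
  have hρ : ∀ x y, cls h X0 x y < h := fun x y => Nat.mod_lt _ hh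
  have e1 := cls_sum hh hρ hr hc (fun X => F (X i J))
  have e2 := cls_sum hh hρ hr hc (fun X => 1)
  simp only [sum_const, nsmul_eq_mul, mul_one] at e2
  rw [e1, e2]
  have hh' : (0 : ℝ) < h := by exact_mod_cast hh
  have ha : ∀ l, a l ≤ A l := fun l =>
    le_add_right ((Nat.le_div_iff_mul_le hh).2 (by rw [hr l, mul_comm]; omega))
  have hb : ∀ j, b j ≤ B j := fun j =>
    le_add_right ((Nat.le_div_iff_mul_le hh).2 (by rw [hc j, mul_comm]; omega))
  obtain ⟨d, hd⟩ := Nat.exists_eq_add_of_le (sum_le_sum fun l (_ : l ∈ univ) => ha l)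
  have h1 := lip_chain hD i J (fun y => F (h * y) / h) (fun y => by
    rw [← sub_div, abs_div, abs_of_pos hh', div_le_one hh', mul_add, mul_one]
    exact lip_ext hF _ _) A B (by omega) d a b hab ha hb hd.symm
  have h2 : h * d ≤ m * n * (h - 1) := by
    have b1 : h * ∑ l, r l / h ≤ ∑ l, r l := by
      rw [mul_sum]; exact sum_le_sum fun l _ => Nat.mul_div_le _ _
    have b2 : h * ∑ l, c l / h ≤ ∑ l, c l := by
      rw [mul_sum]; exact sum_le_sum fun l _ => Nat.mul_div_le _ _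
    have b3 := bal_of_mem hX0
    have b4 : ∑ l, r l = ∑ l, ∑ j, cls h X0 l j + h * ∑ l, a l := by
      rw [mul_sum, ← sum_add_distrib]; exact sum_congr rfl fun l _ => hr l
    have b5 : ∑ l, ∑ j, cls h X0 l j ≤ m * n * (h - 1) := by
      refine (sum_le_card_nsmul _ _ (n * (h - 1)) fun l _ => ?_).trans (by simp [mul_assoc])
      refine (sum_le_card_nsmul _ _ (h - 1) fun j _ => ?_).trans (by simp)
      have := hρ l j; omega
    have b6 : h * ∑ l, A l ≤ ∑ l, r l := by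
      rcases le_total (∑ j, c j / h) (∑ l, r l / h) with h3 | h3
      · rw [hAs, Nat.sub_eq_zero_of_le h3, add_zero]; exact b1
      · rw [hAs, Nat.add_sub_cancel' h3, b3]; exact b2
    rw [hd, mul_add] at b6
    omega
  have h2' : (h : ℝ) * d ≤ m * n * (h - 1) := by
    have : ((h - 1 : ℕ) : ℝ) = h - 1 := by rw [Nat.cast_sub hh]; simp
    rw [← this]; exact_mod_cast h2
  have h1' : (1 : ℝ) ≤ h := by exact_mod_cast hh
  have h3 := abs_mean_le (Omega a b) (fun Y => F (aff (cls h X0) h Y i J) - F (h * Y i J)) (h - 1)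
    (by linarith) (fun Y _ => by
      have h4 := lip_ext hF (h * Y i J) (cls h X0 i J)
      have h5 : ((cls h X0 i J + 1 : ℕ) : ℝ) ≤ h := by exact_mod_cast hρ i J
      push_cast at h5
      simp only [aff]
      rw [add_comm] at h4
      linarith)
  rw [sum_sub_distrib, sub_div] at h3
  have h4 : (∑ Y ∈ Omega a b, F (h * Y i J)) / (Omega a b).card =
      h * ((∑ Y ∈ Omega a b, F (h * Y i J) / h) / (Omega a b).card) := by
    rw [← sum_div]; field_simp
  rw [h4] at h3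
  have h5 := mul_le_mul_of_nonneg_left h1 hh'.le
  rw [← abs_of_pos hh', ← abs_mul, abs_of_pos hh', mul_sub] at h5
  have h6 : (h : ℝ) * ((m + 1) * d) ≤ (h - 1) * ((m + 1) * (m * n)) := by
    have : (0 : ℝ) ≤ m + 1 := by positivity
    nlinarith
  rw [abs_le] at h3 h5 ⊢
  constructor <;> nlinarith [h3.1, h3.2, h5.1, h5.2]

lemma filter_cls {r a : Fin m → ℕ} {c b : Fin n → ℕ} {h : ℕ} (hh : 0 < h) {ρ : Fin m → Fin n → ℕ}
    (hρ : ∀ x y, ρ x y < h) (hr : ∀ l, r l = ∑ j, ρ l j + h * a l)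
    (hc : ∀ j, c j = ∑ l, ρ l j + h * b j) (i : Fin m) (J : Fin n) (k : ℕ) :
    ∃ κ, ∀ g : (Fin m → Fin n → ℕ) → ℝ,
      ∑ X ∈ ((Omega r c).filter (fun X => cls h X = ρ)).filter (fun X => k ≤ X i J), g X =
        ∑ Y ∈ (Omega a b).filter (fun Y => κ ≤ Y i J), g (aff ρ h Y) := by
  have hex : ∃ y, k ≤ ρ i J + h * y := ⟨k, le_add_left (Nat.le_mul_of_pos_left _ hh)⟩
  refine ⟨Nat.find hex, fun g => ?_⟩
  rw [sum_filter (p := fun X : Fin m → Fin n → ℕ => k ≤ X i J), cls_sum hh hρ hr hc, sum_filter]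
  refine sum_congr rfl fun Y _ => if_congr ⟨fun h1 => Nat.find_min' hex h1, fun h1 => ?_⟩ rfl rfl
  have h2 := Nat.find_spec hex
  have h3 := Nat.mul_le_mul_left h h1
  simp only [aff]
  omega

lemma scale (hD : DualD) (r : Fin m → ℕ) (c : Fin n → ℕ) (i : Fin m) (J : Fin n) {h : ℕ}
    (hh : 0 < h) (M : ℕ) (hM : r i ≤ h * M) (g : (Fin m → Fin n → ℕ) → ℝ)
    (hg : ∑ X ∈ Omega r c, g X = 0) :
    ∑ k ∈ Icc 1 (r i), (∑ X ∈ (Omega r c).filter (fun X => k ≤ X i J), g X) ^ 2 /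
      ((Omega r c).filter (fun X => k ≤ X i J)).card ≤
      4 * r i * M ^ 2 * ∑ X ∈ Omega r c, en h g X +
        8 * ((h - 1) * (1 + (m + 1) * (m * n))) * ∑ X ∈ Omega r c, g X ^ 2 := by
  have h1' : (1 : ℝ) ≤ h := by exact_mod_cast hh
  have hW : (0 : ℝ) ≤ (h - 1) * (1 + (m + 1) * (m * n)) := mul_nonneg (by linarith) (by positivity)
  have := abstract (Omega r c) (cls h) g (en h g) hg (Icc 1 (r i)) (fun k X => k ≤ X i J)
    (2 * M ^ 2) (2 * ((h - 1) * (1 + (m + 1) * (m * n)))) (by positivity) ?_ ?_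
  · refine this.trans (le_of_eq ?_)
    simp only [Nat.card_Icc, add_tsub_cancel_right]
    ring
  · intro k _ ρ hρ
    obtain ⟨X0, hX0, rfl⟩ := mem_image.1 hρ
    obtain ⟨a, b, hab, hr, hc⟩ := cls_margins h hX0
    have hρ : ∀ x y, cls h X0 x y < h := fun x y => Nat.mod_lt _ hh
    obtain ⟨κ, hκ⟩ := filter_cls hh hρ hr hc i J k
    have e1 := hκ (fun _ => 1)
    have e2 := cls_sum hh hρ hr hc (fun X => 1)
    simp only [sum_const, nsmul_eq_mul, mul_one] at e1 e2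
    rw [hκ, e1, e2, cls_sum hh hρ hr hc, cls_sum hh hρ hr hc]
    refine (cond_mean hD i J κ a b (fun Y => g (aff (cls h X0) h Y))).trans ?_
    have h2 : a i ≤ M := by
      refine Nat.le_of_mul_le_mul_left ?_ hh
      have := hr i; omega
    have h2' : (a i : ℝ) ≤ M := by exact_mod_cast h2
    refine mul_le_mul (by gcongr) (sum_le_sum fun Y _ => ?_)
      (sum_nonneg fun Y _ => en_nonneg _ _ _) (by positivity)
    simpa using en_aff (cls h X0) h 1 g Y
  · intro ρ hρ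
    set d : ℕ → ℝ := fun k =>
      ((((Omega r c).filter (cls h · = ρ)).filter (fun X => k ≤ X i J)).card : ℝ) /
      ((Omega r c).filter (cls h · = ρ)).card -
        (((Omega r c).filter (fun X => k ≤ X i J)).card : ℝ) / (Omega r c).card with hd
    set s : ℕ → ℝ := fun k => if 0 ≤ d k then 1 else -1 with hs
    set F : ℕ → ℝ := fun x => ∑ k ∈ Icc 1 (r i), s k * if k ≤ x then 1 else 0 with hF
    have hF1 : ∀ x, |F (x + 1) - F x| ≤ 1 := by
      intro x
      simp only [hF, ← sum_sub_distrib]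
      have : ∀ k ∈ Icc 1 (r i), ((s k * if k ≤ x + 1 then 1 else 0) - s k * if k ≤ x then 1 else 0)
          = if k = x + 1 then s k else 0 := by
        intro k _
        split_ifs <;> first | omega | simp
      rw [sum_congr rfl this, sum_ite_eq']
      split_ifs
      · simp only [hs]; split_ifs <;> simp
      · simp
    have hS : ∀ S : Finset (Fin m → Fin n → ℕ), (∑ X ∈ S, F (X i J)) / S.card =
        ∑ k ∈ Icc 1 (r i), s k * (((S.filter (fun X => k ≤ X i J)).card : ℝ) / S.card) := by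
      intro S
      simp only [hF]
      rw [sum_comm, sum_div]
      refine sum_congr rfl fun k _ => ?_
      rw [← mul_sum, sum_boole, mul_div_assoc]
    obtain ⟨R, hR⟩ := class_lip hD r c i J hh F hF1
    have h2 := hR ρ hρ
    have h3 : |(∑ X ∈ Omega r c, F (X i J)) / (Omega r c).card - R| ≤
        (h - 1) * (1 + (m + 1) * (m * n)) := by
      obtain ⟨X0, hX0, -⟩ := mem_image.1 hρ
      have h4 := card_pos' (bal_of_mem hX0)
      have fib : ∀ u : (Fin m → Fin n → ℕ) → ℝ, ∑ ρ ∈ (Omega r c).image (cls h),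
          ∑ X ∈ (Omega r c).filter (cls h · = ρ), u X = ∑ X ∈ Omega r c, u X :=
        fun u => sum_fiberwise_of_maps_to (fun X hX => mem_image_of_mem (cls h) hX) u
      have e2 := fib (fun _ => 1)
      simp only [sum_const, nsmul_eq_mul, mul_one] at e2
      rw [div_sub' h4.ne', abs_div, abs_of_pos h4, div_le_iff₀ h4, ← fib, ← e2, sum_mul,
        ← sum_sub_distrib, mul_sum]
      refine (abs_sum_le_sum_abs _ _).trans (sum_le_sum fun ρ' hρ' => ?_)
      have h5 := hR ρ' hρ'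
      obtain ⟨X1, hX1, rfl⟩ := mem_image.1 hρ'
      have h6 : (0 : ℝ) < ((Omega r c).filter (cls h · = cls h X1)).card :=
        Nat.cast_pos.2 (card_pos.2 ⟨X1, mem_filter.2 ⟨hX1, rfl⟩⟩)
      rwa [div_sub' h6.ne', abs_div, abs_of_pos h6, div_le_iff₀ h6] at h5
    have h7 : ∑ k ∈ Icc 1 (r i), |d k| =
        (∑ X ∈ (Omega r c).filter (cls h · = ρ), F (X i J)) /
          ((Omega r c).filter (cls h · = ρ)).card -
        (∑ X ∈ Omega r c, F (X i J)) / (Omega r c).card := by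
      rw [hS, hS, ← sum_sub_distrib]
      refine sum_congr rfl fun k _ => ?_
      rw [← mul_sub]
      change _ = s k * d k
      simp only [hs]
      split_ifs with h8
      · rw [abs_of_nonneg h8, one_mul]
      · rw [abs_of_neg (not_le.1 h8)]; ring
    change ∑ k ∈ Icc 1 (r i), |d k| ≤ _
    rw [h7]
    rw [abs_le] at h2 h3
    linarith [h2.2, h3.1]

end Vale.Agent.P328.Pc
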