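import Vale.Agent.P328.Loc2

/-! Peeling a row: the two averaging steps. -/

namespace Vale.Agent.P328

open Finset

variable {m d : ℕ}

lemma exists_min2 {α β : Type*} [Fintype β] (A : Finset α) (k : α → ℝ) (w : α → β → ℝ)
    (hk : ∀ a, 0 ≤ k a) (hw : ∀ a j, 0 ≤ w a j) (S : (α → β → ℝ) → Prop)
    (hS : ∀ (c : ℝ) x y z, S x → S y → S z → S (fun a j => c * (x a j - y a j) + z a j))
    (x₀ : α → β → ℝ) (h₀ : S x₀) :
    ∃ x, S x ∧ ∀ y, S y → ∑ a ∈ A, k a * ∑ j, w a j * x a j ^ 2 ≤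
      ∑ a ∈ A, k a * ∑ j, w a j * y a j ^ 2 := by
  obtain ⟨x, hx, hm⟩ := exists_min (A ×ˢ (univ : Finset β)) (fun p => k p.1 * w p.1 p.2)
    (fun p => mul_nonneg (hk _) (hw _ _)) (fun x => S (fun a j => x (a, j)))
    (fun c x y z => hS c _ _ _) (fun p => x₀ p.1 p.2) h₀
  refine ⟨_, hx, fun y hy => ?_⟩
  have := hm (fun p => y p.1 p.2) hy
  simpa only [sum_product, mul_sum, mul_assoc] using this

lemma sum_Lev_shift (j : Fin m) (σ : ℤ) (F : V m → ℝ) (hF : ∀ ν, F ν ≠ 0 → 0 ≤ ν) :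
    ∑ ν ∈ Lev m (σ + 1), F ν = ∑ μ ∈ Lev m σ, F (μ + e j) := by
  refine sum_shift (e j) fun x hx => ?_
  have h := hF _ hx
  simp only [mem_Lev, tot_add, tot_e, add_left_inj]
  refine and_congr_left fun _ => iff_of_true (fun i => ?_) fun i => ?_
  · have : 0 ≤ (x + e j) i := h i
    omega
  · have : 0 ≤ x i + e j i := h i
    have := e_le j i
    omega

lemma N_ne_of_St {k μ r : V m} (hk : ∀ j, -1 ≤ k j) (h : St k μ) (hK : K m μ r ≠ 0) :
    N k r ≠ 0 := by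
  rw [pieri k r hk]
  intro h0
  have := (sum_eq_zero_iff_of_nonneg fun _ _ => mul_nonneg (ind_nonneg _) (K_nonneg _ _)).1 h0 μ
    (mem_Lev.2 ⟨fun j => (hk j).trans (h.1 j), K_tot hK⟩)
  rw [ind_pos h, one_mul] at this
  exact hK this

lemma N_cM (l r : V (d + 1)) (hl : ∀ j, -1 ≤ l j) :
    N l r = ∑ μ ∈ Lev d (tot (Fin.tail r)), K d μ (Fin.tail r) * cM l μ (tot l - r 0) := by
  simp only [N_succ, cM, mul_sum]
  rw [sum_comm]
  refine sum_congr rfl fun κ hκ => ?_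
  rw [pieri κ _ fun j => (hl _).trans (mem_box.1 hκ j).1, mul_sum]
  exact sum_congr rfl fun μ _ => by ring

lemma cM_nonneg (Λ : V (d + 1)) (μ : V d) (θ : ℤ) : 0 ≤ cM Λ μ θ :=
  sum_nonneg fun _ _ => mul_nonneg (ind_nonneg _) (ind_nonneg _)

lemma sub_e_ge {x : V m} (h : 0 ≤ x) (j i : Fin m) : -1 ≤ (x - e j) i := by
  have : 0 ≤ x i := h i
  have := e_le j i
  simp only [Pi.sub_apply]; omega

lemma ge_of_nonneg {x : V m} (h : 0 ≤ x) (i : Fin m) : -1 ≤ x i := by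
  have : 0 ≤ x i := h i
  omega

lemma GT.nonneg {κ : V d} {Λ : V (d + 1)} (h : GT κ Λ) (h0 : 0 ≤ Λ) : 0 ≤ κ :=
  fun j => le_trans (h0 _) (h j).1

lemma Bx_ge {Λ : V (d + 1)} (h0 : 0 ≤ Λ) {k : V d} (hk : k ∈ Bx Λ) (j : Fin d) : -1 ≤ k j := by
  have := (mem_Bx.1 hk j).1
  have : 0 ≤ Λ j.succ := h0 _
  omega

lemma Bx_of_GT {Λ : V (d + 1)} {k : V d} (h : GT k Λ) : k ∈ Bx Λ :=
  mem_Bx.2 fun j => by have := h j; omega

lemma Bx_of_up {Λ : V (d + 1)} {k : V d} {j : Fin d} (h : GT (k + e j) Λ) : k ∈ Bx Λ :=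
  mem_Bx.2 fun i => by
    have := h i; have := e_le j i; have := e_nonneg j i
    simp only [Pi.add_apply] at *; omega

lemma Bx_of_sub {Λ : V (d + 1)} {k : V d} {j : Fin (d + 1)} (h : GT k (Λ - e j)) : k ∈ Bx Λ :=
  mem_Bx.2 fun i => by
    have := h i; have := e_le j i.succ; have := e_nonneg j i.castSucc
    simp only [Pi.sub_apply] at *; omega

lemma box_Bx (Λ : V (d + 1)) (F : V d → ℝ) :
    ∑ κ ∈ box Λ, F κ = ∑ k ∈ Bx Λ, ind (GT k Λ) * F k :=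
  box_sum _ _ _ fun _ h _ => Bx_of_GT h

lemma box_Bx_sub (Λ : V (d + 1)) (j : Fin (d + 1)) (F : V d → ℝ) :
    ∑ κ ∈ box (Λ - e j), F κ = ∑ k ∈ Bx Λ, ind (GT k (Λ - e j)) * F k :=
  box_sum _ _ _ fun _ h _ => Bx_of_sub h

lemma box_Bx_up (Λ : V (d + 1)) (j : Fin d) (F : V d → ℝ) :
    ∑ κ ∈ box Λ, F κ = ∑ k ∈ Bx Λ, ind (GT (k + e j) Λ) * F (k + e j) :=
  box_shift _ _ _ _ fun _ h _ => Bx_of_up h

section
variable (Λ r : V (d + 1)) (v : Fin (d + 1) → ℝ) (g : ℝ) (t : Fin (d + 1) → ℝ)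

def KL (y : V d → Fin d → ℝ) (b : V d → ℝ) : Prop :=
  ∀ κ ∈ Bx Λ, tot Λ - r 0 - 1 ≤ tot κ → N κ (Fin.tail r) *
    (∑ j, ind (GT (κ + e j) Λ) * y κ j - ind (GT κ Λ ∧ tot Λ - r 0 ≤ tot κ) * b κ) =
    N κ (Fin.tail r) * (∑ j, v j * ind (GT κ (Λ - e j)) - t 0 * ind (GT κ Λ))

def KU (y : V d → Fin d → ℝ) (b : V d → ℝ) : Prop :=
  ∀ κ, GT κ Λ → tot Λ - r 0 ≤ tot κ →
    Bal κ (Fin.tail r) (fun j => y (κ - e j) j) (g - b κ) fun i => t i.succ

def MU (H : V d → Fin d → ℝ) : Prop :=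
  ∀ μ, cM Λ μ (tot Λ - r 0) ≠ 0 → ∑ j, K d (μ - e j) (Fin.tail r) * H (μ - e j) j =
    ∑ i : Fin d, t i.succ * K d μ (Fin.tail r + e i)

def ML (H : V d → Fin d → ℝ) : Prop :=
  ∀ μ, (∀ j, -1 ≤ μ j) → K d μ (Fin.tail r) * ∑ j, cM Λ (μ + e j) (tot Λ - r 0) * H μ j =
    K d μ (Fin.tail r) * (∑ j, v j * cM (Λ - e j) μ (tot Λ - r 0 - 1) -
      t 0 * cM Λ μ (tot Λ - r 0 - 1) + g * cM Λ μ (tot Λ - r 0))

noncomputable def EM (H : V d → Fin d → ℝ) : ℝ := ∑ μ ∈ Lev d (tot (Fin.tail r)),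
  K d μ (Fin.tail r) * ∑ j, cM Λ (μ + e j) (tot Λ - r 0) * H μ j ^ 2

noncomputable def EK (y : V d → Fin d → ℝ) (b : V d → ℝ) : ℝ :=
  ∑ κ ∈ Bx Λ, ind (tot Λ - r 0 - 1 ≤ tot κ) * N κ (Fin.tail r) *
      ∑ j, ind (GT (κ + e j) Λ) * y κ j ^ 2 +
    ∑ κ ∈ box Λ, ind (tot Λ - r 0 ≤ tot κ) * N κ (Fin.tail r) *
      (3 * b κ ^ 2 - 2 * (g + t 0) * b κ)

end

variable {Λ r : V (d + 1)} {v : Fin (d + 1) → ℝ} {g : ℝ} {t : Fin (d + 1) → ℝ}

lemma le_succ_iff {u r : V (d + 1)} : u ≤ r ↔ u 0 ≤ r 0 ∧ Fin.tail u ≤ Fin.tail r :=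
  Fin.forall_fin_succ

theorem row_one (h0 : 0 ≤ Λ) (hsub : ∀ κ, GT κ Λ → T2 κ (Fin.tail r)) {y : V d → Fin d → ℝ}
    {b : V d → ℝ} (hL : KL Λ r v t y b) (hU : KU Λ r g t y b) :
    ∃ s H, P1 Λ r g s ∧ P2 Λ r v t s ∧ MU Λ r t H ∧ ML Λ r v g t H ∧
      EP Λ r t s + EM Λ r H ≤ EK Λ r g t y b + g ^ 2 * N Λ r := by
  set θ := tot Λ - r 0 with hθ
  set r' := Fin.tail r with hr'
  have : ∀ κ : V d, ∃ s W, GT κ Λ → θ ≤ tot κ → P1 κ r' (g - b κ) s ∧
      P2 κ r' (fun j => y (κ - e j) j) (fun i => t i.succ) s ∧ Q1 κ r' (fun i => t i.succ) W ∧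
      Q2 κ r' (fun j => y (κ - e j) j) (g - b κ) W ∧ EP κ r' (fun i => t i.succ) s + EQ κ r' W ≤
        ∑ j, N (κ - e j) r' * y (κ - e j) j ^ 2 + (g - b κ) ^ 2 * N κ r' := by
    intro κ
    by_cases h : GT κ Λ ∧ θ ≤ tot κ
    · obtain ⟨s, W, H⟩ := hsub κ h.1 _ _ _ (hU κ h.1 h.2)
      exact ⟨s, W, fun _ _ => H⟩
    · exact ⟨0, 0, fun h1 h2 => absurd ⟨h1, h2⟩ h⟩
  choose sk Wk hk using this
  let ω : V (d + 1) → V d → ℝ := fun w κ => ind (tot κ = tot Λ - w 0) * K d κ (Fin.tail w)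
  have hω : ∀ w, ∀ κ ∈ box Λ, 0 ≤ ω w κ := fun w κ _ => mul_nonneg (ind_nonneg _) (K_nonneg _ _)
  let s : V (d + 1) → Fin (d + 1) → ℝ := fun w => Fin.cons (avg (box Λ) (ω w) b)
    fun i => avg (box Λ) (ω w) fun κ => sk κ (Fin.tail w) i
  have s0 : ∀ w, K (d + 1) Λ w * s w 0 = ∑ κ ∈ box Λ, ω w κ * b κ := fun w => avg_mul _ _ (hω w)
  have s1 : ∀ w (i : Fin d), K (d + 1) Λ w * s w i.succ =
      ∑ κ ∈ box Λ, ω w κ * sk κ (Fin.tail w) i := fun w i => avg_mul _ _ (hω w)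
  let ρ : V d → V d → ℝ := fun μ κ => ind (θ ≤ tot κ) * ind (St κ μ)
  have hρ : ∀ μ, ∀ κ ∈ box Λ, 0 ≤ ρ μ κ := fun μ κ _ => mul_nonneg (ind_nonneg _) (ind_nonneg _)
  let H : V d → Fin d → ℝ := fun μ j => avg (box Λ) (ρ (μ + e j)) fun κ => Wk κ μ j
  have H1 : ∀ μ j, cM Λ (μ + e j) θ * H μ j = ∑ κ ∈ box Λ, ρ (μ + e j) κ * Wk κ μ j :=
    fun μ j => avg_mul _ _ (hρ _)
  refine ⟨s, H, fun w hw => ?_, fun u hu => ?_, fun μ hμ => ?_, fun μ hμ => ?_, ?_⟩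
  · rw [le_succ_iff] at hw
    rw [Fin.sum_univ_succ, mul_add, mul_sum, s0, sum_congr rfl fun i _ => s1 w i, sum_comm,
      ← sum_add_distrib, K_succ, sum_mul]
    refine sum_congr rfl fun κ hκ => ?_
    simp only [ω, mul_assoc, ← mul_sum, ← mul_add]
    refine ind_mul_congr fun h => ?_
    rw [mul_add, (hk κ (mem_box.1 hκ) (by omega)).1 _ hw.2]; ring
  · rw [le_succ_iff] at hu
    have a0 : K (d + 1) Λ (u + e 0) * (t 0 - ind (u + e 0 ≤ r) * s (u + e 0) 0) =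
        ∑ k ∈ Bx Λ, ind (tot k = tot Λ - u 0 - 1) * (K d k (Fin.tail u) *
          (t 0 * ind (GT k Λ) - ind (GT k Λ ∧ θ ≤ tot k) * b k)) := by
      rw [mul_sub, mul_left_comm, s0, K_succ, sum_mul, mul_sum, ← sum_sub_distrib, box_Bx]
      refine sum_congr rfl fun k _ => ?_
      simp only [ω, tail_add, tail_e0, add_zero, Pi.add_apply, e_self, ← sub_sub, ind_and]
      by_cases h : tot k = tot Λ - u 0 - 1
      · rw [ind_congr (p := u + e 0 ≤ r) (q := θ ≤ tot k) (by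
          simp only [le_succ_iff, tail_add, tail_e0, add_zero, Pi.add_apply, e_self, hu.2,
            and_true]; omega)]
        ring
      · rw [ind_neg h]; ring
    have a1 : ∑ i : Fin d, K (d + 1) Λ (u + e i.succ) *
        (t i.succ - ind (u + e i.succ ≤ r) * s (u + e i.succ) i.succ) =
        ∑ k ∈ Bx Λ, ind (tot k = tot Λ - u 0 - 1) * (K d k (Fin.tail u) *
          ∑ j, ind (GT (k + e j) Λ) * y k j) := by
      have b1 : ∀ i : Fin d, K (d + 1) Λ (u + e i.succ) *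
          (t i.succ - ind (u + e i.succ ≤ r) * s (u + e i.succ) i.succ) =
          ∑ κ ∈ box Λ, ind (tot κ = tot Λ - u 0) * (K d κ (Fin.tail u + e i) *
            (t i.succ - ind (Fin.tail u + e i ≤ r') * sk κ (Fin.tail u + e i) i)) := by
        intro i
        rw [mul_sub, mul_left_comm, s1, K_succ, sum_mul, mul_sum, ← sum_sub_distrib]
        refine sum_congr rfl fun k _ => ?_
        rw [ind_congr (p := u + e i.succ ≤ r) (q := Fin.tail u + e i ≤ r') (by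
          simp [le_succ_iff, hu.1, hr'])]
        simp only [ω, tail_add, tail_es, Pi.add_apply, es_zero, add_zero]
        ring
      rw [sum_congr rfl fun i _ => b1 i, sum_comm, sum_congr rfl fun κ hκ => by
        rw [← mul_sum, ind_mul_congr fun h => (hk κ (mem_box.1 hκ) (by omega)).2.1 _ hu.2,
          mul_sum], sum_comm]
      simp only [mul_sum]
      rw [sum_comm (s := Bx Λ)]
      refine sum_congr rfl fun j _ => ?_
      rw [box_Bx_up Λ j]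
      refine sum_congr rfl fun k _ => ?_
      rw [add_sub_cancel_right, ind_congr (p := tot (k + e j) = _) (q := tot k = tot Λ - u 0 - 1)
        (by simp; omega)]
      ring
    have a2 : ∑ j, K (d + 1) (Λ - e j) u * v j = ∑ k ∈ Bx Λ, ind (tot k = tot Λ - u 0 - 1) *
        (K d k (Fin.tail u) * ∑ j, v j * ind (GT k (Λ - e j))) := by
      simp only [mul_sum]
      rw [sum_comm]
      refine sum_congr rfl fun j _ => ?_
      rw [K_succ, box_Bx_sub, sum_mul]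
      refine sum_congr rfl fun k _ => ?_
      rw [tot_sub, tot_e, sub_right_comm]
      ring
    rw [Fin.sum_univ_succ, a0, a1, a2, ← sum_add_distrib]
    refine sum_congr rfl fun k hk => ?_
    rw [← mul_add, ← mul_add]
    refine ind_mul_congr fun h => mul_congr_ne fun hK => ?_
    have := mul_left_cancel₀ (N_ne hu.2 hK) (hL k hk (by omega))
    linarith
  · apply mul_left_cancel₀ hμ
    rw [mul_sum, sum_congr rfl fun j _ => by
      rw [mul_left_comm, ← sub_add_cancel μ (e j), add_sub_cancel_right, H1, sub_add_cancel,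
        mul_sum], sum_comm, cM, sum_mul]
    refine sum_congr rfl fun κ hκ => ?_
    simp only [ρ, mul_left_comm (K d _ _), ← mul_sum, mul_assoc]
    exact ind_mul_congr fun h1 => ind_mul_congr fun h2 => (hk κ (mem_box.1 hκ) h1).2.2.1 μ h2
  · change K d μ r' * ∑ j, cM Λ (μ + e j) θ * H μ j = K d μ r' *
      (∑ j, v j * cM (Λ - e j) μ (θ - 1) - t 0 * cM Λ μ (θ - 1) + g * cM Λ μ θ)
    simp only [H1]
    rw [sum_comm, mul_sum, sum_congr rfl fun κ hκ => by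
      simp only [ρ, mul_assoc]
      rw [← mul_sum, mul_left_comm, ind_mul_congr fun h => (hk κ (mem_box.1 hκ) h).2.2.2.1 μ hμ,
        mul_left_comm], ← mul_sum]
    refine mul_congr_ne fun hK => ?_
    have a1 : ∑ κ ∈ box Λ, ind (θ ≤ tot κ) * ∑ j, y (κ - e j) j * ind (St (κ - e j) μ) =
        ∑ k ∈ Bx Λ, ind (θ - 1 ≤ tot k) * (ind (St k μ) * ∑ j, ind (GT (k + e j) Λ) * y k j) := by
      simp only [mul_sum]
      rw [sum_comm, sum_comm (s := Bx Λ)]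
      refine sum_congr rfl fun j _ => ?_
      rw [box_Bx_up Λ j]
      refine sum_congr rfl fun k _ => ?_
      rw [add_sub_cancel_right, ind_congr (p := θ ≤ tot (k + e j)) (q := θ - 1 ≤ tot k) (by simp)]
      ring
    have a2 : ∑ κ ∈ box Λ, ind (θ ≤ tot κ) * ((g - b κ) * ind (St κ μ)) = g * cM Λ μ θ -
        ∑ k ∈ Bx Λ, ind (θ - 1 ≤ tot k) * (ind (St k μ) * (ind (GT k Λ ∧ θ ≤ tot k) * b k)) := by
      rw [cM, mul_sum, box_Bx, box_Bx, ← sum_sub_distrib]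
      refine sum_congr rfl fun k _ => ?_
      by_cases h : θ ≤ tot k
      · rw [ind_and, ind_pos h, ind_pos (by omega : θ - 1 ≤ tot k)]; ring
      · rw [ind_and, ind_neg h]; ring
    have a3 : ∑ j, v j * cM (Λ - e j) μ (θ - 1) - t 0 * cM Λ μ (θ - 1) =
        ∑ k ∈ Bx Λ, ind (θ - 1 ≤ tot k) * (ind (St k μ) *
          (∑ j, v j * ind (GT k (Λ - e j)) - t 0 * ind (GT k Λ))) := by
      simp only [cM, box_Bx_sub, box_Bx Λ, mul_sum, mul_sub, sum_sub_distrib]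
      rw [sum_comm]
      congr 1
      · exact sum_congr rfl fun k _ => sum_congr rfl fun j _ => by ring
      · exact sum_congr rfl fun k _ => by ring
    simp only [mul_add, sum_add_distrib]
    rw [a1, a2, a3, add_sub_left_comm, add_comm, ← sum_sub_distrib]
    congr 1
    refine sum_congr rfl fun k hk => ?_
    rw [← mul_sub, ← mul_sub]
    exact ind_mul_congr fun h1 => ind_mul_congr fun h2 =>
      mul_left_cancel₀ (N_ne_of_St (Bx_ge h0 hk) h2 hK) (hL k hk h1)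
  · have a1 : EP Λ r t s ≤ ∑ κ ∈ box Λ, ind (θ ≤ tot κ) * (N κ r' * (2 * b κ ^ 2 - 2 * t 0 * b κ)
        + EP κ r' (fun i => t i.succ) (sk κ)) := by
      have b1 : ∀ κ ∈ box Λ, ind (θ ≤ tot κ) * (N κ r' * (2 * b κ ^ 2 - 2 * t 0 * b κ)
          + EP κ r' (fun i => t i.succ) (sk κ)) = ∑ w ∈ Dn r (tot Λ), ω w κ *
            ((2 * b κ ^ 2 - 2 * t 0 * b κ) + ∑ i : Fin d, (2 * sk κ (Fin.tail w) i ^ 2 -
              2 * t i.succ * sk κ (Fin.tail w) i)) := by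
        intro κ _
        rw [N, EP, sum_mul, ← sum_add_distrib, ← sum_Dn_succ]
        exact sum_congr rfl fun w _ => by simp only [ω]; ring
      rw [sum_congr rfl b1, sum_comm]
      refine sum_le_sum fun w _ => ?_
      simp only [mul_add, sum_add_distrib, mul_sum, Fin.sum_univ_succ]
      rw [sum_comm]
      exact add_le_add (avg_quad _ _ (hω w) zero_le_two _)
        (sum_le_sum fun i _ => avg_quad _ _ (hω w) zero_le_two _)
    have a2 : EM Λ r H ≤ ∑ κ ∈ box Λ, ind (θ ≤ tot κ) * EQ κ r' (Wk κ) := by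
      simp only [EQ, mul_sum]
      rw [sum_comm]
      refine sum_le_sum fun μ _ => ?_
      rw [sum_comm, mul_sum]
      refine sum_le_sum fun j _ => ?_
      refine (mul_le_mul_of_nonneg_left (avg_sq _ _ (hρ (μ + e j))) (K_nonneg _ _)).trans_eq ?_
      rw [mul_sum]
      exact sum_congr rfl fun κ _ => by simp only [ρ]; ring
    have a3 : ∑ κ ∈ Bx Λ, ind (θ - 1 ≤ tot κ) * N κ r' * ∑ j, ind (GT (κ + e j) Λ) * y κ j ^ 2 =
        ∑ κ ∈ box Λ, ind (θ ≤ tot κ) * ∑ j, N (κ - e j) r' * y (κ - e j) j ^ 2 := by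
      simp only [mul_sum]
      rw [sum_comm, sum_comm (s := box Λ)]
      refine sum_congr rfl fun j _ => ?_
      rw [box_Bx_up Λ j]
      refine sum_congr rfl fun k _ => ?_
      rw [add_sub_cancel_right, ind_congr (p := θ ≤ tot (k + e j)) (q := θ - 1 ≤ tot k) (by simp)]
      ring
    refine (add_le_add a1 a2).trans ?_
    rw [EK, a3, N_succ, mul_sum, ← sum_add_distrib, ← sum_add_distrib, ← sum_add_distrib]
    refine sum_le_sum fun κ hκ => ?_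
    rw [← hθ, ← hr']
    by_cases h : θ ≤ tot κ
    · have := (hk κ (mem_box.1 hκ) h).2.2.2.2
      rw [ind_pos h]
      linarith
    · simp [ind_neg h]

end Vale.Agent.P328
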