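import Vale.Agent.P328.Row

/-! Peeling a row: the local step, feasibility, and the induction step. -/

namespace Vale.Agent.P328

open Finset

variable {m d : ℕ} {Λ r : V (d + 1)} {v : Fin (d + 1) → ℝ} {g : ℝ} {t : Fin (d + 1) → ℝ}

lemma St.nonneg {l ν : V m} (h : St l ν) (h0 : 0 ≤ l) : 0 ≤ ν := fun j => le_trans (h0 j) (h.1 j)

theorem row_two (h0 : 0 ≤ Λ) (hT : ∀ μ : V d, Antitone μ → (∀ j, -1 ≤ μ j) → T0 Λ μ)
    {H : V d → Fin d → ℝ} (hU : MU Λ r t H) (hL : ML Λ r v g t H) :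
    ∃ y b W, KL Λ r v t y b ∧ KU Λ r g t y b ∧ Q1 Λ r t W ∧ Q2 Λ r v g W ∧
      EK Λ r g t y b + EQ Λ r W ≤ EM Λ r H + ∑ j, N (Λ - e j) r * v j ^ 2 := by
  set θ := tot Λ - r 0 with hθ
  set r' := Fin.tail r with hr'
  have hex := fun (μ : V d) (h : K d μ r' ≠ 0 ∧ ∀ j, -1 ≤ μ j) =>
    hT μ (K_anti h.1) h.2 θ v (H μ) g (t 0) (mul_left_cancel₀ h.1 (hL μ h.2))
  choose! yk bk Wk ha hb hc hd he using hex
  let A := Lev d (tot r')
  have hA : ∀ {μ}, μ ∈ A → K d μ r' ≠ 0 → K d μ r' ≠ 0 ∧ ∀ j, -1 ≤ μ j :=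
    fun h hK => ⟨hK, (mem_Lev.1 h).1⟩
  let ρ : V d → V d → ℝ := fun k μ => ind (St k μ) * K d μ r'
  have hρ : ∀ k, ∀ μ ∈ A, 0 ≤ ρ k μ := fun k μ _ => mul_nonneg (ind_nonneg _) (K_nonneg _ _)
  let ω : V (d + 1) → V d → ℝ := fun ν μ => ind (GT μ ν) * K d μ r'
  have hω : ∀ ν, ∀ μ ∈ A, 0 ≤ ω ν μ := fun k μ _ => mul_nonneg (ind_nonneg _) (K_nonneg _ _)
  let y : V d → Fin d → ℝ := fun k j => avg A (ρ k) fun μ => yk μ k j
  let b : V d → ℝ := fun k => avg A (ρ k) fun μ => bk μ k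
  let W : V (d + 1) → Fin (d + 1) → ℝ := fun ν j => avg A (ω ν) fun μ => Wk μ ν j
  have y1 : ∀ k j, (∀ i, -1 ≤ k i) → N k r' * y k j = ∑ μ ∈ A, ρ k μ * yk μ k j :=
    fun k j hk => by rw [pieri k r' hk]; exact avg_mul _ _ (hρ k)
  have b1 : ∀ k, (∀ i, -1 ≤ k i) → N k r' * b k = ∑ μ ∈ A, ρ k μ * bk μ k :=
    fun k hk => by rw [pieri k r' hk]; exact avg_mul _ _ (hρ k)
  have W1 : ∀ ν j, (∀ i, -1 ≤ ν i) → tot ν = tot r →
      K (d + 1) ν r * W ν j = ∑ μ ∈ A, ω ν μ * Wk μ ν j :=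
    fun ν j h1 h2 => by rw [K_Lev ν r h1 h2]; exact avg_mul _ _ (hω ν)
  have hr : tot r = r 0 + tot r' := tot_succ r
  have shift : ∀ F : V d → ℝ, (∀ ν, F ν ≠ 0 → 0 ≤ ν ∧ (tot ν = tot r' + 1 → cM Λ ν θ ≠ 0)) →
      ∑ i : Fin d, t i.succ * ∑ ν ∈ Lev d (tot r' + 1), F ν * K d ν (r' + e i) =
        ∑ μ ∈ A, K d μ r' * ∑ j, F (μ + e j) * H μ j := by
    intro F hF
    simp only [mul_sum]
    rw [sum_comm, sum_comm (s := A)]
    have : ∀ ν ∈ Lev d (tot r' + 1), ∑ i : Fin d, t i.succ * (F ν * K d ν (r' + e i)) =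
        ∑ j, F ν * (K d (ν - e j) r' * H (ν - e j) j) := by
      intro ν hν
      simp only [mul_left_comm (t _), ← mul_sum]
      exact mul_congr_ne fun h => (hU ν ((hF ν h).2 (mem_Lev.1 hν).2)).symm
    rw [sum_congr rfl this, sum_comm]
    refine sum_congr rfl fun j _ => ?_
    rw [sum_Lev_shift j _ _ fun ν h => (hF ν (left_ne_zero_of_mul h)).1]
    exact sum_congr rfl fun μ _ => by rw [add_sub_cancel_right]; ring
  refine ⟨y, b, W, fun κ hκ hl => ?_, fun κ hκ hl => ?_, fun ν hν => ?_, fun ν hν => ?_, ?_⟩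
  · have h1 := Bx_ge h0 hκ
    rw [mul_sub, mul_sum, sum_congr rfl fun j _ => by rw [mul_left_comm, y1 κ j h1, mul_sum],
      mul_left_comm, b1 κ h1, sum_comm, mul_sum, ← sum_sub_distrib, pieri κ _ h1, sum_mul]
    refine sum_congr rfl fun μ hμ => ?_
    simp only [ρ, mul_left_comm (ind (GT _ _)), mul_left_comm (ind (_ ∧ _)), ← mul_sum,
      ← mul_sub, mul_assoc]
    exact ind_mul_congr fun h2 => mul_congr_ne fun hK => ha μ (hA hμ hK) κ hκ hl h2
  · have h1 := hκ.nonneg h0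
    have a1 : ∀ i : Fin d, N κ (r' + e i) =
        ∑ ν ∈ Lev d (tot r' + 1), ind (St κ ν) * K d ν (r' + e i) := fun i => by
      rw [pieri κ _ (ge_of_nonneg h1), tot_add, tot_e]
    change ∑ j, N (κ - e j) r' * y (κ - e j) j + (g - b κ) * N κ r' =
      ∑ i : Fin d, t i.succ * N κ (r' + e i)
    simp only [a1]
    rw [shift _ fun ν h => ⟨(ind_ne h).nonneg h1, fun _ h2 => ?_⟩]
    · rw [sum_congr rfl fun j _ => y1 _ j (sub_e_ge h1 j), sub_mul, mul_comm (b κ),
        b1 κ (ge_of_nonneg h1), pieri κ _ (ge_of_nonneg h1), sum_comm, mul_sum, ← sum_sub_distrib,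
        ← sum_add_distrib]
      refine sum_congr rfl fun μ hμ => ?_
      rw [← mul_congr_ne fun hK => hb μ (hA hμ hK) κ hκ hl, mul_add, mul_sum]
      congr 1
      · exact sum_congr rfl fun j _ => by simp only [ρ]; ring
      · simp only [ρ]; ring
    · have := (sum_eq_zero_iff_of_nonneg fun _ _ => mul_nonneg (ind_nonneg _) (ind_nonneg _)).1
        h2 κ (mem_box.2 hκ)
      rw [ind_pos hl, one_mul] at this
      exact h this
  · have h1 := hν.nonneg h0
    by_cases ht : tot ν = tot r + 1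
    · have a0 : K (d + 1) ν (r + e 0) = ∑ μ ∈ A, ω ν μ := by
        have := K_Lev ν (r + e 0) (ge_of_nonneg h1) (by simpa using ht)
        rwa [tail_add, tail_e0, add_zero] at this
      have a1 : ∀ i : Fin d, K (d + 1) ν (r + e i.succ) =
          ∑ μ ∈ Lev d (tot r' + 1), ind (GT μ ν) * K d μ (r' + e i) := fun i => by
        simpa using K_Lev ν (r + e i.succ) (ge_of_nonneg h1) (by simpa using ht)
      rw [Fin.sum_univ_succ (fun i => t i * _), a0]
      simp only [a1]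
      rw [shift _ fun μ h => ⟨(ind_ne h).nonneg h1, fun h3 h2 => ?_⟩]
      · rw [sum_congr rfl fun j _ => W1 _ j (sub_e_ge h1 j) (by simp; omega), sum_comm, mul_sum,
          ← sum_add_distrib]
        refine sum_congr rfl fun μ hμ => ?_
        have := mul_congr_ne fun hK => hd μ (hA hμ hK) ν hν (by have := (mem_Lev.1 hμ).2; omega)
        rw [mul_add, mul_sum] at this
        simp only [ω]
        rw [mul_comm (ind _), mul_left_comm, ← this]
        exact sum_congr rfl fun j _ => by ring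
      · rw [cM, ← count_refl Λ (ge_of_nonneg h0)] at h2
        have := (sum_eq_zero_iff_of_nonneg fun _ _ => mul_nonneg (ind_nonneg _) (ind_nonneg _)).1
          h2 ν (mem_Lev.2 ⟨ge_of_nonneg h1, by omega⟩)
        rw [ind_pos hν, one_mul] at this
        exact h this
    · rw [sum_eq_zero fun j _ => ?_, sum_eq_zero fun j _ => ?_]
      · by_contra h
        have := K_tot (right_ne_zero_of_mul h)
        simp at this; omega
      · by_contra h
        have := K_tot (left_ne_zero_of_mul h)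
        simp at this; omega
  · by_cases hK : K (d + 1) ν r = 0
    · simp [hK]
    have ht := K_tot hK
    rw [mul_sum, sum_congr rfl fun j _ => by rw [mul_left_comm, W1 ν j hν ht, mul_sum],
      sum_comm, K_Lev ν r hν ht, sum_mul]
    refine sum_congr rfl fun μ hμ => ?_
    simp only [ω, mul_left_comm (ind (St _ _)), ← mul_sum, mul_assoc]
    exact ind_mul_congr fun h2 => mul_congr_ne fun hK => hc μ (hA hμ hK) ν hν h2
      (by have : tot μ = tot r' := (mem_Lev.1 hμ).2; omega)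
  · have a1 : ∑ κ ∈ Bx Λ, ind (θ - 1 ≤ tot κ) * N κ r' * ∑ j, ind (GT (κ + e j) Λ) * y κ j ^ 2 ≤
        ∑ μ ∈ A, K d μ r' * ∑ κ ∈ Bx Λ, ind (θ - 1 ≤ tot κ) * ind (St κ μ) *
          ∑ j, ind (GT (κ + e j) Λ) * yk μ κ j ^ 2 := by
      simp only [mul_sum]
      rw [sum_comm (s := A)]
      refine sum_le_sum fun κ hκ => ?_
      rw [sum_comm]
      refine sum_le_sum fun j _ => ?_
      have := mul_le_mul_of_nonneg_left (avg_sq A (fun μ => yk μ κ j) (hρ κ))
        (mul_nonneg (ind_nonneg (θ - 1 ≤ tot κ)) (ind_nonneg (GT (κ + e j) Λ)))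
      rw [← pieri κ r' (Bx_ge h0 hκ), mul_sum] at this
      refine le_of_eq_of_le (by ring) (this.trans_eq ?_)
      exact sum_congr rfl fun μ _ => by simp only [ρ]; ring
    have a2 : ∑ κ ∈ box Λ, ind (θ ≤ tot κ) * N κ r' * (3 * b κ ^ 2 - 2 * (g + t 0) * b κ) ≤
        ∑ μ ∈ A, K d μ r' * ∑ κ ∈ box Λ, ind (θ ≤ tot κ) * ind (St κ μ) *
          (3 * bk μ κ ^ 2 - 2 * (g + t 0) * bk μ κ) := by
      simp only [mul_sum]
      rw [sum_comm (s := A)]
      refine sum_le_sum fun κ hκ => ?_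
      have := mul_le_mul_of_nonneg_left (avg_quad A (fun μ => bk μ κ) (hρ κ) zero_le_three
        (2 * (g + t 0))) (ind_nonneg (θ ≤ tot κ))
      rw [← pieri κ r' (ge_of_nonneg ((mem_box.1 hκ).nonneg h0)), mul_sum] at this
      refine le_of_eq_of_le (by ring) (this.trans_eq ?_)
      exact sum_congr rfl fun μ _ => by simp only [ρ]; ring
    have a3 : EQ Λ r W ≤ ∑ μ ∈ A, K d μ r' * ∑ ν ∈ Lev (d + 1) (tot r), ind (GT μ ν) *
        ∑ j, ind (St Λ (ν + e j)) * Wk μ ν j ^ 2 := by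
      simp only [EQ, mul_sum]
      rw [sum_comm (s := A)]
      refine sum_le_sum fun ν hν => ?_
      rw [sum_comm]
      refine sum_le_sum fun j _ => ?_
      have := mul_le_mul_of_nonneg_left (avg_sq A (fun μ => Wk μ ν j) (hω ν))
        (ind_nonneg (St Λ (ν + e j)))
      rw [← K_Lev ν r (mem_Lev.1 hν).1 (mem_Lev.1 hν).2, mul_sum] at this
      refine le_of_eq_of_le (by ring) (this.trans_eq ?_)
      exact sum_congr rfl fun μ _ => by simp only [ω]; ring
    have a4 : ∑ j, N (Λ - e j) r * v j ^ 2 =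
        ∑ μ ∈ A, K d μ r' * ∑ j, cM (Λ - e j) μ (θ - 1) * v j ^ 2 := by
      simp only [mul_sum]
      rw [sum_comm]
      refine sum_congr rfl fun j _ => ?_
      rw [N_cM _ _ (sub_e_ge h0 j), sum_mul, tot_sub, tot_e, sub_right_comm]
      exact sum_congr rfl fun μ _ => by ring
    refine (add_le_add (add_le_add a1 a2) a3).trans ?_
    rw [a4, EM, ← sum_add_distrib, ← sum_add_distrib, ← sum_add_distrib]
    refine sum_le_sum fun μ hμ => ?_
    rw [← mul_add, ← mul_add, ← mul_add]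
    refine mul_le_ne (K_nonneg _ _) fun hK => ?_
    have := he μ (hA hμ hK)
    rwa [show tot Λ + tot μ - θ = tot r by have := (mem_Lev.1 hμ).2; omega] at this

lemma tl_le_hd {k : ℕ} {x y : V m} (h : ∀ j i : Fin m, m ≤ j.1 + k → x j ≤ y i) :
    tl k x ≤ hd k y := by
  rw [tl, ← Equiv.sum_comp Fin.revPerm]
  refine sum_le_sum fun j _ => ?_
  have := j.2
  simp only [Fin.revPerm_apply, Fin.val_rev]
  split_ifs with h1 h2 h2
  · exact h _ _ (by simpa using h1)
  · omega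
  · omega
  · exact le_rfl

lemma face (hr : Monotone r) {κ : V d} (hκ : GT κ Λ) (hθ : tot Λ - r 0 ≤ tot κ) {k : ℕ}
    (h : ∀ j : Fin d, d ≤ j.1 + k → κ j ≤ Λ j.succ) : tl k κ ≤ hd k (Fin.tail r) := by
  refine tl_le_hd fun j i hj => (h j hj).trans (le_trans ?_ (hr (Fin.zero_le i.succ)))
  have h1 : tot Λ = Λ j.succ + ∑ p, Λ (j.succ.succAbove p) := Fin.sum_univ_succAbove _ _
  have h2 : tot κ ≤ ∑ p, Λ (j.succ.succAbove p) := by
    refine sum_le_sum fun p _ => ?_
    unfold Fin.succAbove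
    split_ifs with hp
    · exact (hκ p).2
    · refine h p ?_
      simp only [Fin.lt_def, Fin.val_castSucc, Fin.val_succ] at hp
      omega
  omega

lemma conn (hr : Monotone r) (x y : V d → ℝ)
    (E1 : ∀ k j, GT (k + e j) Λ → tot Λ - r 0 - 1 ≤ tot k → N k (Fin.tail r) ≠ 0 →
      x k = y (k + e j))
    (E2 : ∀ k, GT k Λ → tot Λ - r 0 ≤ tot k → N k (Fin.tail r) ≠ 0 → x k = y k) :
    ∃ z : ℝ, (∀ k, GT k Λ → tot Λ - r 0 - 1 ≤ tot k → N k (Fin.tail r) ≠ 0 → x k = z) ∧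
      ∀ k, GT k Λ → tot Λ - r 0 ≤ tot k → (∀ p, tl p k ≤ hd p (Fin.tail r) + 1) → y k = z := by
  have hr' : Monotone (Fin.tail r) := fun a b hab => hr (Fin.succ_le_succ_iff.2 hab)
  let good : V d → Prop := fun k => GT k Λ ∧ tot Λ - r 0 - 1 ≤ tot k ∧ N k (Fin.tail r) ≠ 0
  have mv1 : ∀ k (a b : Fin d), good k → a < b → k a < Λ a.castSucc → Λ b.succ < k b →
      good (k + e a - e b) ∧ x k = x (k + e a - e b) := by
    intro k a b hk hab h1 h2
    have h3 := hk.1.up h1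
    have h4 : GT (k + e a - e b) Λ := h3.down (by simpa [e_ne hab.ne'] using h2)
    have h5 : N (k + e a - e b) (Fin.tail r) ≠ 0 := N_of_maj hr' h4.anti' fun p => by
      have := maj_of_N hk.2.2 p
      have : a.1 < b.1 := hab
      rw [tl_sub, tl_add, tl_e, tl_e]
      split_ifs <;> omega
    have h6 : tot Λ - r 0 - 1 ≤ tot (k + e a - e b) := by simpa using hk.2.1
    refine ⟨⟨h4, h6, h5⟩, ?_⟩
    rw [E1 k a h3 hk.2.1 hk.2.2, E1 _ b (by rwa [sub_add_cancel]) h6 h5, sub_add_cancel]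
  have mv2 : ∀ k (b : Fin d), good k → tot Λ - r 0 ≤ tot k → Λ b.succ < k b →
      good (k - e b) ∧ x k = x (k - e b) := by
    intro k b hk hl h2
    have h4 := hk.1.down h2
    have h5 : N (k - e b) (Fin.tail r) ≠ 0 := N_of_maj hr' h4.anti' fun p => by
      have := maj_of_N hk.2.2 p
      rw [tl_sub, tl_e]
      split_ifs <;> omega
    have h6 : tot Λ - r 0 - 1 ≤ tot (k - e b) := by simp; omega
    refine ⟨⟨h4, h6, h5⟩, ?_⟩
    rw [E2 k hk.1 hl hk.2.2, E1 _ b (by rw [sub_add_cancel]; exact hk.1) h6 h5, sub_add_cancel]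
  have hpot : ∀ k, good k → pot (Fin.tail Λ) ≤ pot k := fun k hk =>
    sum_le_sum fun j _ => mul_le_mul_of_nonneg_left (hk.1 j).1 (by positivity)
  have key : ∀ n : ℕ, ∀ k k', good k → good k' → pot k + pot k' - 2 * pot (Fin.tail Λ) < n →
      x k = x k' := by
    intro n
    induction n with
    | zero => intro k k' hk hk' h; have := hpot k hk; have := hpot k' hk'; omega
    | succ n ih =>
      have half : ∀ k k', good k → good k' → pot k + pot k' - 2 * pot (Fin.tail Λ) < (n + 1 : ℕ) →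
          (∃ b, k' b < k b ∧ ∀ a, k a < k' a → a < b) → x k = x k' := by
        rintro k k' hk hk' h ⟨b, hb, hab⟩
        have hb' : Λ b.succ < k b := (hk'.1 b).1.trans_lt hb
        by_cases ha : ∃ a, k a < k' a
        · obtain ⟨a, ha⟩ := ha
          obtain ⟨h1, h2⟩ := mv1 k a b hk (hab a ha) (ha.trans_le (hk'.1 a).2) hb'
          refine h2.trans (ih _ _ h1 hk' ?_)
          have : a.1 < b.1 := hab a ha
          rw [pot_sub, pot_add, pot_e, pot_e]
          omega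
        · push Not at ha
          have : tot k' < tot k := sum_lt_sum (fun i _ => ha i) ⟨b, mem_univ _, hb⟩
          obtain ⟨h1, h2⟩ := mv2 k b hk (by have := hk'.2.1; omega) hb'
          refine h2.trans (ih _ _ h1 hk' ?_)
          rw [pot_sub, pot_e]
          omega
      intro k k' hk hk' h
      by_cases he : k = k'
      · rw [he]
      obtain ⟨b, hb, hmax⟩ := exists_max_image (univ.filter fun b => k b ≠ k' b) id
        (by obtain ⟨b, hb⟩ := Function.ne_iff.1 he; exact ⟨b, by simpa using hb⟩)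
      simp only [mem_filter, mem_univ, true_and, id] at hb hmax
      rcases lt_or_gt_of_ne hb with h1 | h1
      · refine (half k' k hk' hk (by omega) ⟨b, h1, fun a ha => ?_⟩).symm
        exact lt_of_le_of_ne (hmax a ha.ne') (by rintro rfl; omega)
      · refine half k k' hk hk' h ⟨b, h1, fun a ha => ?_⟩
        exact lt_of_le_of_ne (hmax a ha.ne) (by rintro rfl; omega)
  have hz : ∃ z, ∀ k, good k → x k = z := by
    by_cases h : ∃ k, good k
    · obtain ⟨k', hk'⟩ := h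
      exact ⟨x k', fun k hk => key ((pot k + pot k' - 2 * pot (Fin.tail Λ)).toNat + 1) k k' hk hk'
        (by omega)⟩
    · exact ⟨0, fun k hk => absurd ⟨k, hk⟩ h⟩
  obtain ⟨z, hz⟩ := hz
  refine ⟨z, fun k h1 h2 h3 => hz k ⟨h1, h2, h3⟩, fun k h1 h2 h3 => ?_⟩
  by_cases hb : (univ.filter fun b : Fin d => Λ b.succ < k b).Nonempty
  · obtain ⟨b, hb, hmax⟩ := exists_max_image _ id hb
    simp only [mem_filter, mem_univ, true_and, id] at hb hmax
    have h4 := h1.down hb
    have h5 : N (k - e b) (Fin.tail r) ≠ 0 := N_of_maj hr' h4.anti' fun p => by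
      rw [tl_sub, tl_e]
      split_ifs with hp
      · have := h3 p; omega
      · rw [sub_zero]
        refine face hr h1 h2 fun j hj => not_lt.1 fun h => ?_
        have : j.1 ≤ b.1 := hmax j h
        omega
    have h6 : tot Λ - r 0 - 1 ≤ tot (k - e b) := by simp; omega
    rw [← hz _ ⟨h4, h6, h5⟩, E1 _ b (by rw [sub_add_cancel]; exact h1) h6 h5, sub_add_cancel]
  · have h5 : N k (Fin.tail r) ≠ 0 := N_of_maj hr' h1.anti' fun p =>
      face hr h1 h2 fun j _ => not_lt.1 fun h => hb ⟨j, by simpa using h⟩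
    rw [← E2 k h1 h2 h5, hz k ⟨h1, by omega, h5⟩]

lemma N_e0 (Λ r : V (d + 1)) : N Λ (r + e 0) =
    ∑ κ ∈ box Λ, ind (tot Λ - r 0 - 1 ≤ tot κ) * N κ (Fin.tail r) := by
  rw [N_succ, tail_add, tail_e0, add_zero, Pi.add_apply, e_self, ← sub_sub]

lemma N_es (Λ r : V (d + 1)) (i : Fin d) : N Λ (r + e i.succ) =
    ∑ κ ∈ box Λ, ind (tot Λ - r 0 ≤ tot κ) * N κ (Fin.tail r + e i) := by
  rw [N_succ, tail_add, tail_es, Pi.add_apply, es_zero, add_zero]

lemma N_sub_e (Λ r : V (d + 1)) (j : Fin (d + 1)) : N (Λ - e j) r =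
    ∑ κ ∈ box (Λ - e j), ind (tot Λ - r 0 - 1 ≤ tot κ) * N κ (Fin.tail r) := by
  rw [N_succ, tot_sub, tot_e, sub_right_comm]

theorem row_feas (hΛ : Antitone Λ) (hr : Monotone r) (bal : Bal Λ r v g t) :
    ∃ y b, KL Λ r v t y b ∧ KU Λ r g t y b := by
  classical
  let L : V d ⊕ V d → ((V d → Fin d → ℝ) × (V d → ℝ)) →ₗ[ℝ] ℝ := fun a =>
    match a with
    | Sum.inl k =>
      { toFun := fun p => ind (tot Λ - r 0 - 1 ≤ tot k) * (N k (Fin.tail r) *
          (∑ j, ind (GT (k + e j) Λ) * p.1 k j - ind (GT k Λ ∧ tot Λ - r 0 ≤ tot k) * p.2 k))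
        map_add' := fun p q => by simp [mul_add, sum_add_distrib]; ring
        map_smul' := fun c p => by simp [mul_left_comm _ c, ← mul_sum]; ring }
    | Sum.inr k =>
      { toFun := fun p => ind (tot Λ - r 0 ≤ tot k) *
          (∑ j, N (k - e j) (Fin.tail r) * p.1 (k - e j) j - N k (Fin.tail r) * p.2 k)
        map_add' := fun p q => by simp [mul_add, sum_add_distrib]; ring
        map_smul' := fun c p => by simp [mul_left_comm _ c, ← mul_sum]; ring }
  let dd : V d ⊕ V d → ℝ := fun a =>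
    match a with
    | Sum.inl k => ind (tot Λ - r 0 - 1 ≤ tot k) * (N k (Fin.tail r) *
        (∑ j, v j * ind (GT k (Λ - e j)) - t 0 * ind (GT k Λ)))
    | Sum.inr k => ind (tot Λ - r 0 ≤ tot k) * (∑ i : Fin d, t i.succ * N k (Fin.tail r + e i) - g * N k (Fin.tail r))
  obtain ⟨p, hp⟩ := fredholm ((Bx Λ).disjSum (box Λ)) L dd (by
    intro γ hγ
    let c1 : V d → Fin d → ℝ := fun k j => ind (tot Λ - r 0 - 1 ≤ tot k) * ind (GT (k + e j) Λ) * N k (Fin.tail r) *
      (γ (Sum.inl k) + γ (Sum.inr (k + e j)))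
    let c2 : V d → ℝ := fun k => ind (tot Λ - r 0 ≤ tot k) * N k (Fin.tail r) * (γ (Sum.inl k) + γ (Sum.inr k))
    have h1 : ∀ p : (V d → Fin d → ℝ) × (V d → ℝ), ∑ a ∈ (Bx Λ).disjSum (box Λ), γ a * L a p =
        ∑ k ∈ Bx Λ, ∑ j, c1 k j * p.1 k j - ∑ k ∈ box Λ, c2 k * p.2 k := by
      intro p
      have a1 : ∑ k ∈ box Λ, ∑ j, γ (Sum.inr k) * (ind (tot Λ - r 0 ≤ tot k) *
          (N (k - e j) (Fin.tail r) * p.1 (k - e j) j)) = ∑ k ∈ Bx Λ, ∑ j, ind (tot Λ - r 0 - 1 ≤ tot k) *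
            ind (GT (k + e j) Λ) * N k (Fin.tail r) * γ (Sum.inr (k + e j)) * p.1 k j := by
        rw [sum_comm, sum_comm (s := Bx Λ)]
        refine sum_congr rfl fun j _ => ?_
        rw [box_Bx_up Λ j]
        refine sum_congr rfl fun k _ => ?_
        rw [add_sub_cancel_right, ind_congr (p := tot Λ - r 0 ≤ tot (k + e j)) (q := tot Λ - r 0 - 1 ≤ tot k)
          (by simp)]
        ring
      have a2 : ∑ k ∈ Bx Λ, γ (Sum.inl k) * (ind (tot Λ - r 0 - 1 ≤ tot k) *
          (N k (Fin.tail r) * (ind (GT k Λ ∧ tot Λ - r 0 ≤ tot k) * p.2 k))) =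
          ∑ k ∈ box Λ, ind (tot Λ - r 0 ≤ tot k) * N k (Fin.tail r) * γ (Sum.inl k) * p.2 k := by
        rw [box_Bx]
        refine sum_congr rfl fun k _ => ?_
        by_cases h : tot Λ - r 0 ≤ tot k
        · rw [ind_and, ind_pos h, ind_pos (by omega : tot Λ - r 0 - 1 ≤ tot k)]; ring
        · rw [ind_and, ind_neg h]; ring
      simp only [sum_disjSum, L, LinearMap.coe_mk, AddHom.coe_mk, mul_sub, mul_sum,
        sum_sub_distrib, a1, a2, c1, c2, mul_add, add_mul, sum_add_distrib]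
      have a3 : ∑ k ∈ Bx Λ, ∑ j, γ (Sum.inl k) * (ind (tot Λ - r 0 - 1 ≤ tot k) *
          (N k (Fin.tail r) * (ind (GT (k + e j) Λ) * p.1 k j))) = ∑ k ∈ Bx Λ, ∑ j, ind (tot Λ - r 0 - 1 ≤ tot k) *
            ind (GT (k + e j) Λ) * N k (Fin.tail r) * γ (Sum.inl k) * p.1 k j :=
        sum_congr rfl fun k _ => sum_congr rfl fun j _ => by ring
      have a4 : ∑ k ∈ box Λ, γ (Sum.inr k) * (ind (tot Λ - r 0 ≤ tot k) * (N k (Fin.tail r) * p.2 k)) =
          ∑ k ∈ box Λ, ind (tot Λ - r 0 ≤ tot k) * N k (Fin.tail r) * γ (Sum.inr k) * p.2 k :=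
        sum_congr rfl fun k _ => by ring
      rw [a3, a4]
      ring
    have h2 := hγ (c1, 0)
    have h3 := hγ (0, c2)
    rw [h1] at h2 h3
    simp only [Pi.zero_apply, mul_zero, sum_const_zero, sub_zero, zero_sub, neg_eq_zero] at h2 h3
    obtain ⟨z, z1, z2⟩ := conn hr (fun k => γ (Sum.inl k)) (fun k => - γ (Sum.inr k))
      (fun k j a1 a2 a3 => by
        have := (sum_eq_zero_iff_of_nonneg fun _ _ => mul_self_nonneg _).1
          ((sum_eq_zero_iff_of_nonneg fun _ _ => sum_nonneg fun _ _ => mul_self_nonneg _).1 h2 k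
            (Bx_of_up a1)) j (mem_univ _)
        rw [mul_self_eq_zero] at this
        simp only [c1, ind_pos a1, ind_pos a2, one_mul, mul_eq_zero] at this
        linarith [this.resolve_left a3])
      (fun k a1 a2 a3 => by
        have := (sum_eq_zero_iff_of_nonneg fun _ _ => mul_self_nonneg _).1 h3 k (mem_box.2 a1)
        rw [mul_self_eq_zero] at this
        simp only [c2, ind_pos a2, one_mul, mul_eq_zero] at this
        linarith [this.resolve_left a3])
    have E1 : ∀ k j, GT (k + e j) Λ → tot Λ - r 0 - 1 ≤ tot k → N k (Fin.tail r) ≠ 0 →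
        γ (Sum.inl k) = - γ (Sum.inr (k + e j)) := fun k j a1 a2 a3 => by
      have := (sum_eq_zero_iff_of_nonneg fun _ _ => mul_self_nonneg _).1
        ((sum_eq_zero_iff_of_nonneg fun _ _ => sum_nonneg fun _ _ => mul_self_nonneg _).1 h2 k
          (Bx_of_up a1)) j (mem_univ _)
      rw [mul_self_eq_zero] at this
      simp only [c1, ind_pos a1, ind_pos a2, one_mul, mul_eq_zero] at this
      linarith [this.resolve_left a3]
    have b1 : ∀ k ∈ Bx Λ, γ (Sum.inl k) * dd (Sum.inl k) = z * dd (Sum.inl k) := by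
      intro k _
      rw [mul_comm, mul_comm z]
      refine mul_congr_ne fun h => ?_
      have a2 := ind_ne (left_ne_zero_of_mul h)
      have a3 := left_ne_zero_of_mul (right_ne_zero_of_mul h)
      by_cases a1 : GT k Λ
      · exact z1 k a1 a2 a3
      · have a4 := right_ne_zero_of_mul (right_ne_zero_of_mul h)
        rw [ind_neg a1, mul_zero, sub_zero, Fin.sum_univ_succ, ind_neg (n10 a1), mul_zero,
          zero_add] at a4
        obtain ⟨j, -, hj⟩ := exists_ne_zero_of_sum_ne_zero a4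
        have a5 := ind_ne (right_ne_zero_of_mul hj)
        have a6 := (n1 hΛ a5 a1).2 a5
        rw [E1 k j a6 a2 a3]
        refine z2 _ a6 (by simp; omega) fun p => ?_
        have := maj_of_N a3 p
        rw [tl_add, tl_e]
        split_ifs <;> omega
    have b2 : ∀ k ∈ box Λ, γ (Sum.inr k) * dd (Sum.inr k) = - z * dd (Sum.inr k) := by
      intro k hk
      rw [mul_comm, mul_comm (-z)]
      refine mul_congr_ne fun h => ?_
      have a2 := ind_ne (left_ne_zero_of_mul h)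
      rw [← z2 k (mem_box.1 hk) a2 fun p => ?_, neg_neg]
      by_cases a3 : N k (Fin.tail r) = 0
      · have a4 := right_ne_zero_of_mul h
        rw [a3, mul_zero, sub_zero] at a4
        obtain ⟨i, -, hi⟩ := exists_ne_zero_of_sum_ne_zero a4
        have := maj_of_N (right_ne_zero_of_mul hi) p
        have := hd_e_le p i
        rw [hd_add] at *
        omega
      · have := maj_of_N a3 p
        omega
    rw [sum_disjSum, sum_congr rfl b1, sum_congr rfl b2, ← mul_sum, ← mul_sum]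
    have b3 : ∑ k ∈ Bx Λ, dd (Sum.inl k) = ∑ j, N (Λ - e j) r * v j - t 0 * N Λ (r + e 0) := by
      simp only [dd, N_e0, N_sub_e, box_Bx_sub, box_Bx Λ, mul_sub, mul_sum, sum_sub_distrib,
        sum_mul]
      rw [sum_comm]
      congr 1
      · exact sum_congr rfl fun k _ => sum_congr rfl fun j _ => by ring
      · exact sum_congr rfl fun k _ => by ring
    have b4 : ∑ k ∈ box Λ, dd (Sum.inr k) = ∑ i : Fin d, t i.succ * N Λ (r + e i.succ) -
        g * N Λ r := by
      simp only [dd, N_es, N_succ Λ r, mul_sub, mul_sum, sum_sub_distrib]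
      rw [sum_comm]
      congr 1
      · exact sum_congr rfl fun k _ => sum_congr rfl fun j _ => by ring
      · exact sum_congr rfl fun k _ => by ring
    rw [b3, b4]
    rw [Bal, Fin.sum_univ_succ (fun i => t i * _)] at bal
    linear_combination z * bal)
  refine ⟨p.1, p.2, fun k hk hl => ?_, fun k hk hl => ?_⟩
  · have := hp (Sum.inl k) (inl_mem_disjSum.2 hk)
    simpa only [L, dd, LinearMap.coe_mk, AddHom.coe_mk, ind_pos hl, one_mul] using this
  · have := hp (Sum.inr k) (inr_mem_disjSum.2 (mem_box.2 hk))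
    simp only [L, dd, LinearMap.coe_mk, AddHom.coe_mk, ind_pos hl, one_mul] at this
    rw [Bal]
    linarith

lemma sum_aff {ι : Type*} (A : Finset ι) (w x y z : ι → ℝ) (c : ℝ) :
    ∑ j ∈ A, w j * (c * (x j - y j) + z j) =
      c * (∑ j ∈ A, w j * x j - ∑ j ∈ A, w j * y j) + ∑ j ∈ A, w j * z j := by
  rw [← sum_sub_distrib, mul_sum, ← sum_add_distrib]
  exact sum_congr rfl fun j _ => by ring

theorem t2_step (hΛ : Antitone Λ) (h0 : 0 ≤ Λ) (hr : Monotone r)
    (hsub : ∀ κ, GT κ Λ → T2 κ (Fin.tail r))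
    (hT : ∀ μ : V d, Antitone μ → (∀ j, -1 ≤ μ j) → T0 Λ μ) : T2 Λ r := by
  intro v g t bal
  obtain ⟨y₀, b₀, h1, h2⟩ := row_feas hΛ hr bal
  obtain ⟨-, H₀, -, -, h3, h4, -⟩ := row_one h0 hsub h1 h2
  obtain ⟨H, ⟨h5, h6⟩, hmin⟩ := exists_min2 (Lev d (tot (Fin.tail r)))
    (fun μ => K d μ (Fin.tail r)) (fun μ j => cM Λ (μ + e j) (tot Λ - r 0))
    (fun _ => K_nonneg _ _) (fun _ _ => cM_nonneg _ _ _) (fun H => MU Λ r t H ∧ ML Λ r v g t H)
    (fun c x y z hx hy hz => ⟨fun μ hμ => by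
      have a1 := hx.1 μ hμ
      have a2 := hy.1 μ hμ
      have a3 := hz.1 μ hμ
      rw [sum_aff, a1, a2, a3]; ring, fun μ hμ => by
      have a1 := hx.2 μ hμ
      have a2 := hy.2 μ hμ
      have a3 := hz.2 μ hμ
      rw [sum_aff]
      linear_combination c * a1 - c * a2 + a3⟩) H₀ ⟨h3, h4⟩
  obtain ⟨y, b, W, k1, k2, q1, q2, e1⟩ := row_two h0 hT h5 h6
  obtain ⟨s, H', p1, p2, k3, k4, e2⟩ := row_one h0 hsub k1 k2
  have e3 : EM Λ r H ≤ EM Λ r H' := hmin H' ⟨k3, k4⟩
  exact ⟨s, W, p1, p2, q1, q2, by linarith⟩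

lemma e_comp (σ : Equiv.Perm (Fin m)) (i : Fin m) : e (σ i) ∘ σ = e i := by
  funext k; simp [e_apply]

lemma sum_Dn_perm (σ : Equiv.Perm (Fin m)) (r : V m) (τ : ℤ) (F : V m → ℝ) :
    ∑ w ∈ Dn r τ, F (w ∘ σ) = ∑ w ∈ Dn (r ∘ σ) τ, F w := by
  refine sum_nbij' (fun w => w ∘ σ) (fun w => w ∘ σ.symm) (fun w hw => ?_) (fun w hw => ?_)
    (fun w _ => by funext k; simp) (fun w _ => by funext k; simp) fun _ _ => rfl
  · rw [mem_Dn] at hw ⊢
    exact ⟨fun i => hw.1 _, by rw [← hw.2]; exact Equiv.sum_comp σ w⟩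
  · rw [mem_Dn] at hw ⊢
    exact ⟨fun i => by simpa using hw.1 (σ.symm i), by rw [← hw.2]; exact Equiv.sum_comp σ.symm w⟩

lemma N_perm (σ : Equiv.Perm (Fin m)) (l r : V m) : N l (r ∘ σ) = N l r := by
  rw [N, ← sum_Dn_perm]
  exact sum_congr rfl fun w _ => K_perm σ l w

theorem t2_perm (σ : Equiv.Perm (Fin m)) {Λ r : V m} (h : T2 Λ (r ∘ σ)) : T2 Λ r := by
  intro v g t bal
  have hre : ∀ (x : V m) i, (x + e (σ i)) ∘ σ = x ∘ σ + e i := fun x i => by
    rw [← e_comp σ i]; rfl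
  have hle : ∀ {x y : V m}, x ∘ σ ≤ y ∘ σ ↔ x ≤ y := fun {x y} =>
    ⟨fun H i => by simpa using H (σ.symm i), fun H i => H _⟩
  obtain ⟨s, W, p1, p2, q1, q2, en⟩ := h v g (t ∘ σ) (by
    rw [Bal] at bal ⊢
    simp only [N_perm, ← hre, bal]
    exact (Equiv.sum_comp σ fun i => t i * N Λ (r + e i)).symm)
  refine ⟨fun w i => s (w ∘ σ) (σ.symm i), W, fun w hw => ?_, fun u hu => ?_, fun ν hν => ?_,
    fun ν hν => ?_, ?_⟩
  · have := p1 (w ∘ σ) (hle.2 hw)
    rwa [K_perm, ← Equiv.sum_comp σ.symm] at this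
  · have := p2 (u ∘ σ) (hle.2 hu)
    simp only [K_perm, ← hre, hle] at this
    rw [← this, ← Equiv.sum_comp σ]
    simp
  · have := q1 ν hν
    simp only [K_perm, ← hre] at this
    rw [this, ← Equiv.sum_comp σ fun i => t i * _]
    rfl
  · simpa only [K_perm] using q2 ν hν
  · have a1 : EQ Λ (r ∘ σ) W = EQ Λ r W := by
      simp only [EQ, K_perm]
      rw [show tot (r ∘ σ) = tot r from Equiv.sum_comp σ r]
    have a2 : EP Λ (r ∘ σ) (t ∘ σ) s = EP Λ r t fun w i => s (w ∘ σ) (σ.symm i) := by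
      rw [EP, ← sum_Dn_perm]
      refine sum_congr rfl fun w _ => ?_
      rw [K_perm, ← Equiv.sum_comp σ.symm]
      simp
    simpa only [a1, a2, N_perm] using en

theorem t2_zero (Λ r : V 0) : T2 Λ r := by
  intro v g t bal
  have hg : g = 0 := by simpa [Bal, N_zero] using bal
  refine ⟨0, 0, fun w _ => by simp [hg], fun u _ => by simp, fun ν _ => by simp,
    fun ν _ => by simp [hg], by simp [EP, EQ, hg]⟩

end Vale.Agent.P328
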