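import Vale.Agent.P328.Gen

/-! Signatures, interlacing, Kostka numbers via Gelfand-Tsetlin branching. -/

namespace Vale.Agent.P328

open Finset

abbrev V (m : ℕ) := Fin m → ℤ

variable {m d : ℕ}

def e (j : Fin m) : V m := Pi.single j 1

def tot (x : V m) : ℤ := ∑ j, x j

lemma e_apply (j k : Fin m) : e j k = if k = j then 1 else 0 := by simp [e, Pi.single_apply]
@[simp] lemma e_self (j : Fin m) : e j j = 1 := by simp [e]
lemma e_ne {j k : Fin m} (h : k ≠ j) : e j k = 0 := by simp [e, h]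
lemma e_nonneg (j k : Fin m) : 0 ≤ e j k := by rw [e_apply]; split_ifs <;> omega
lemma e_le (j k : Fin m) : e j k ≤ 1 := by rw [e_apply]; split_ifs <;> omega
@[simp] lemma tot_add (x y : V m) : tot (x + y) = tot x + tot y := by simp [tot, sum_add_distrib]
@[simp] lemma tot_sub (x y : V m) : tot (x - y) = tot x - tot y := by simp [tot, sum_sub_distrib]
@[simp] lemma tot_e (j : Fin m) : tot (e j) = 1 := by simp [tot, e_apply]
@[simp] lemma tot_zero : tot (0 : V m) = 0 := by simp [tot]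
lemma tot_succ (x : V (d + 1)) : tot x = x 0 + tot (Fin.tail x) := by
  simp [tot, Fin.sum_univ_succ, Fin.tail]
@[simp] lemma tot_cons (a : ℤ) (x : V d) : tot (Fin.cons a x : V (d + 1)) = a + tot x := by
  simp [tot, Fin.sum_univ_succ]
lemma tot_mono {x y : V m} (h : x ≤ y) : tot x ≤ tot y := sum_le_sum fun j _ => h j
lemma eq_of_le_of_tot {x y : V m} (h : x ≤ y) (ht : tot y ≤ tot x) : x = y := by
  funext j
  by_contra hj
  have : tot x < tot y := sum_lt_sum (fun i _ => h i) ⟨j, mem_univ _, lt_of_le_of_ne (h j) hj⟩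
  omega
@[simp] lemma tail_add (x y : V (d + 1)) : Fin.tail (x + y) = Fin.tail x + Fin.tail y := rfl
@[simp] lemma tail_sub (x y : V (d + 1)) : Fin.tail (x - y) = Fin.tail x - Fin.tail y := rfl
@[simp] lemma tail_e0 : Fin.tail (e (0 : Fin (d + 1))) = 0 := by
  funext j; simp [Fin.tail, e_apply]
@[simp] lemma tail_es (j : Fin d) : Fin.tail (e j.succ) = e j := by
  funext k; simp [Fin.tail, e_apply]
@[simp] lemma es_zero (j : Fin d) : e j.succ 0 = 0 := e_ne (Fin.succ_ne_zero j).symm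

/-- Gelfand-Tsetlin interlacing. -/
def GT (κ : V d) (Λ : V (d + 1)) : Prop := ∀ j, Λ j.succ ≤ κ j ∧ κ j ≤ Λ j.castSucc

/-- `ν / l` is a horizontal strip. -/
def St (l ν : V m) : Prop := (∀ j, l j ≤ ν j) ∧ ∀ j k : Fin m, k.1 = j.1 + 1 → ν k ≤ l j

noncomputable def box (Λ : V (d + 1)) : Finset (V d) := Icc (Fin.tail Λ) (Fin.init Λ)

lemma mem_box {κ : V d} {Λ : V (d + 1)} : κ ∈ box Λ ↔ GT κ Λ := by
  simp only [box, mem_Icc, Pi.le_def, GT, Fin.tail, Fin.init, forall_and]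

noncomputable def Dn (r : V m) (σ : ℤ) : Finset (V m) :=
  (Icc (fun i => r i - (tot r - σ)) r).filter fun x => tot x = σ

lemma mem_Dn {r x : V m} {σ : ℤ} : x ∈ Dn r σ ↔ x ≤ r ∧ tot x = σ := by
  simp only [Dn, mem_filter, mem_Icc]
  refine ⟨fun h => ⟨h.1.2, h.2⟩, fun h => ⟨⟨fun i => ?_, h.1⟩, h.2⟩⟩
  have h1 : (r - x) i ≤ tot (r - x) :=
    single_le_sum (f := r - x) (fun j _ => sub_nonneg.2 (h.1 j)) (mem_univ i)
  rw [tot_sub, h.2] at h1
  simp only [Pi.sub_apply] at h1 ⊢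
  omega

noncomputable def Lev (m : ℕ) (σ : ℤ) : Finset (V m) :=
  (Icc (fun _ => -1) (fun _ => σ + m)).filter fun x => tot x = σ

lemma mem_Lev {x : V m} {σ : ℤ} : x ∈ Lev m σ ↔ (∀ j, -1 ≤ x j) ∧ tot x = σ := by
  simp only [Lev, mem_filter, mem_Icc, Pi.le_def]
  refine ⟨fun h => ⟨h.1.1, h.2⟩, fun h => ⟨⟨h.1, fun i => ?_⟩, h.2⟩⟩
  have h1 : x i + 1 ≤ ∑ j, (x j + 1) :=
    single_le_sum (f := fun j => x j + 1) (fun j _ => by have := h.1 j; omega) (mem_univ i)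
  have h2 : ∑ j, (x j + 1) = σ + m := by rw [sum_add_distrib, ← h.2]; simp [tot]
  omega

/-- Kostka numbers of the rational general linear group. -/
noncomputable def K : (m : ℕ) → V m → V m → ℝ
  | 0, _, _ => 1
  | d + 1, Λ, w => ∑ κ ∈ box Λ, ind (tot κ = tot Λ - w 0) * K d κ (Fin.tail w)

lemma K_succ (Λ w : V (d + 1)) :
    K (d + 1) Λ w = ∑ κ ∈ box Λ, ind (tot κ = tot Λ - w 0) * K d κ (Fin.tail w) := rfl

lemma K_nonneg : ∀ {m : ℕ} (Λ w : V m), 0 ≤ K m Λ w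
  | 0, _, _ => zero_le_one
  | _ + 1, _, _ => sum_nonneg fun _ _ => mul_nonneg (ind_nonneg _) (K_nonneg _ _)

lemma K_ex {Λ w : V (d + 1)} (h : K (d + 1) Λ w ≠ 0) :
    ∃ κ, GT κ Λ ∧ tot κ = tot Λ - w 0 ∧ K d κ (Fin.tail w) ≠ 0 := by
  obtain ⟨κ, h1, h2⟩ := exists_ne_zero_of_sum_ne_zero h
  exact ⟨κ, mem_box.1 h1, ind_ne (left_ne_zero_of_mul h2), right_ne_zero_of_mul h2⟩

lemma K_tot : ∀ {m : ℕ} {Λ w : V m}, K m Λ w ≠ 0 → tot Λ = tot w
  | 0, _, _, _ => by simp [tot]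
  | _ + 1, Λ, w, h => by
    obtain ⟨κ, _, h2, h3⟩ := K_ex h
    have := K_tot h3
    rw [tot_succ w]; omega

lemma GT.anti {κ : V d} {Λ : V (d + 1)} (h : GT κ Λ) : Antitone Λ :=
  Fin.antitone_iff_succ_le.2 fun j => (h j).1.trans (h j).2

lemma K_anti : ∀ {m : ℕ} {Λ w : V m}, K m Λ w ≠ 0 → Antitone Λ
  | 0, _, _, _ => fun a => a.elim0
  | _ + 1, _, _, h => by
    obtain ⟨κ, h1, -⟩ := K_ex h
    exact h1.anti

lemma GT.anti' {κ : V d} {Λ : V (d + 1)} (h : GT κ Λ) : Antitone κ := by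
  intro a b hab
  rcases hab.eq_or_lt with rfl | hlt
  · exact le_rfl
  · exact (h b).2.trans ((h.anti (by rw [Fin.le_def]; simp; exact hlt)).trans (h a).1)

lemma K_zero : ∀ {m : ℕ} (w : V m), K m 0 w = ind (w = 0)
  | 0, w => (ind_pos (Subsingleton.elim _ _)).symm
  | d + 1, w => by
    have : box (0 : V (d + 1)) = {0} := by
      rw [box]; exact Icc_self _
    rw [K_succ, this, sum_singleton, K_zero, ← ind_and]
    refine ind_congr ⟨fun h => ?_, fun h => by subst h; exact ⟨by simp, rfl⟩⟩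
    rw [← Fin.cons_self_tail w, h.2]
    have : w 0 = 0 := by have := h.1; simp at this; exact this
    rw [this]; funext j; refine Fin.cases rfl (fun _ => rfl) j

lemma sum_Dn_succ (r : V (d + 1)) (σ τ : ℤ) (F : V d → ℝ) :
    ∑ w ∈ Dn r σ, ind (τ = σ - w 0) * F (Fin.tail w) =
      ind (σ - r 0 ≤ τ) * ∑ w' ∈ Dn (Fin.tail r) τ, F w' := by
  classical
  by_cases h : σ - r 0 ≤ τ
  · rw [ind_pos h, one_mul]
    symm
    refine sum_bij_ne_zero (fun w' _ _ => Fin.cons (σ - τ) w') ?_ ?_ ?_ ?_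
    · intro w' hw _
      rw [mem_Dn] at hw ⊢
      refine ⟨fun i => Fin.cases (by simp; omega) (fun j => hw.1 j) i, ?_⟩
      rw [tot_cons, hw.2]; ring
    · intro a _ _ b _ _ hab
      exact Fin.cons_right_injective _ hab
    · intro w hw hne
      have h1 : τ = σ - w 0 := ind_ne (left_ne_zero_of_mul hne)
      rw [mem_Dn] at hw
      refine ⟨Fin.tail w, mem_Dn.2 ⟨fun j => hw.1 j.succ, ?_⟩, right_ne_zero_of_mul hne, ?_⟩
      · have := tot_succ w; omega
      · rw [show σ - τ = w 0 by omega, Fin.cons_self_tail]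
    · intro w' _ _
      rw [ind_pos (by simp), one_mul, Fin.tail_cons]
  · rw [ind_neg h, zero_mul]
    refine sum_eq_zero fun w hw => ?_
    rw [ind_neg, zero_mul]
    have : w 0 ≤ r 0 := (mem_Dn.1 hw).1 0
    omega

/-- Number of patterns of shape `l` with weight at most `r`. -/
noncomputable def N (l r : V m) : ℝ := ∑ u ∈ Dn r (tot l), K m l u

lemma N_nonneg (l r : V m) : 0 ≤ N l r := sum_nonneg fun _ _ => K_nonneg _ _

lemma N_succ (Λ r : V (d + 1)) :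
    N Λ r = ∑ κ ∈ box Λ, ind (tot Λ - r 0 ≤ tot κ) * N κ (Fin.tail r) := by
  simp only [N, K_succ]
  rw [sum_comm]
  exact sum_congr rfl fun κ _ => sum_Dn_succ r _ _ _

lemma N_ne {l r u : V m} (hu : u ≤ r) (h : K m l u ≠ 0) : N l r ≠ 0 := by
  intro h0
  exact h ((sum_eq_zero_iff_of_nonneg fun _ _ => K_nonneg _ _).1 h0 u
    (mem_Dn.2 ⟨hu, (K_tot h).symm⟩))

lemma N_zero (l r : V 0) : N l r = 1 := by
  have : Dn r (tot l) = {l} := by
    ext x; simp only [mem_Dn, mem_singleton]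
    exact ⟨fun _ => Subsingleton.elim _ _, fun h => ⟨fun i => i.elim0, by rw [h]⟩⟩
  rw [N, this, sum_singleton]; rfl

lemma St_succ {x ν : V (d + 1)} : St x ν ↔ x 0 ≤ ν 0 ∧ GT (Fin.tail ν) x := by
  constructor
  · intro h
    exact ⟨h.1 0, fun j => ⟨h.1 _, h.2 _ _ (by simp)⟩⟩
  · intro h
    refine ⟨fun j => Fin.cases h.1 (fun i => (h.2 i).1) j, fun j k hk => ?_⟩
    obtain ⟨i, rfl⟩ : ∃ i : Fin d, k = i.succ := ⟨⟨j.1, by omega⟩, Fin.ext (by simp [hk])⟩
    obtain rfl : j = i.castSucc := Fin.ext (by simpa using hk.symm)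
    exact (h.2 i).2

/-- Append a floor. -/
def hat (μ : V d) (B : ℤ) : V (d + 1) := Fin.snoc μ B

@[simp] lemma hat_cast (μ : V d) (B : ℤ) (j : Fin d) : hat μ B j.castSucc = μ j := by simp [hat]
@[simp] lemma hat_last (μ : V d) (B : ℤ) : hat μ B (Fin.last d) = B := by simp [hat]
lemma tot_hat (μ : V d) (B : ℤ) : tot (hat μ B) = tot μ + B := by
  simp [tot, Fin.sum_univ_castSucc]
lemma hat_add_e (μ : V d) (B : ℤ) (j : Fin d) : hat (μ + e j) B = hat μ B + e j.castSucc := by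
  funext i
  refine Fin.lastCases ?_ (fun k => ?_) i
  · simp [e_ne (Fin.castSucc_lt_last j).ne']
  · simp [e_apply]

lemma St_hat {κ μ : V d} {B : ℤ} (hB : ∀ j, B ≤ κ j) : St κ μ ↔ GT κ (hat μ B) := by
  constructor
  · intro h j
    refine ⟨?_, by simpa using h.1 j⟩
    rcases Fin.eq_castSucc_or_eq_last j.succ with ⟨k, hk⟩ | hk
    · rw [hk, hat_cast]
      exact h.2 j k (by simpa [Fin.ext_iff] using hk.symm)
    · rw [hk, hat_last]; exact hB j
  · intro h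
    refine ⟨fun j => by simpa using (h j).2, fun j k hk => ?_⟩
    have := (h j).1
    rwa [show j.succ = k.castSucc from Fin.ext (by simpa using hk.symm), hat_cast] at this

lemma GT_hat {μ : V d} {ν : V (d + 1)} {B : ℤ} (hB : B ≤ ν (Fin.last d)) :
    GT μ ν ↔ St (hat μ B) ν := by
  constructor
  · intro h
    refine ⟨fun j => Fin.lastCases (by simpa using hB) (fun k => by simpa using (h k).2) j,
      fun j k hk => ?_⟩
    obtain ⟨i, rfl⟩ : ∃ i : Fin d, k = i.succ := ⟨⟨j.1, by omega⟩, Fin.ext (by simp [hk])⟩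
    obtain rfl : j = i.castSucc := Fin.ext (by simpa using hk.symm)
    simpa using (h i).1
  · intro h j
    exact ⟨by simpa using h.2 j.castSucc j.succ (by simp), by simpa using h.1 j.castSucc⟩

def Lo (Λ M : V (d + 1)) : V d := fun j => max (Λ j.succ) (M j.succ)
def Up (Λ M : V (d + 1)) : V d := fun j => min (Λ j.castSucc) (M j.castSucc)
/-- Reflection in the common box. -/
def Rf (Λ M : V (d + 1)) (k : V d) : V d := Lo Λ M + Up Λ M - k

lemma Rf_Rf (Λ M : V (d + 1)) (k : V d) : Rf Λ M (Rf Λ M k) = k := by simp [Rf]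

lemma GT_core {Λ M : V (d + 1)} {k : V d} : GT k Λ ∧ GT k M ↔ Lo Λ M ≤ k ∧ k ≤ Up Λ M := by
  simp only [GT, Lo, Up, Pi.le_def, max_le_iff, le_min_iff, forall_and]
  tauto

lemma core_Rf {Λ M : V (d + 1)} {k : V d} :
    GT (Rf Λ M k) Λ ∧ GT (Rf Λ M k) M ↔ GT k Λ ∧ GT k M := by
  simp only [GT_core, Rf, Pi.le_def, Pi.sub_apply, Pi.add_apply]
  constructor <;> exact fun h => ⟨fun j => by have := h.2 j; omega, fun j => by
    have := h.1 j; omega⟩

lemma tot_LoUp (Λ M : V (d + 1)) : tot (Lo Λ M) + tot (Up Λ M) + max (Λ 0) (M 0) +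
    min (Λ (Fin.last d)) (M (Fin.last d)) = tot Λ + tot M := by
  have h1 : ∑ j, max (Λ j) (M j) = max (Λ 0) (M 0) + tot (Lo Λ M) := by
    simp [tot, Lo, Fin.sum_univ_succ]
  have h2 : ∑ j, min (Λ j) (M j) = tot (Up Λ M) + min (Λ (Fin.last d)) (M (Fin.last d)) := by
    simp [tot, Up, Fin.sum_univ_castSucc]
  have h3 : ∑ j, max (Λ j) (M j) + ∑ j, min (Λ j) (M j) = tot Λ + tot M := by
    rw [tot, tot, ← sum_add_distrib, ← sum_add_distrib]
    exact sum_congr rfl fun j _ => max_add_min _ _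
  omega

lemma tot_Rf (Λ M : V (d + 1)) (k : V d) : tot (Rf Λ M k) = tot Λ + tot M - max (Λ 0) (M 0) -
    min (Λ (Fin.last d)) (M (Fin.last d)) - tot k := by
  have := tot_LoUp Λ M
  simp only [Rf, tot_sub, tot_add]; omega

/-- Sums over a level set, parametrised through the reflection. -/
lemma sum_Lev_Rf (Λ M : V (d + 1)) (σ : ℤ) (A : Finset (V d)) (F : V (d + 1) → ℝ)
    (h1 : ∀ ν, F ν ≠ 0 → tot ν = σ → (∀ j, -1 ≤ ν j) ∧ Rf Λ M (Fin.tail ν) ∈ A) :
    ∑ ν ∈ Lev (d + 1) σ, F ν = ∑ k ∈ A, F (Fin.cons (σ - tot (Rf Λ M k)) (Rf Λ M k)) := by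
  classical
  symm
  refine sum_bij_ne_zero (fun k _ _ => Fin.cons (σ - tot (Rf Λ M k)) (Rf Λ M k)) ?_ ?_ ?_ ?_
  · intro k _ hne
    have ht : tot (Fin.cons (σ - tot (Rf Λ M k)) (Rf Λ M k) : V (d + 1)) = σ := by simp
    exact mem_Lev.2 ⟨(h1 _ hne ht).1, ht⟩
  · intro a _ _ b _ _ hab
    have := congrArg (fun ν : V (d + 1) => Rf Λ M (Fin.tail ν)) hab
    simpa [Rf_Rf] using this
  · intro ν hν hne
    have ht := (mem_Lev.1 hν).2
    have : (Fin.cons (σ - tot (Rf Λ M (Rf Λ M (Fin.tail ν)))) (Rf Λ M (Rf Λ M (Fin.tail ν))) :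
        V (d + 1)) = ν := by
      rw [Rf_Rf, ← ht, tot_succ ν, add_sub_cancel_right, Fin.cons_self_tail]
    exact ⟨Rf Λ M (Fin.tail ν), (h1 ν hne ht).2, by rw [this]; exact hne, this⟩
  · intro k _ _; rfl

/-- The local rule of the growth diagram, as an equality of counts. -/
lemma count_refl (l : V (d + 1)) (hl : ∀ j, -1 ≤ l j) (μ : V d) (θ : ℤ) :
    ∑ ν ∈ Lev (d + 1) (tot l + tot μ - θ), ind (St l ν) * ind (GT μ ν) =
      ∑ κ ∈ box l, ind (θ ≤ tot κ) * ind (St κ μ) := by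
  have key : ∀ ν : V (d + 1), St l ν ∧ GT μ ν ↔ max (l 0) (hat μ (-1) 0) ≤ ν 0 ∧
      GT (Fin.tail ν) l ∧ GT (Fin.tail ν) (hat μ (-1)) := by
    intro ν
    constructor
    · intro h
      have h2 := (GT_hat ((hl _).trans (h.1.1 _))).1 h.2
      rw [St_succ] at h2
      have h1 := St_succ.1 h.1
      exact ⟨max_le h1.1 h2.1, h1.2, h2.2⟩
    · intro h
      have h1 : St l ν := St_succ.2 ⟨(le_max_left _ _).trans h.1, h.2.1⟩
      exact ⟨h1, (GT_hat ((hl _).trans (h1.1 _))).2 (St_succ.2 ⟨(le_max_right _ _).trans h.1, h.2.2⟩)⟩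
  rw [sum_Lev_Rf l (hat μ (-1)) _ (box l)]
  · refine sum_congr rfl fun κ hκ => ?_
    rw [mem_box] at hκ
    rw [← ind_and, ← ind_and, key, Fin.tail_cons, core_Rf, Fin.cons_zero, tot_Rf, tot_hat,
      St_hat (B := -1) fun j => (hl _).trans (hκ j).1, hat_last, min_eq_right (hl _)]
    refine ind_congr ⟨fun h => ⟨by omega, h.2.2⟩, fun h => ⟨by omega, hκ, h.2⟩⟩
  · intro ν hne _
    rw [← ind_and] at hne
    have h := ind_ne hne
    exact ⟨fun j => (hl j).trans (h.1.1 j), mem_box.2 (core_Rf.2 ((key ν).1 h).2).1⟩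

lemma K_Lev (ν r : V (d + 1)) (hν : ∀ j, -1 ≤ ν j) (ht : tot ν = tot r) :
    K (d + 1) ν r = ∑ μ ∈ Lev d (tot (Fin.tail r)), ind (GT μ ν) * K d μ (Fin.tail r) := by
  classical
  rw [K_succ]
  refine sum_bij_ne_zero (fun μ _ _ => μ) ?_ (fun _ _ _ _ _ _ h => h) ?_ ?_
  · intro μ hμ hne
    exact mem_Lev.2 ⟨fun j => (hν _).trans (mem_box.1 hμ j).1, K_tot (right_ne_zero_of_mul hne)⟩
  · intro μ hμ hne
    have h1 := ind_ne (left_ne_zero_of_mul hne)
    refine ⟨μ, mem_box.2 h1, ?_, rfl⟩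
    rw [ind_pos, one_mul]
    · exact right_ne_zero_of_mul hne
    · have := (mem_Lev.1 hμ).2
      have := tot_succ r
      omega
  · intro μ hμ hne
    rw [ind_pos (mem_box.1 hμ), ind_pos (ind_ne (left_ne_zero_of_mul hne))]

/-- Pieri rule. -/
lemma pieri : ∀ {m : ℕ} (l r : V m), (∀ j, -1 ≤ l j) →
    N l r = ∑ ν ∈ Lev m (tot r), ind (St l ν) * K m ν r
  | 0, l, r, _ => by
    have : Lev 0 (tot r) = {l} := by
      ext x; simp only [mem_Lev, mem_singleton]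
      exact ⟨fun _ => Subsingleton.elim _ _, fun _ => ⟨fun i => i.elim0, by simp [tot]⟩⟩
    rw [N_zero, this, sum_singleton, ind_pos ⟨fun i => i.elim0, fun i => i.elim0⟩, one_mul]; rfl
  | d + 1, l, r, hl => by
    rw [N_succ]
    have h1 : ∀ κ ∈ box l, ind (tot l - r 0 ≤ tot κ) * N κ (Fin.tail r) =
        ∑ μ ∈ Lev d (tot (Fin.tail r)), K d μ (Fin.tail r) *
          (ind (tot l - r 0 ≤ tot κ) * ind (St κ μ)) := by
      intro κ hκ
      rw [pieri κ _ fun j => (hl _).trans (mem_box.1 hκ j).1, mul_sum]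
      exact sum_congr rfl fun μ _ => by ring
    have h2 : ∀ ν ∈ Lev (d + 1) (tot r), ind (St l ν) * K (d + 1) ν r =
        ∑ μ ∈ Lev d (tot (Fin.tail r)), K d μ (Fin.tail r) * (ind (St l ν) * ind (GT μ ν)) := by
      intro ν hν
      rw [K_Lev ν r (mem_Lev.1 hν).1 (mem_Lev.1 hν).2, mul_sum]
      exact sum_congr rfl fun μ _ => by ring
    rw [sum_congr rfl h1, sum_congr rfl h2, sum_comm, sum_comm (s := Lev (d + 1) (tot r))]
    refine sum_congr rfl fun μ hμ => ?_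
    rw [← mul_sum, ← mul_sum, ← count_refl l hl, (mem_Lev.1 hμ).2, tot_succ r]
    congr 3; ring

end Vale.Agent.P328
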