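import Vale.Agent.P328.Sym

/-! Integer tables, the count identity, and the statements of the transport inequalities. -/

namespace Vale.Agent.P328

open Finset

variable {m n d : ℕ}

lemma sum_supp {α : Type*} {A B : Finset α} {f : α → ℝ} (h : ∀ x, f x ≠ 0 → (x ∈ A ↔ x ∈ B)) :
    ∑ x ∈ A, f x = ∑ x ∈ B, f x := by
  classical
  refine sum_bij_ne_zero (fun x _ _ => x) (fun x hx hne => (h x hne).1 hx)
    (fun _ _ _ _ _ _ h => h) (fun x hx hne => ⟨x, (h x hne).2 hx, hne, rfl⟩) fun _ _ _ => rfl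

lemma sum_shift {α : Type*} [AddCommGroup α] {A B : Finset α} {f : α → ℝ} (a : α)
    (h : ∀ x, f (x + a) ≠ 0 → (x + a ∈ A ↔ x ∈ B)) :
    ∑ x ∈ A, f x = ∑ x ∈ B, f (x + a) := by
  classical
  symm
  refine sum_bij_ne_zero (fun x _ _ => x + a) (fun x hx hne => (h x hne).2 hx)
    (fun _ _ _ _ _ _ h => add_right_cancel h) (fun x hx hne => ?_) fun _ _ _ => rfl
  have h1 : f (x - a + a) ≠ 0 := by rwa [sub_add_cancel]
  exact ⟨x - a, (h _ h1).1 (by rwa [sub_add_cancel]), h1, sub_add_cancel _ _⟩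

/-- Tables as lists of columns. -/
noncomputable def Tab (r : V m) (c : V n) : Finset (Fin n → V m) :=
  (Icc 0 (fun _ => r)).filter fun X => ∑ J, X J = r ∧ ∀ J, tot (X J) = c J

lemma mem_Tab {r : V m} {c : V n} {X : Fin n → V m} :
    X ∈ Tab r c ↔ (∀ J, 0 ≤ X J) ∧ ∑ J, X J = r ∧ ∀ J, tot (X J) = c J := by
  simp only [Tab, mem_filter, mem_Icc]
  refine ⟨fun h => ⟨h.1.1, h.2⟩, fun h => ⟨⟨h.1, fun J => ?_⟩, h.2⟩⟩
  rw [← h.2.1]
  exact single_le_sum (fun j _ => h.1 j) (mem_univ J)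

lemma Tab_tot {r : V m} {c : V n} {X : Fin n → V m} (h : X ∈ Tab r c) : tot r = tot c := by
  rw [mem_Tab] at h
  rw [← h.2.1, tot, tot]
  simp only [Finset.sum_apply]
  rw [sum_comm]
  exact sum_congr rfl fun J _ => h.2.2 J

lemma Tab_nonneg {r : V m} {c : V n} {X : Fin n → V m} (h : X ∈ Tab r c) : 0 ≤ r := by
  rw [mem_Tab] at h
  rw [← h.2.1]
  exact sum_nonneg fun J _ => h.1 J

lemma mem_Tab_succ {r : V m} {c : V (n + 1)} {X : Fin (n + 1) → V m} (h : X ∈ Tab r c) :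
    r - X 0 ≤ r ∧ Fin.tail X ∈ Tab (r - X 0) (Fin.tail c) := by
  rw [mem_Tab] at h ⊢
  refine ⟨sub_le_self _ (h.1 0), fun J => h.1 _, ?_, fun J => h.2.2 _⟩
  rw [← h.2.1, Fin.sum_univ_succ, add_sub_cancel_left]; rfl

lemma sum_Tab_succ {r : V m} {c : V (n + 1)} (h : tot r = tot c) (F : (Fin (n + 1) → V m) → ℝ) :
    ∑ X ∈ Tab r c, F X = ∑ u ∈ Dn r (tot (Fin.tail c)), ∑ X' ∈ Tab u (Fin.tail c),
      F (Fin.cons (r - u) X') := by
  rw [sum_sigma']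
  refine sum_nbij' (fun X => ⟨r - X 0, Fin.tail X⟩) (fun p => Fin.cons (r - p.1) p.2) ?_ ?_ ?_ ?_ ?_
  · intro X hX
    have h1 := mem_Tab_succ hX
    exact mem_sigma.2 ⟨mem_Dn.2 ⟨h1.1, Tab_tot h1.2⟩, h1.2⟩
  · intro p hp
    obtain ⟨h1, h2⟩ := mem_sigma.1 hp
    rw [mem_Dn] at h1
    rw [mem_Tab] at h2 ⊢
    refine ⟨fun J => Fin.cases (sub_nonneg.2 h1.1) (fun j => h2.1 j) J, ?_,
      fun J => Fin.cases ?_ (fun j => h2.2.2 j) J⟩
    · rw [Fin.sum_univ_succ]; simp [h2.2.1]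
    · have := tot_succ c
      simp only [Fin.cons_zero, tot_sub]; omega
  · intro X _; simp
  · intro p _; simp
  · intro X _; simp

/-- Number of tables. -/
noncomputable def S (r : V m) (c : V n) : ℝ := ∑ _X ∈ Tab r c, 1

lemma S_nonneg (r : V m) (c : V n) : 0 ≤ S r c := sum_nonneg fun _ _ => zero_le_one

lemma S_ne {r : V m} {c : V n} : S r c ≠ 0 ↔ ∃ X, X ∈ Tab r c := by
  simp [S, nonempty_iff_ne_empty.symm, Finset.Nonempty]

lemma S_succ {r : V m} {c : V (n + 1)} (h : tot r = tot c) :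
    S r c = ∑ u ∈ Dn r (tot (Fin.tail c)), S u (Fin.tail c) := sum_Tab_succ h _

/-- Number of chains of horizontal strips with sizes `c` ending at a shape. -/
noncomputable def kap : (n : ℕ) → V n → V m → ℝ
  | 0, _, ν => ind (ν = 0)
  | n + 1, c, ν => ind (tot ν = tot c) *
      ∑ l ∈ Lev m (tot (Fin.tail c)), ind (St l ν) * kap n (Fin.tail c) l

lemma kap_succ (c : V (n + 1)) (ν : V m) : kap (n + 1) c ν = ind (tot ν = tot c) *
    ∑ l ∈ Lev m (tot (Fin.tail c)), ind (St l ν) * kap n (Fin.tail c) l := rfl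

lemma kap_nonneg : ∀ {n : ℕ} (c : V n) (ν : V m), 0 ≤ kap n c ν
  | 0, _, _ => ind_nonneg _
  | _ + 1, _, _ => mul_nonneg (ind_nonneg _)
      (sum_nonneg fun _ _ => mul_nonneg (ind_nonneg _) (kap_nonneg _ _))

lemma St.anti {l ν : V m} (h : St l ν) : Antitone ν := by
  cases m with
  | zero => exact fun a => a.elim0
  | succ d => exact Fin.antitone_iff_succ_le.2 fun j => (h.2 _ _ (by simp)).trans (h.1 _)

lemma kap_supp : ∀ {n : ℕ} {c : V n} {ν : V m}, kap n c ν ≠ 0 →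
    0 ≤ ν ∧ tot ν = tot c ∧ Antitone ν
  | 0, c, ν, h => by
    obtain rfl : ν = 0 := ind_ne h
    exact ⟨le_rfl, by simp [tot], antitone_const⟩
  | n + 1, c, ν, h => by
    obtain ⟨l, -, h2⟩ := exists_ne_zero_of_sum_ne_zero (right_ne_zero_of_mul h)
    have h3 := ind_ne (left_ne_zero_of_mul h2)
    exact ⟨(kap_supp (right_ne_zero_of_mul h2)).1.trans h3.1, ind_ne (left_ne_zero_of_mul h),
      h3.anti⟩

/-- The Robinson-Schensted-Knuth identity. -/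
lemma S_eq : ∀ {n : ℕ} (w : V m) (c : V n),
    S w c = ∑ l ∈ Lev m (tot c), K m l w * kap n c l
  | 0, w, c => by
    rw [sum_eq_single 0 (fun l _ hl => by simp [kap, ind_neg hl])
      (fun h => absurd (mem_Lev.2 ⟨by simp, by simp [tot]⟩) h)]
    simp only [kap, K_zero, ind_pos, mul_one]
    by_cases hw : w = 0
    · subst hw
      have : Tab (0 : V m) c = {fun J => J.elim0} := by
        ext X
        simp only [mem_Tab, mem_singleton]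
        exact ⟨fun _ => Subsingleton.elim _ _, fun _ => ⟨fun J => J.elim0, by simp,
          fun J => J.elim0⟩⟩
      simp [S, this, ind]
    · rw [ind_neg hw]
      by_contra h
      obtain ⟨X, hX⟩ := S_ne.1 h
      exact hw (by simpa using (mem_Tab.1 hX).2.1.symm)
  | n + 1, w, c => by
    by_cases h : tot w = tot c
    · rw [S_succ h]
      simp only [S_eq, kap_succ]
      rw [sum_comm]
      have h1 : ∀ l ∈ Lev m (tot (Fin.tail c)), ∑ u ∈ Dn w (tot (Fin.tail c)),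
          K m l u * kap n (Fin.tail c) l = ∑ ν ∈ Lev m (tot c),
            K m ν w * (ind (St l ν) * kap n (Fin.tail c) l) := by
        intro l hl
        rw [← sum_mul, ← (mem_Lev.1 hl).2]
        refine (congrArg (· * _) (pieri l w (mem_Lev.1 hl).1)).trans ?_
        rw [sum_mul, h]
        exact sum_congr rfl fun ν _ => by ring
      rw [sum_congr rfl h1, sum_comm]
      refine sum_congr rfl fun ν hν => ?_
      rw [ind_pos (mem_Lev.1 hν).2, one_mul, mul_sum]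
    · rw [sum_eq_zero fun l hl => ?_]
      · by_contra h'
        obtain ⟨X, hX⟩ := S_ne.1 h'
        exact h (Tab_tot hX)
      · by_contra h'
        exact h ((K_tot (left_ne_zero_of_mul h')).symm.trans (mem_Lev.1 hl).2)

def P1 (Λ r : V m) (g : ℝ) (s : V m → Fin m → ℝ) : Prop :=
  ∀ w, w ≤ r → K m Λ w * ∑ i, s w i = K m Λ w * g

def P2 (Λ r : V m) (v t : Fin m → ℝ) (s : V m → Fin m → ℝ) : Prop :=
  ∀ u, u ≤ r → ∑ i, K m Λ (u + e i) * (t i - ind (u + e i ≤ r) * s (u + e i) i) =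
    ∑ j, K m (Λ - e j) u * v j

def Q1 (Λ r : V m) (t : Fin m → ℝ) (W : V m → Fin m → ℝ) : Prop :=
  ∀ ν, St Λ ν → ∑ j, K m (ν - e j) r * W (ν - e j) j = ∑ i, t i * K m ν (r + e i)

def Q2 (Λ r : V m) (v : Fin m → ℝ) (g : ℝ) (W : V m → Fin m → ℝ) : Prop :=
  ∀ ν, (∀ j, -1 ≤ ν j) → K m ν r * ∑ j, ind (St Λ (ν + e j)) * W ν j =
    K m ν r * (∑ j, v j * ind (St (Λ - e j) ν) + g * ind (St Λ ν))

noncomputable def EP (Λ r : V m) (t : Fin m → ℝ) (s : V m → Fin m → ℝ) : ℝ :=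
  ∑ w ∈ Dn r (tot Λ), K m Λ w * ∑ i, (2 * s w i ^ 2 - 2 * t i * s w i)

noncomputable def EQ (Λ r : V m) (W : V m → Fin m → ℝ) : ℝ :=
  ∑ ν ∈ Lev m (tot r), K m ν r * ∑ j, ind (St Λ (ν + e j)) * W ν j ^ 2

def Bal (Λ r : V m) (v : Fin m → ℝ) (g : ℝ) (t : Fin m → ℝ) : Prop :=
  ∑ j, N (Λ - e j) r * v j + g * N Λ r = ∑ i, t i * N Λ (r + e i)

/-- Transport inequality for adding one column to a shape. -/
def T2 (Λ r : V m) : Prop := ∀ v g t, Bal Λ r v g t → ∃ s W, P1 Λ r g s ∧ P2 Λ r v t s ∧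
  Q1 Λ r t W ∧ Q2 Λ r v g W ∧ EP Λ r t s + EQ Λ r W ≤ ∑ j, N (Λ - e j) r * v j ^ 2 + g ^ 2 * N Λ r

def X1 (r : V m) (c : V n) (g : Fin n → ℝ) (G : Fin m → Fin n → (Fin n → V m) → ℝ) : Prop :=
  ∀ J, ∀ X ∈ Tab r (c - e J), ∑ i, G i J X = g J

def X2 (r : V m) (c : V n) (t : Fin m → ℝ) (G : Fin m → Fin n → (Fin n → V m) → ℝ) : Prop :=
  ∀ i, ∀ Y ∈ Tab (r + e i) c, ∑ J, ind (1 ≤ Y J i) * G i J (Y - Pi.single J (e i)) = t i

def Y1 (r : V m) (c : V n) (g : Fin n → ℝ) (v : V m → Fin m → ℝ) : Prop :=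
  ∀ ν, (∀ j, -1 ≤ ν j) → K m ν r * ∑ j, kap n c (ν + e j) * v ν j =
    K m ν r * ∑ J, g J * kap n (c - e J) ν

def Y2 (r : V m) (c : V n) (t : Fin m → ℝ) (v : V m → Fin m → ℝ) : Prop :=
  ∀ ν, kap n c ν * ∑ j, K m (ν - e j) r * v (ν - e j) j = kap n c ν * ∑ i, t i * K m ν (r + e i)

noncomputable def EX (r : V m) (c : V n) (G : Fin m → Fin n → (Fin n → V m) → ℝ) : ℝ :=
  ∑ i, ∑ J, ∑ X ∈ Tab r (c - e J), G i J X ^ 2

noncomputable def EY (r : V m) (c : V n) (v : V m → Fin m → ℝ) : ℝ :=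
  ∑ ν ∈ Lev m (tot r), K m ν r * ∑ j, kap n c (ν + e j) * v ν j ^ 2

/-- Transport inequality for tables. -/
def D (r : V m) (c : V n) : Prop := ∀ g t : _ → ℝ,
  ∑ J, g J * S r (c - e J) = ∑ i, t i * S (r + e i) c → ∃ G v, X1 r c g G ∧ X2 r c t G ∧
    Y1 r c g v ∧ Y2 r c t v ∧
    EX r c G + EY r c v ≤ ∑ J, g J ^ 2 * S r (c - e J) + ∑ i, t i ^ 2 * S (r + e i) c

/-- Conclusion of the box inequality. -/
def BoxC (L U : V d) (θ : ℤ) (γ : Fin d → ℝ) (P Q : ℝ) (G : V d → Fin d → ℝ) (b : V d → ℝ) :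
    Prop :=
  (∀ k ∈ Icc L U, θ - 1 ≤ tot k → ∑ j, ind (k j < U j) * G k j = P - ind (θ ≤ tot k) * b k) ∧
  (∀ k ∈ Icc L U, θ ≤ tot k → ∑ j, ind (L j < k j) * (γ j - G (k - e j) j) = Q + b k) ∧
  ∑ k ∈ Icc L U, ind (θ ≤ tot k) * (4 * b k ^ 2 - 2 * b k * (P - Q)) ≤
    ∑ k ∈ Icc L U, ind (θ - 1 ≤ tot k) * ∑ j, ind (k j < U j) * (2 * G k j * (γ j - G k j))

/-- The box inequality. -/
def TB (L U : V d) : Prop := ∀ (θ : ℤ) (γ : Fin d → ℝ) (P Q : ℝ),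
  ∑ j, γ j * ∑ k ∈ Icc L U, ind (θ - 1 ≤ tot k) * ind (k j < U j) =
    P * ∑ k ∈ Icc L U, ind (θ - 1 ≤ tot k) + Q * ∑ k ∈ Icc L U, ind (θ ≤ tot k) →
  ∃ G b, BoxC L U θ γ P Q G b

noncomputable def cM (Λ : V (d + 1)) (μ : V d) (θ : ℤ) : ℝ :=
  ∑ κ ∈ box Λ, ind (θ ≤ tot κ) * ind (St κ μ)

noncomputable def Bx (Λ : V (d + 1)) : Finset (V d) := Icc (Fin.tail Λ - 1) (Fin.init Λ)

lemma mem_Bx {Λ : V (d + 1)} {κ : V d} :
    κ ∈ Bx Λ ↔ ∀ j, Λ j.succ - 1 ≤ κ j ∧ κ j ≤ Λ j.castSucc := by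
  simp only [Bx, mem_Icc, Pi.le_def, Fin.tail, Fin.init, forall_and, Pi.sub_apply, Pi.one_apply]

/-- The local inequality at one cell of the growth diagram. -/
def T0 (Λ : V (d + 1)) (μ : V d) : Prop := ∀ (θ : ℤ) (v : Fin (d + 1) → ℝ) (h : Fin d → ℝ)
  (g t : ℝ), ∑ j, cM Λ (μ + e j) θ * h j =
    ∑ j, v j * cM (Λ - e j) μ (θ - 1) - t * cM Λ μ (θ - 1) + g * cM Λ μ θ →
  ∃ (y : V d → Fin d → ℝ) (b : V d → ℝ) (W : V (d + 1) → Fin (d + 1) → ℝ),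
    (∀ κ ∈ Bx Λ, θ - 1 ≤ tot κ → St κ μ →
      ∑ j, ind (GT (κ + e j) Λ) * y κ j - ind (GT κ Λ ∧ θ ≤ tot κ) * b κ =
        ∑ j, v j * ind (GT κ (Λ - e j)) - t * ind (GT κ Λ)) ∧
    (∀ κ, GT κ Λ → θ ≤ tot κ →
      ∑ j, ind (St (κ - e j) μ) * y (κ - e j) j + (g - b κ) * ind (St κ μ) =
        ∑ j, ind (St κ (μ + e j)) * h j) ∧
    (∀ ν, (∀ j, -1 ≤ ν j) → GT μ ν → tot ν = tot Λ + tot μ - θ →
      ∑ j, ind (St Λ (ν + e j)) * W ν j = ∑ j, v j * ind (St (Λ - e j) ν) + g * ind (St Λ ν)) ∧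
    (∀ ν, St Λ ν → tot ν = tot Λ + tot μ - θ + 1 →
      ∑ j, ind (GT μ (ν - e j)) * W (ν - e j) j =
        t * ind (GT μ ν) + ∑ j, ind (GT (μ + e j) ν) * h j) ∧
    ∑ κ ∈ Bx Λ, ind (θ - 1 ≤ tot κ) * ind (St κ μ) * ∑ j, ind (GT (κ + e j) Λ) * y κ j ^ 2 +
      ∑ κ ∈ box Λ, ind (θ ≤ tot κ) * ind (St κ μ) * (3 * b κ ^ 2 - 2 * (g + t) * b κ) +
      ∑ ν ∈ Lev (d + 1) (tot Λ + tot μ - θ), ind (GT μ ν) *
        ∑ j, ind (St Λ (ν + e j)) * W ν j ^ 2 ≤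
      ∑ j, cM Λ (μ + e j) θ * h j ^ 2 + ∑ j, cM (Λ - e j) μ (θ - 1) * v j ^ 2

end Vale.Agent.P328
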