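import Vale.Agent.P328.Sig

/-! Symmetry of the Kostka numbers in the weight, and their support. -/

namespace Vale.Agent.P328

open Finset

variable {m d : ℕ}

lemma St_cons {x κ : V (d + 1)} {A : ℤ} (hA : κ 0 ≤ A) : St x κ ↔ GT κ (Fin.cons A x) := by
  rw [St_succ]
  constructor
  · intro h j
    refine Fin.cases ⟨by simpa using h.1, by simpa using hA⟩ (fun i => ?_) j
    exact ⟨by simpa [Fin.tail] using (h.2 i).1,
      by simpa [← Fin.succ_castSucc, Fin.tail] using (h.2 i).2⟩
  · intro h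
    exact ⟨by simpa using (h 0).1, fun i => ⟨by simpa [Fin.tail] using (h i.succ).1,
      by simpa [← Fin.succ_castSucc, Fin.tail] using (h i.succ).2⟩⟩

lemma bk_iff {Λ : V (d + 2)} {κ : V (d + 1)} {ξ : V d} : GT κ Λ ∧ GT ξ κ ↔
    GT κ Λ ∧ GT κ (Fin.cons (Λ 0) (hat ξ (Λ (Fin.last (d + 1))))) := by
  refine and_congr_right fun h => ?_
  rw [GT_hat (B := Λ (Fin.last (d + 1))) (h (Fin.last d)).1, St_cons (A := Λ 0) (h 0).2]

lemma K_swap0 (Λ w w' : V (d + 2)) (h0 : w' 0 = w 1) (h1 : w' 1 = w 0)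
    (h2 : Fin.tail (Fin.tail w') = Fin.tail (Fin.tail w)) : K (d + 2) Λ w' = K (d + 2) Λ w := by
  simp only [K_succ, mul_sum, h2]
  rw [sum_sigma', sum_sigma']
  let M : V d → V (d + 2) := fun ξ => Fin.cons (Λ 0) (hat ξ (Λ (Fin.last (d + 1))))
  have hm : ∀ p ∈ (box Λ).sigma fun κ => box κ,
      (⟨Rf Λ (M p.2) p.1, p.2⟩ : Σ _ : V (d + 1), V d) ∈ (box Λ).sigma fun κ => box κ := by
    intro p hp
    simp only [mem_sigma, mem_box] at hp ⊢
    exact bk_iff.2 (core_Rf.2 (bk_iff.1 hp))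
  refine sum_nbij' (fun p => ⟨Rf Λ (M p.2) p.1, p.2⟩) (fun p => ⟨Rf Λ (M p.2) p.1, p.2⟩) hm hm
    (fun p _ => by simp [Rf_Rf]) (fun p _ => by simp [Rf_Rf]) fun p _ => ?_
  rw [← mul_assoc, ← mul_assoc, ← ind_and, ← ind_and]
  congr 1
  have e1 : tot (Rf Λ (M p.2) p.1) = tot Λ + tot p.2 - tot p.1 := by
    have : M p.2 (Fin.last (d + 1)) = Λ (Fin.last (d + 1)) := by
      simp [M, ← Fin.succ_last]
    rw [tot_Rf, this]
    simp [M, tot_hat]
    ring
  have e2 : Fin.tail w' 0 = w 0 := h1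
  have e3 : Fin.tail w 0 = w 1 := rfl
  simp only [e1, e2, e3, h0]
  exact ind_congr (by omega)

lemma K_swap : ∀ (n : ℕ) (i : Fin n) (Λ w : V (n + 1)),
    K (n + 1) Λ (w ∘ Equiv.swap i.castSucc i.succ) = K (n + 1) Λ w
  | 0, i, _, _ => i.elim0
  | n + 1, i, Λ, w => by
    refine Fin.cases ?_ (fun j => ?_) i
    · refine K_swap0 _ _ _ (by simp) (by simp) ?_
      funext k
      simp only [Fin.tail, Function.comp]
      rw [Equiv.swap_apply_of_ne_of_ne] <;> simp [Fin.ext_iff]
    · have h1 : Fin.tail (w ∘ Equiv.swap j.succ.castSucc j.succ.succ) =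
          Fin.tail w ∘ Equiv.swap j.castSucc j.succ := by
        funext k
        simp only [Fin.tail, Function.comp]
        rw [← Fin.succ_castSucc, (Fin.succ_injective _).swap_apply]
      have h2 : (w ∘ Equiv.swap j.succ.castSucc j.succ.succ) 0 = w 0 := by
        simp only [Function.comp]
        rw [Equiv.swap_apply_of_ne_of_ne] <;> simp [Fin.ext_iff]
      rw [K_succ, K_succ (w := w), h1, h2]
      exact sum_congr rfl fun κ _ => by rw [K_swap n j]

lemma K_perm : ∀ {m : ℕ} (σ : Equiv.Perm (Fin m)) (Λ w : V m), K m Λ (w ∘ σ) = K m Λ w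
  | 0, _, _, _ => rfl
  | n + 1, σ, Λ, w => by
    have h : σ ∈ Submonoid.closure (Set.range fun i : Fin n => Equiv.swap i.castSucc i.succ) := by
      rw [Equiv.Perm.mclosure_swap_castSucc_succ]; trivial
    induction h using Submonoid.closure_induction generalizing w with
    | mem x hx => obtain ⟨i, rfl⟩ := hx; exact K_swap n i Λ w
    | one => rfl
    | mul x y _ _ hx hy => exact (hy (w ∘ x)).trans (hx w)

/-- Sum of the last `k` entries. -/
def tl (k : ℕ) (x : V m) : ℤ := ∑ j : Fin m, if m ≤ j.1 + k then x j else 0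
/-- Sum of the first `k` entries. -/
def hd (k : ℕ) (x : V m) : ℤ := ∑ j : Fin m, if j.1 < k then x j else 0
/-- Sum of all but the last `k` entries. -/
def tl' (k : ℕ) (x : V m) : ℤ := ∑ j : Fin m, if j.1 + k < m then x j else 0

lemma tl_add_tl' (k : ℕ) (x : V m) : tl k x + tl' k x = tot x := by
  rw [tl, tl', ← sum_add_distrib]
  refine sum_congr rfl fun j _ => ?_
  split_ifs <;> omega

lemma tl'_succ (k : ℕ) (Λ : V (d + 1)) : tl' (k + 1) Λ = tl' k (Fin.init Λ) := by
  rw [tl', Fin.sum_univ_castSucc, if_neg (by simp), add_zero]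
  refine sum_congr rfl fun j _ => if_congr (by simp; omega) rfl rfl

lemma tl_tail {k : ℕ} (hk : k ≤ d) (Λ : V (d + 1)) : tl k Λ = tl k (Fin.tail Λ) := by
  rw [tl, Fin.sum_univ_succ, if_neg (by simp; omega), zero_add]
  refine sum_congr rfl fun j _ => if_congr (by simp; omega) rfl rfl

lemma hd_succ (k : ℕ) (r : V (d + 1)) : hd (k + 1) r = r 0 + hd k (Fin.tail r) := by
  rw [hd, Fin.sum_univ_succ, if_pos (by simp)]
  congr 1
  refine sum_congr rfl fun j _ => if_congr (by simp) rfl rfl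

lemma hd_init {k : ℕ} (hk : k ≤ d) (r : V (d + 1)) : hd k r = hd k (Fin.init r) := by
  rw [hd, Fin.sum_univ_castSucc, if_neg (by simp; omega), add_zero]
  rfl

lemma tl_mono (k : ℕ) {x y : V m} (h : ∀ j : Fin m, m ≤ j.1 + k → x j ≤ y j) : tl k x ≤ tl k y :=
  sum_le_sum fun j _ => by split_ifs with hj; exacts [h j hj, le_rfl]
lemma tl'_mono (k : ℕ) {x y : V m} (h : ∀ j : Fin m, j.1 + k < m → x j ≤ y j) :
    tl' k x ≤ tl' k y :=
  sum_le_sum fun j _ => by split_ifs with hj; exacts [h j hj, le_rfl]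
lemma hd_mono (k : ℕ) {x y : V m} (h : x ≤ y) : hd k x ≤ hd k y :=
  sum_le_sum fun j _ => by split_ifs; exacts [h j, le_rfl]
lemma tl_add (k : ℕ) (x y : V m) : tl k (x + y) = tl k x + tl k y := by
  rw [tl, tl, tl, ← sum_add_distrib]
  exact sum_congr rfl fun j _ => by split_ifs <;> simp
lemma tl_sub (k : ℕ) (x y : V m) : tl k (x - y) = tl k x - tl k y := by
  rw [tl, tl, tl, ← sum_sub_distrib]
  exact sum_congr rfl fun j _ => by split_ifs <;> simp
lemma hd_add (k : ℕ) (x y : V m) : hd k (x + y) = hd k x + hd k y := by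
  rw [hd, hd, hd, ← sum_add_distrib]
  exact sum_congr rfl fun j _ => by split_ifs <;> simp
lemma tl_e (k : ℕ) (j : Fin m) : tl k (e j) = if m ≤ j.1 + k then 1 else 0 := by
  rw [tl, sum_eq_single j (fun i _ hi => by simp [e_ne hi]) (by simp)]; simp
lemma hd_e_le (k : ℕ) (j : Fin m) : hd k (e j) ≤ 1 := by
  rw [hd, sum_eq_single j (fun i _ hi => by simp [e_ne hi]) (by simp)]
  split_ifs <;> simp

/-- The majorisation condition. -/
def Maj (κ r : V m) : Prop := ∀ k, tl k κ ≤ hd k r

lemma maj_of_N : ∀ {m : ℕ} {Λ r : V m}, N Λ r ≠ 0 → Maj Λ r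
  | 0, _, _, _ => fun k => by simp [tl, hd]
  | d + 1, Λ, r, h => by
    rw [N_succ] at h
    obtain ⟨κ, h1, h2⟩ := exists_ne_zero_of_sum_ne_zero h
    have h3 := maj_of_N (right_ne_zero_of_mul h2)
    have h4 := ind_ne (left_ne_zero_of_mul h2)
    rintro (_ | k)
    · rw [tl, hd, sum_eq_zero fun j _ => if_neg (by omega)]; simp
    · have a1 := tl_add_tl' (k + 1) Λ
      have a2 := tl_add_tl' k κ
      have a3 : tl' k κ ≤ tl' k (Fin.init Λ) := tl'_mono k fun j _ => (mem_box.1 h1 j).2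
      have a4 := h3 k
      rw [tl'_succ] at a1
      rw [hd_succ]
      omega

lemma maj_of_le {κ r : V m} (h : ∀ k ≤ m, tl k κ ≤ hd k r) : Maj κ r := by
  intro k
  rcases le_total k m with hk | hk
  · exact h k hk
  · have h1 : tl k κ = tl m κ := sum_congr rfl fun j _ => if_congr (by omega) rfl rfl
    have h2 : hd k r = hd m r := sum_congr rfl fun j _ => if_congr (by omega) rfl rfl
    rw [h1, h2]; exact h m le_rfl

/-- A potential decreasing under down moves and dominance-up moves. -/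
def pot (κ : V m) : ℤ := ∑ j : Fin m, (j.1 + 1 : ℤ) * κ j

lemma pot_add (x y : V m) : pot (x + y) = pot x + pot y := by
  simp [pot, mul_add, sum_add_distrib]
lemma pot_sub (x y : V m) : pot (x - y) = pot x - pot y := by
  simp [pot, mul_sub, sum_sub_distrib]
lemma pot_e (j : Fin m) : pot (e j) = j.1 + 1 := by
  rw [pot, sum_eq_single j (fun i _ hi => by simp [e_ne hi]) (by simp)]; simp

lemma GT.down {κ : V d} {Λ : V (d + 1)} (h : GT κ Λ) {l : Fin d} (hl : Λ l.succ < κ l) :
    GT (κ - e l) Λ := by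
  intro j
  have := h j
  simp only [Pi.sub_apply, e_apply]
  split_ifs with hj
  · subst hj; omega
  · omega

lemma GT.up {κ : V d} {Λ : V (d + 1)} (h : GT κ Λ) {l : Fin d} (hl : κ l < Λ l.castSucc) :
    GT (κ + e l) Λ := by
  intro j
  have := h j
  simp only [Pi.add_apply, e_apply]
  split_ifs with hj
  · subst hj; omega
  · omega

lemma N_of_maj : ∀ {m : ℕ} {Λ r : V m}, Monotone r → Antitone Λ → Maj Λ r → N Λ r ≠ 0
  | 0, _, _, _, _, _ => by rw [N_zero]; exact one_ne_zero
  | d + 1, Λ, r, hr, hΛ, h => by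
    classical
    have h0 : GT (Fin.init Λ) Λ := fun j => ⟨hΛ (Fin.castSucc_le_succ j), le_rfl⟩
    have h1 : tot Λ - r 0 ≤ tot (Fin.init Λ) := by
      have a1 := tl_add_tl' 1 Λ
      have a2 := h 1
      have a3 := tl_add_tl' 0 (Fin.init Λ)
      have a4 : tl 0 (Fin.init Λ) = 0 := sum_eq_zero fun j _ => if_neg (by omega)
      rw [tl'_succ] at a1
      rw [hd_succ] at a2
      have a5 : hd 0 (Fin.tail r) = 0 := by simp [hd]
      omega
    obtain ⟨κ, hκ, hmin⟩ := exists_min_image ((box Λ).filter fun κ => tot Λ - r 0 ≤ tot κ) pot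
      ⟨_, mem_filter.2 ⟨mem_box.2 h0, h1⟩⟩
    simp only [mem_filter, mem_box] at hκ hmin
    have hM : Maj κ (Fin.tail r) := by
      refine maj_of_le fun k hk => ?_
      by_cases hc : ∀ j : Fin d, d ≤ j.1 + k → κ j ≤ Λ j.succ
      · calc tl k κ ≤ tl k (Fin.tail Λ) := tl_mono k hc
          _ = tl k Λ := (tl_tail hk Λ).symm
          _ ≤ hd k r := h k
          _ = hd k (Fin.init r) := hd_init hk r
          _ ≤ hd k (Fin.tail r) := hd_mono k fun j => hr (Fin.castSucc_le_succ j)
      · push Not at hc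
        obtain ⟨l, hl, hl'⟩ := hc
        have b1 : tot κ ≤ tot Λ - r 0 := by
          by_contra hlt
          have := hmin (κ - e l) ⟨hκ.1.down hl', by simp; omega⟩
          rw [pot_sub, pot_e] at this
          omega
        have b2 : tl' k (Fin.init Λ) ≤ tl' k κ := by
          refine tl'_mono k fun j hj => ?_
          by_contra hlt
          have hjl : l ≠ j := by intro h; subst h; omega
          have := hmin (κ + e j - e l) ⟨(hκ.1.up (not_le.1 hlt)).down (by
            simpa [e_ne hjl] using hl'), by simp; omega⟩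
          rw [pot_sub, pot_add, pot_e, pot_e] at this
          omega
        have a1 := tl_add_tl' (k + 1) Λ
        have a2 := tl_add_tl' k κ
        have a4 := h (k + 1)
        rw [tl'_succ] at a1
        rw [hd_succ] at a4
        omega
    have hN := N_of_maj (r := Fin.tail r) (fun a b hab => hr (Fin.succ_le_succ_iff.2 hab))
      hκ.1.anti' hM
    rw [N_succ]
    intro h0
    have := (sum_eq_zero_iff_of_nonneg fun _ _ => mul_nonneg (ind_nonneg _) (N_nonneg _ _)).1 h0 κ
      (mem_box.2 hκ.1)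
    rw [ind_pos hκ.2, one_mul] at this
    exact hN this

end Vale.Agent.P328
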