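import Vale.Agent.P328.TmC

/-! The sampler runs in polynomial time. -/

namespace Vale.Agent.P328

open Function Vale.Agent.TM

variable {α : Type} [Enc α]

theorem pt_tabN {m n : α → ℕ} {g : α → ℕ → ℕ → Bn} (hm : PT m) (hn : PT n)
    (hg : PT fun p : (α × ℕ) × ℕ => g p.1.1 p.1.2 p.2) : PT fun x => tabN (m x) (n x) (g x) :=
  PT.map (F := fun x a => (List.range (n x)).map fun b => g x a b)
    (PT.map (F := fun (p : α × ℕ) b => g p.1 p.2 b) hg (by fun_prop)) hm.range

@[fun_prop] theorem pt_gt {T : α → Tb} {a b : α → ℕ} (hT : PT T) (ha : PT a) (hb : PT b) :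
    PT fun x => gt (T x) (a x) (b x) := by
  unfold gt; fun_prop

@[fun_prop] theorem pt_un {i J a b : α → ℕ} {h : α → Bn} (hi : PT i) (hJ : PT J) (hh : PT h)
    (ha : PT a) (hb : PT b) : PT fun x => un (i x) (J x) (h x) (a x) (b x) := by
  unfold un; fun_prop

@[fun_prop] theorem pt_swL {m n s i i' J K : α → ℕ} {T : α → Tb} (hm : PT m) (hn : PT n)
    (hs : PT s) (hi : PT i) (hi' : PT i') (hJ : PT J) (hK : PT K) (hT : PT T) :
    PT fun x => swL (m x) (n x) (s x) (i x) (i' x) (J x) (K x) (T x) := by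
  unfold swL
  refine PT.cond (by fun_prop) (pt_tabN hm hn ?_) hT
  fun_prop

lemma pickL_le (p : ℕ) (l : List Bool) : pickL p l ≤ p :=
  List.foldlRecOn (motive := fun v => v ≤ p) _ _ (Nat.zero_le p)
    (fun _ _ _ _ => Nat.lt_succ_iff.1 (Nat.mod_lt _ (Nat.succ_pos p)))

@[fun_prop] theorem pt_pickL {p : α → ℕ} {l : α → List Bool} (hp : PT p) (hl : PT l) :
    PT fun x => pickL (p x) (l x) :=
  PT.foldl_inv (F := fun x (v : ℕ) (b : Bool) => (2 * v + b.toNat) % (p x + 1)) (by fun_prop) hl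
    (PT.const 0) (fun x v => v ≤ p x) (fun _ => Nat.zero_le _)
    (fun _ _ _ _ _ => Nat.lt_succ_iff.1 (Nat.mod_lt _ (Nat.succ_pos _))) hp.pb
    (fun x v h => by simp; omega)

@[fun_prop] theorem pt_stepL {m n p : α → ℕ} {T : α → Tb} {l : α → List Bool} (hm : PT m)
    (hn : PT n) (hp : PT p) (hT : PT T) (hl : PT l) :
    PT fun x => stepL (m x) (n x) (p x) (T x) (l x) := by
  unfold stepL; fun_prop

/-- Shape and size invariant of tables. -/
def Bd (L E : ℕ) (T : Tb) : Prop :=
  T.length ≤ L ∧ ∀ row ∈ T, row.length ≤ L ∧ ∀ y ∈ row, y.v < 2 ^ E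

lemma Bd.mono {L E E' : ℕ} {T : Tb} (h : Bd L E T) (hE : E ≤ E') : Bd L E' T :=
  ⟨h.1, fun row hr => ⟨(h.2 row hr).1, fun y hy =>
    ((h.2 row hr).2 y hy).trans_le (Nat.pow_le_pow_right (by omega) hE)⟩⟩

lemma Bd.sz_le {L E : ℕ} {T : Tb} (h : Bd L E T) : sz T ≤ L * (L * (4 * E + 2) + 2) + 1 := by
  have h1 := sz_list_le (l := T) (B := L * (4 * E + 2) + 1) (fun row hr => by
    have h2 := sz_list_le (l := row) (B := 4 * E + 1)
      (fun y hy => sz_Bn_le ((h.2 row hr).2 y hy))
    have h3 : row.length * (4 * E + 1 + 1) ≤ L * (4 * E + 2) :=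
      Nat.mul_le_mul_right _ (h.2 row hr).1
    omega)
  have h3 : T.length * (L * (4 * E + 2) + 1 + 1) ≤ L * (L * (4 * E + 2) + 2) :=
    Nat.mul_le_mul_right _ h.1
  omega

lemma bd_self (T : Tb) : Bd (sz T) (sz T) T :=
  ⟨length_le_sz T, fun row hr => ⟨(length_le_sz row).trans (sz_le_of_mem hr), fun y hy =>
    (lt_pow_sz y).trans_le (Nat.pow_le_pow_right (by omega)
      ((sz_le_of_mem hy).trans (sz_le_of_mem hr)))⟩⟩

lemma Bd.gt_lt {L E : ℕ} {T : Tb} (h : Bd L E T) (a b : ℕ) : (gt T a b).v < 2 ^ E := by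
  unfold gt
  rw [List.getD_eq_getElem?_getD, List.getD_eq_getElem?_getD]
  cases h1 : T[a]? with
  | none => simp
  | some row =>
    simp only [Option.getD_some]
    cases h2 : row[b]? with
    | none => simp
    | some y => exact (h.2 row (List.mem_of_getElem? h1)).2 y (List.mem_of_getElem? h2)

lemma bd_tabN {L E m n : ℕ} {g : ℕ → ℕ → Bn} (hm : m ≤ L) (hn : n ≤ L)
    (hg : ∀ a b, (g a b).v < 2 ^ E) : Bd L E (tabN m n g) := by
  refine ⟨by simpa [tabN] using hm, fun row hr => ?_⟩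
  obtain ⟨a, -, rfl⟩ := List.mem_map.1 hr
  refine ⟨by simpa using hn, fun y hy => ?_⟩
  obtain ⟨b, -, rfl⟩ := List.mem_map.1 hy
  exact hg a b

lemma un_le (i J s a b : ℕ) : (un i J (Bn.pw s) a b).v ≤ 2 ^ s := by
  unfold un
  cases (decide (a = i) && decide (b = J)) <;> simp [Bn.pw]

lemma Bd.swL {L E m n s : ℕ} {T : Tb} (h : Bd L E T) (hm : m ≤ L) (hn : n ≤ L) (hs : s ≤ E)
    (i i' J K : ℕ) : Bd L (E + 2) (swL m n s i i' J K T) := by
  unfold P328.swL
  generalize ((decide (i < m) && decide (i' < m) && decide (J < n) && decide (K < n)) &&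
      (decide (i ≠ i') && decide (J ≠ K) && !(gt T i K).lt (Bn.pw s) &&
        !(gt T i' J).lt (Bn.pw s))) = c
  cases c
  · exact h.mono (by omega)
  · refine bd_tabN hm hn (fun a b => ?_)
    have h1 := h.gt_lt a b
    have h2 := un_le i J s a b
    have h3 := un_le i' K s a b
    have h4 : 2 ^ s ≤ 2 ^ E := Nat.pow_le_pow_right (by omega) hs
    simp only [Bn.add, Bn.sub, pow_succ]
    omega

lemma Bd.stepL {L E m n p : ℕ} {T : Tb} (h : Bd L E T) (hm : m ≤ L) (hn : n ≤ L) (hp : p ≤ E)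
    (l : List Bool) : Bd L (E + 2) (stepL m n p T l) := by
  unfold P328.stepL
  cases l.getD (5 * (p + 1)) false
  · exact h.mono (by omega)
  · exact h.swL hm hn ((pickL_le _ _).trans hp) _ _ _ _

lemma bd_iter {L E m n p : ℕ} {T : Tb} (h : Bd L E T) (hm : m ≤ L) (hn : n ≤ L) (hp : p ≤ E)
    (l : List Bool) (k : ℕ) : Bd L (E + 2 * k) ((runS m n p)^[k] (T, l)).1 ∧
      sz ((runS m n p)^[k] (T, l)).2 ≤ sz l := by
  induction k with
  | zero => exact ⟨h, le_rfl⟩
  | succ k ih =>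
    rw [iterate_succ_apply']
    exact ⟨ih.1.stepL hm hn (by omega) _, (sz_drop_le _ _).trans ih.2⟩

theorem pt_run {m n p t : α → ℕ} {T : α → Tb} {l : α → List Bool} (hm : PT m)
    (hn : PT n) (hp : PT p) (ht : PT t) (hT : PT T) (hl : PT l) :
    PT fun x => (runS (m x) (n x) (p x))^[t x] (T x, l x) := by
  have hL : PB fun x => sz (T x) + m x + n x + p x :=
    ((hT.pb.add hm.pb_nat).add hn.pb_nat).add hp.pb_nat
  obtain ⟨P, hP⟩ := ((hL.mul ((hL.mul (((PB.const 4).mul (hL.add ((PB.const 2).mul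
    ht.pb_nat))).add (PB.const 2))).add (PB.const 2))).add hl.pb).add (PB.const 2)
  refine PT.iterate (F := fun x s => runS (m x) (n x) (p x) s) (by unfold runS; fun_prop) ht
    (hT.pair hl) ⟨P, fun x k hk => le_trans ?_ (hP x)⟩
  have h0 : Bd (sz (T x) + m x + n x + p x) (sz (T x) + m x + n x + p x) (T x) := by
    have h := (bd_self (T x)).mono (E' := sz (T x) + m x + n x + p x) (by omega)
    exact ⟨h.1.trans (by omega), fun row hr => ⟨(h.2 row hr).1.trans (by omega), (h.2 row hr).2⟩⟩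
  obtain ⟨h1, h2⟩ := bd_iter (m := m x) (n := n x) (p := p x) h0 (by omega) (by omega) (by omega)
    (l x) k
  have h3 := (h1.mono (E' := sz (T x) + m x + n x + p x + 2 * t x) (by omega)).sz_le
  change sz ((runS (m x) (n x) (p x))^[k] (T x, l x)) ≤ _
  rw [sz_prod]
  beta_reduce
  omega

theorem pt_startL {R C : α → List Bn} (hR : PT R) (hC : PT C) :
    PT fun x => startL (R x) (C x) := by
  unfold startL
  refine pt_tabN hR.length hC.length ?_
  fun_prop

theorem pt_outL {T : α → Tb} (hT : PT T) : PT fun x => outL (T x) := by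
  unfold outL
  fun_prop

theorem pt_full : PT full := by
  have h1 : PT fun w : List Bool => ((rest (rest w)).dropWhile fun b => b).tail := by fun_prop
  have h2 : PT fun w : List Bool => nums w := by fun_prop
  have h3 : PT fun w : List Bool => nums (rest w) := by fun_prop
  exact pt_outL (pt_run h2.length h3.length ((PT.id.length.sub h1.length).sub (PT.const 1))
    h1.length (pt_startL h2 h3) h1).fst

/-- The sampler is computed by a polynomial-time machine. -/
theorem machine : ∃ M : Turing.TM2ComputableInPolyTime Input.enc id (fun x => encTable (out x)),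
    ∀ k, Finite (M.tm.Γ k) :=
  raw_machine Input.enc _ pt_full full_enc

end Vale.Agent.P328
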