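import Vale.Agent.TM.PT

/-! Raw bit strings as input and output of polynomial-time functions; binary numbers. -/

namespace Vale.Agent.P328

open Turing Function Vale.Agent.TM

def rawIn : Cmd := .loop 0 (.test 0 (.seq (.pop 0) (.push 2 true)) (.seq (.pop 0) (.push 2 false)))

lemma rawIn_exec : ∀ (l a : List Bool),
    Exec rawIn (st l [] a []) (st [] [] (l.reverse ++ a) []) (l.length + 1)
  | [], a => Exec.loop0 rfl
  | x :: l, a => by
    have h1 := (pop0 x l [] a []).seq (push2 x _ _ _ _)
    have h2 := rawIn_exec l (x :: a)
    rw [List.reverse_cons, List.append_assoc]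
    cases x with
    | true => exact (Exec.loop1 (by simp) (Exec.testT (by simp) h1) h2).mono (by simp)
    | false => exact (Exec.loop1 (by simp) (Exec.testF (by simp) h1) h2).mono (by simp)

def rawOut : Cmd := .loop 0 (.test 0
  (.seq (.pop 0) (.test 0
    (.seq (.pop 0) (.seq (.pop 0) (.seq (.pop 0) (.push 2 true))))
    (.seq (.pop 0) (.push 2 false))))
  (.pop 0))

lemma rawOut_exec : ∀ (l a : List Bool),
    Exec rawOut (st (bits l) [] a []) (st [] [] (l.reverse ++ a) []) (l.length + 2)
  | [], a => by
    have h1 : Exec (.pop 0) (st [false] [] a []) (st [] [] a []) 0 := pop0 _ _ _ _ _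
    have h2 : Exec rawOut (st [] [] a []) (st [] [] a []) 1 := Exec.loop0 rfl
    exact (Exec.loop1 (by simp [bits, Tr.code]) (Exec.testF (by simp [bits, Tr.code]) h1) h2).mono
      (by simp)
  | true :: l, a => by
    have h1 := (pop0 true (true :: false :: false :: bits l) [] a []).seq
      (Exec.testT (k := 0) (q := .seq (.pop 0) (.push 2 false)) (by simp)
        ((pop0 true _ _ _ _).seq ((pop0 false _ _ _ _).seq ((pop0 false _ _ _ _).seq
          (push2 true _ _ _ _)))))
    have h2 := rawOut_exec l (true :: a)
    rw [List.reverse_cons, List.append_assoc]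
    exact (Exec.loop1 (by simp [bits, Tr.code]) (Exec.testT (by simp [bits, Tr.code]) h1) h2).mono
      (by simp)
  | false :: l, a => by
    have h1 := (pop0 true (false :: bits l) [] a []).seq
      (Exec.testF (k := 0) (p := .seq (.pop 0) (.seq (.pop 0) (.seq (.pop 0) (.push 2 true))))
        (by simp)
        ((pop0 false _ _ _ _).seq (push2 false _ _ _ _)))
    have h2 := rawOut_exec l (false :: a)
    rw [List.reverse_cons, List.append_assoc]
    exact (Exec.loop1 (by simp [bits, Tr.code]) (Exec.testT (by simp [bits, Tr.code]) h1) h2).mono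
      (by simp)

lemma sz_bools (l : List Bool) : sz l ≤ 4 * l.length + 1 := by
  have := sz_list_le (l := l) (B := 3) (fun a _ => sz_bool_le a)
  omega

/-- A polynomial-time function on bit strings is computed on raw strings. -/
theorem raw_machine {ι : Type} (e : ι → List Bool) (f : ι → List Bool)
    {F : List Bool → List Bool} (h : PT F) (hF : ∀ x, F (e x) = f x) :
    ∃ M : TM2ComputableInPolyTime e id f, ∀ k, Finite (M.tm.Γ k) := by
  obtain ⟨Q, hQ⟩ := h.size
  unfold PT at h
  obtain ⟨p, t, ⟨P, hP⟩, h⟩ := h
  let c : Cmd := .seq rawIn (.seq (.push 0 false) (.seq codeLoop (.seq p (.seq rawOut putA))))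
  let L : Polynomial ℕ := Polynomial.C 4 * Polynomial.X + 1
  have hc : ∀ l : List Bool, Exec c (st l [] [] []) (st (F l) [] [] [])
      ((L + L + P.comp L + Q.comp L + Q.comp L + Polynomial.C 5).eval l.length) := by
    intro l
    have h1 := rawIn_exec l []
    have h2 := codeLoop_exec (l.reverse ++ []) [] []
    simp only [List.append_nil, List.reverse_reverse, List.length_reverse] at h1 h2
    have h3 := h l []
    simp only [List.append_nil] at h3
    have h4 := rawOut_exec (F l) []
    have h5 := putA_exec [] [] ((F l).reverse ++ []) []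
    simp only [List.append_nil, List.reverse_reverse, List.length_reverse] at h4 h5
    refine (h1.seq ((push0 false _ _ _ _).seq (h2.seq (h3.seq (h4.seq h5))))).mono ?_
    have a1 := (hP l).trans (poly_mono P (sz_bools l))
    have a2 := ((length_le_sz (F l)).trans (hQ l)).trans (poly_mono Q (sz_bools l))
    simp only [L, Polynomial.eval_add, Polynomial.eval_comp, Polynomial.eval_mul, Polynomial.eval_C,
      Polynomial.eval_X, Polynomial.eval_one]
    omega
  refine ⟨⟨⟨machine c c.bd 0 0, Equiv.refl _, Equiv.refl _⟩,
    L + L + P.comp L + Q.comp L + Q.comp L + Polynomial.C 5 + 1, fun x => ?_⟩,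
    fun k => (inferInstance : Finite Bool)⟩
  have h1 := hc (e x)
  rw [st_nil, st_nil, hF] at h1
  generalize hT : (L + L + P.comp L + Q.comp L + Q.comp L + Polynomial.C 5).eval (e x).length = T
    at h1
  have h2 := machine_outputs (R := c.bd) le_rfl (by omega) (by omega) h1
  have e1 : ∀ l : List Bool, List.map (Equiv.refl Bool).invFun l = l := fun l => List.map_id l
  rw [← e1 (e x), ← e1 (f x)] at h2
  rw [Polynomial.eval_add, Polynomial.eval_one, hT]
  exact h2.some

/-- Value of a bit string, least significant bit first. -/
def val (l : List Bool) : ℕ := l.foldr Nat.bit 0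

@[simp] lemma val_nil : val [] = 0 := rfl
lemma val_cons (b : Bool) (l : List Bool) : val (b :: l) = 2 * val l + b.toNat := by
  cases b <;> simp [val, Nat.bit]

lemma val_bits (n : ℕ) : val n.bits = n := by
  induction n using Nat.binaryRec' with
  | zero => simp
  | bit b n hn ih =>
    rw [Nat.bits_append_bit n b hn, val_cons, ih]
    cases b <;> simp [Nat.bit]

lemma val_head_tail (l : List Bool) : val l = 2 * val l.tail + (l.headD false).toNat := by
  cases l with
  | nil => simp
  | cons b l => simp [val_cons]

lemma val_snoc (l : List Bool) (b : Bool) : val (l ++ [b]) = val l + 2 ^ l.length * b.toNat := by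
  induction l with
  | nil => simp [val_cons]
  | cons a l ih => simp only [List.cons_append, val_cons, ih, List.length_cons]; ring

lemma val_lt (l : List Bool) : val l < 2 ^ l.length := by
  induction l with
  | nil => simp
  | cons a l ih =>
    have : a.toNat ≤ 1 := Bool.toNat_le a
    simp only [val_cons, List.length_cons, pow_succ]; omega

/-- Remove leading zeros. -/
def nrm (l : List Bool) : List Bool :=
  l.reverse.foldl (fun acc b => bif acc.isEmpty && !b then [] else b :: acc) []

lemma nrm_eq (l : List Bool) : nrm l = (val l).bits := by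
  unfold nrm
  rw [List.foldl_reverse]
  induction l with
  | nil => simp
  | cons b l ih =>
    rw [List.foldr_cons, ih]
    by_cases h0 : val l = 0
    · cases b <;> simp [val_cons, h0]
    · have hne : (val l).bits ≠ [] := by
        intro h
        apply h0
        rw [← val_bits (val l), h]; rfl
      have he : (val l).bits.isEmpty = false := by simpa using hne
      have := Nat.bits_append_bit (val l) b (fun h => absurd h h0)
      rw [he, show val (b :: l) = Nat.bit b (val l) from rfl, this]
      simp

/-- Natural numbers coded in binary. -/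
structure Bn where
  v : ℕ

instance instEncBn : Enc Bn := ⟨fun x => Enc.enc x.v.bits, fun x y h => by
  have h1 : x.v.bits = y.v.bits := Enc.inj h
  have h2 : x.v = y.v := by rw [← val_bits x.v, h1, val_bits]
  cases x; cases y; simp_all⟩

lemma sz_Bn (y : Bn) : sz y = sz y.v.bits := rfl

lemma sz_Bn_le {y : Bn} {e : ℕ} (h : y.v < 2 ^ e) : sz y ≤ 4 * e + 1 := by
  have h1 := sz_bools y.v.bits
  have h2 := Nat.size_le.2 h
  rw [Nat.size_eq_bits_len] at h1
  rw [sz_Bn]; omega

lemma lt_pow_sz (y : Bn) : y.v < 2 ^ sz y := by
  have h1 := length_le_sz y.v.bits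
  rw [Nat.size_eq_bits_len] at h1
  exact Nat.size_le.1 h1

/-- State of the ripple adder and subtractor. -/
abbrev AS := List Bool × List Bool × Bool × List Bool

def addS (s : AS) : AS :=
  (s.1.tail, s.2.1.tail,
    (bif s.2.2.1 then (s.1.headD false || s.2.1.headD false)
      else (s.1.headD false && s.2.1.headD false)),
    s.2.2.2 ++ [bif s.2.2.1 then (bif s.1.headD false then s.2.1.headD false else !s.2.1.headD false)
      else (bif s.1.headD false then !s.2.1.headD false else s.2.1.headD false)])

lemma addS_inv (s : AS) :
    val (addS s).2.2.2 + 2 ^ (addS s).2.2.2.length *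
        (val (addS s).1 + val (addS s).2.1 + (addS s).2.2.1.toNat) =
      val s.2.2.2 + 2 ^ s.2.2.2.length * (val s.1 + val s.2.1 + s.2.2.1.toNat) := by
  obtain ⟨x, y, c, acc⟩ := s
  simp only [addS, val_snoc, List.length_append, List.length_singleton]
  rw [val_head_tail x, val_head_tail y]
  generalize x.headD false = p
  generalize y.headD false = q
  cases p <;> cases q <;> cases c <;> simp <;> ring

lemma addS_iter (k : ℕ) (x y : List Bool) :
    (addS^[k] (x, y, false, [])).2.2.2.length = k ∧
    val (addS^[k] (x, y, false, [])).2.2.2 + 2 ^ k *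
      (val (addS^[k] (x, y, false, [])).1 + val (addS^[k] (x, y, false, [])).2.1 +
        (addS^[k] (x, y, false, [])).2.2.1.toNat) = val x + val y := by
  induction k with
  | zero => simp
  | succ k ih =>
    rw [iterate_succ_apply']
    have h := addS_inv (addS^[k] (x, y, false, []))
    have hl : (addS (addS^[k] (x, y, false, []))).2.2.2.length = k + 1 := by
      simp only [addS, List.length_append, List.length_singleton, ih.1]
    rw [hl, ih.1, ih.2] at h
    exact ⟨hl, h⟩

lemma addS_val (x y : List Bool) :
    val (addS^[(x ++ y ++ [false]).length] (x, y, false, [])).2.2.2 = val x + val y := by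
  have h := (addS_iter (x ++ y ++ [false]).length x y).2
  have hx := val_lt x
  have hy := val_lt y
  have h1 : 2 ^ x.length ≤ 2 ^ (x.length + y.length) := Nat.pow_le_pow_right (by omega) (by omega)
  have h2 : 2 ^ y.length ≤ 2 ^ (x.length + y.length) := Nat.pow_le_pow_right (by omega) (by omega)
  have h3 : 2 ^ (x ++ y ++ [false]).length = 2 * 2 ^ (x.length + y.length) := by
    simp [pow_succ]; ring
  generalize (val (addS^[(x ++ y ++ [false]).length] (x, y, false, [])).1 +
    val (addS^[(x ++ y ++ [false]).length] (x, y, false, [])).2.1 +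
        (addS^[(x ++ y ++ [false]).length] (x, y, false, [])).2.2.1.toNat) = z at h
  rcases Nat.eq_zero_or_pos z with rfl | hz
  · simpa using h
  · have := Nat.le_mul_of_pos_right (2 ^ (x ++ y ++ [false]).length) hz
    omega

def subS (s : AS) : AS :=
  (s.1.tail, s.2.1.tail,
    (bif s.2.2.1 then (!s.1.headD false || s.2.1.headD false)
      else (!s.1.headD false && s.2.1.headD false)),
    s.2.2.2 ++ [bif s.2.2.1 then (bif s.1.headD false then s.2.1.headD false else !s.2.1.headD false)
      else (bif s.1.headD false then !s.2.1.headD false else s.2.1.headD false)])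

lemma subS_inv (s : AS) :
    (val (subS s).2.2.2 : ℤ) + 2 ^ (subS s).2.2.2.length *
        ((val (subS s).1 : ℤ) - val (subS s).2.1 - (subS s).2.2.1.toNat) =
      val s.2.2.2 + 2 ^ s.2.2.2.length * ((val s.1 : ℤ) - val s.2.1 - s.2.2.1.toNat) := by
  obtain ⟨x, y, c, acc⟩ := s
  simp only [subS, val_snoc, List.length_append, List.length_singleton]
  rw [val_head_tail x, val_head_tail y]
  generalize x.headD false = p
  generalize y.headD false = q
  cases p <;> cases q <;> cases c <;> simp <;> ring

lemma subS_iter (k : ℕ) (x y : List Bool) :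
    (subS^[k] (x, y, false, [])).2.2.2.length = k ∧
    (subS^[k] (x, y, false, [])).1 = x.drop k ∧ (subS^[k] (x, y, false, [])).2.1 = y.drop k ∧
    (val (subS^[k] (x, y, false, [])).2.2.2 : ℤ) + 2 ^ k *
      ((val (subS^[k] (x, y, false, [])).1 : ℤ) - val (subS^[k] (x, y, false, [])).2.1 -
        (subS^[k] (x, y, false, [])).2.2.1.toNat) = val x - val y := by
  induction k with
  | zero => simp
  | succ k ih =>
    rw [iterate_succ_apply']
    have h := subS_inv (subS^[k] (x, y, false, []))
    have hl : (subS (subS^[k] (x, y, false, []))).2.2.2.length = k + 1 := by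
      simp only [subS, List.length_append, List.length_singleton, ih.1]
    rw [hl, ih.1, ih.2.2.2] at h
    refine ⟨hl, ?_, ?_, h⟩
    · simp only [subS, ih.2.1, List.tail_drop]
    · simp only [subS, ih.2.2.1, List.tail_drop]

lemma subS_val (x y : List Bool) :
    (subS^[(x ++ y).length] (x, y, false, [])).2.2.1 = decide (val x < val y) ∧
    (val y ≤ val x → val (subS^[(x ++ y).length] (x, y, false, [])).2.2.2 = val x - val y) := by
  obtain ⟨h1, h2, h3, h4⟩ := subS_iter (x ++ y).length x y
  rw [h2, h3, List.drop_of_length_le (by simp), List.drop_of_length_le (by simp)] at h4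
  have h5 := val_lt (subS^[(x ++ y).length] (x, y, false, [])).2.2.2
  rw [h1] at h5
  have h6 : ((val (subS^[(x ++ y).length] (x, y, false, [])).2.2.2 : ℕ) : ℤ) <
      2 ^ (x ++ y).length := by exact_mod_cast h5
  generalize (subS^[(x ++ y).length] (x, y, false, [])).2.2.1 = c at h4 ⊢
  generalize val (subS^[(x ++ y).length] (x, y, false, [])).2.2.2 = w at h4 h6 ⊢
  generalize (2 : ℤ) ^ (x ++ y).length = Z at h4 h6
  cases c
  · simp at h4
    constructor
    · simp; omega
    · omega
  · simp at h4
    constructor
    · simp; omega
    · omega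

lemma val_pow (s : ℕ) : val (List.replicate s false ++ [true]) = 2 ^ s := by
  rw [val_snoc]
  have : val (List.replicate s false) = 0 := by
    induction s with
    | zero => rfl
    | succ s ih => rw [List.replicate_succ, val_cons, ih]; rfl
  simp [this]

end Vale.Agent.P328
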