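import Vale.Agent.TM.Poly
import Vale.Agent.P328.TmA

/-! Binary arithmetic is polynomial-time. -/

namespace Vale.Agent.P328

open Function Vale.Agent.TM

variable {α : Type} [Enc α]

def Bn.bs (x : Bn) : List Bool := x.v.bits
def Bn.ofL (l : List Bool) : Bn := ⟨val l⟩
def Bn.add (x y : Bn) : Bn := ⟨x.v + y.v⟩
def Bn.sub (x y : Bn) : Bn := ⟨x.v - y.v⟩
def Bn.lt (x y : Bn) : Bool := decide (x.v < y.v)
def Bn.pw (s : ℕ) : Bn := ⟨2 ^ s⟩
def Bn.mn (x y : Bn) : Bn := ⟨min x.v y.v⟩
def Bn.mx (x y : Bn) : Bn := ⟨max x.v y.v⟩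

@[fun_prop] theorem pt_bs {f : α → Bn} (hf : PT f) : PT fun x => (f x).bs :=
  hf.of_enc (fun _ => rfl)

theorem pt_nrm {l : α → List Bool} (hl : PT l) : PT fun x => nrm (l x) :=
  PT.foldl_add (F := fun _ (acc : List Bool) b => bif acc.isEmpty && !b then [] else b :: acc)
    (by fun_prop) hl.reverse (PT.const []) (PB.const 4) (fun x s a _ => by
      have := sz_bool_le a
      have := sz_pos s
      cases (s.isEmpty && !a) <;> simp <;> omega)

@[fun_prop] theorem pt_ofL {l : α → List Bool} (hl : PT l) : PT fun x => Bn.ofL (l x) :=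
  (pt_nrm hl).of_enc (fun x => by rw [nrm_eq]; rfl)

lemma sz_AS (s : AS) : sz s = sz s.1 + sz s.2.1 + sz s.2.2.1 + sz s.2.2.2 + 3 := by
  obtain ⟨a, b, c, d⟩ := s
  simp; omega

lemma sz_step {s t : AS} (h1 : t.1 = s.1.tail) (h2 : t.2.1 = s.2.1.tail) {b : Bool}
    (h3 : t.2.2.2 = s.2.2.2 ++ [b]) : sz t ≤ sz s + 6 := by
  have a1 := sz_le_of_sublist (List.tail_sublist s.1)
  have a2 := sz_le_of_sublist (List.tail_sublist s.2.1)
  have a3 := sz_bool_le t.2.2.1
  have a4 := sz_pos s.2.2.1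
  have a5 := sz_append s.2.2.2 [b]
  have a6 := sz_bool_le b
  rw [sz_AS, sz_AS, h1, h2, h3]
  simp at a5
  omega

@[fun_prop] theorem pt_add {f g : α → Bn} (hf : PT f) (hg : PT g) :
    PT fun x => (f x).add (g x) := by
  have h := PT.iterate_add (F := fun _ s => addS s) (by unfold addS; fun_prop)
    (n := fun x => ((f x).bs ++ (g x).bs ++ [false]).length) (by fun_prop)
    (b := fun x => ((f x).bs, (g x).bs, false, ([] : List Bool))) (by fun_prop) (PB.const 6)
    (fun x s => sz_step rfl rfl rfl)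
  refine (pt_ofL h.snd.snd.snd).of_eq (fun x => ?_)
  simp only [Bn.ofL, Bn.add, addS_val, Bn.bs, val_bits]

theorem pt_subS {f g : α → Bn} (hf : PT f) (hg : PT g) :
    PT fun x => subS^[((f x).bs ++ (g x).bs).length] ((f x).bs, (g x).bs, false, []) :=
  PT.iterate_add (F := fun _ s => subS s) (by unfold subS; fun_prop)
    (n := fun x => ((f x).bs ++ (g x).bs).length) (by fun_prop)
    (b := fun x => ((f x).bs, (g x).bs, false, ([] : List Bool))) (by fun_prop) (PB.const 6)
    (fun x s => sz_step rfl rfl rfl)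

@[fun_prop] theorem pt_lt {f g : α → Bn} (hf : PT f) (hg : PT g) :
    PT fun x => (f x).lt (g x) :=
  (pt_subS hf hg).snd.snd.fst.of_eq (fun x => by
    rw [(subS_val _ _).1]; simp only [Bn.lt, Bn.bs, val_bits])

@[fun_prop] theorem pt_sub {f g : α → Bn} (hf : PT f) (hg : PT g) :
    PT fun x => (f x).sub (g x) := by
  refine (PT.cond (pt_lt hf hg) (PT.const ⟨0⟩) (pt_ofL (pt_subS hf hg).snd.snd.snd)).of_eq
    (fun x => ?_)
  by_cases h : (f x).v < (g x).v
  · simp only [Bn.lt, h, decide_true, cond_true, Bn.sub]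
    congr 1; omega
  · have h2 := (subS_val (f x).bs (g x).bs).2 (by simp only [Bn.bs, val_bits]; omega)
    simp only [Bn.lt, h, decide_false, cond_false, Bn.sub, Bn.ofL, h2]
    simp only [Bn.bs, val_bits]

@[fun_prop] theorem pt_pw {s : α → ℕ} (hs : PT s) : PT fun x => Bn.pw (s x) :=
  (pt_ofL (l := fun x => List.replicate (s x) false ++ [true]) (by fun_prop)).of_eq
    (fun x => by simp only [Bn.ofL, Bn.pw, val_pow])

@[fun_prop] theorem pt_mn {f g : α → Bn} (hf : PT f) (hg : PT g) :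
    PT fun x => (f x).mn (g x) :=
  (PT.cond (pt_lt hf hg) hf hg).of_eq (fun x => by
    by_cases h : (f x).v < (g x).v
    · simp only [Bn.lt, h, decide_true, cond_true, Bn.mn, min_eq_left h.le]
    · simp only [Bn.lt, h, decide_false, cond_false, Bn.mn, min_eq_right (not_lt.1 h)])

@[fun_prop] theorem pt_mx {f g : α → Bn} (hf : PT f) (hg : PT g) :
    PT fun x => (f x).mx (g x) :=
  (PT.cond (pt_lt hf hg) hg hf).of_eq (fun x => by
    by_cases h : (f x).v < (g x).v
    · simp only [Bn.lt, h, decide_true, cond_true, Bn.mx, max_eq_right h.le]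
    · simp only [Bn.lt, h, decide_false, cond_false, Bn.mx, max_eq_left (not_lt.1 h)])

/-- Sum of a list of binary numbers. -/
def bsum (l : List Bn) : Bn := ⟨(l.map Bn.v).sum⟩

lemma foldl_bsum (l : List Bn) (b : Bn) : l.foldl Bn.add b = ⟨b.v + (l.map Bn.v).sum⟩ := by
  induction l generalizing b with
  | nil => simp
  | cons a l ih => rw [List.foldl_cons, ih]; simp [Bn.add, add_assoc]

lemma bsum_lt (l : List Bn) : (l.map Bn.v).sum < 2 ^ sz l := by
  induction l with
  | nil => simp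
  | cons a l ih =>
    have h := lt_pow_sz a
    have h1 : 2 ^ sz a ≤ 2 ^ (sz a + sz l) := Nat.pow_le_pow_right (by omega) (by omega)
    have h2 : 2 ^ sz l ≤ 2 ^ (sz a + sz l) := Nat.pow_le_pow_right (by omega) (by omega)
    simp only [List.map_cons, List.sum_cons, sz_cons, pow_succ]
    omega

@[fun_prop] theorem pt_bsum {l : α → List Bn} (hl : PT l) : PT fun x => bsum (l x) := by
  obtain ⟨P, hP⟩ := ((PB.const 4).mul hl.pb).add (PB.const 1)
  refine (PT.foldl (F := fun _ (s : Bn) a => s.add a) (by fun_prop) hl (PT.const ⟨0⟩)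
    ⟨P, fun x k => le_trans ?_ (hP x)⟩).of_eq (fun x => ?_)
  · have h1 := sz_take_le k (l x)
    have h2 : sz (((l x).take k).foldl Bn.add ⟨0⟩) ≤ 4 * sz ((l x).take k) + 1 := by
      rw [foldl_bsum]
      exact sz_Bn_le (by simpa only [zero_add] using bsum_lt _)
    exact h2.trans (by beta_reduce; omega)
  · have := foldl_bsum (l x) ⟨0⟩
    simp only [zero_add] at this
    exact this.symm

end Vale.Agent.P328
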