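import Vale.Agent.P328.TmB
import Vale.Agent.P328.Alg

/-! The sampler on lists of binary numbers. -/

namespace Vale.Agent.P328

open Function Vale.Agent.TM

/-! ### Parsing -/

/-- State of the parser: phase, current number, numbers read, remaining input. -/
abbrev PS := ℕ × List Bool × List (List Bool) × List Bool

def pStep (s : PS) (b : Bool) : PS :=
  if s.1 = 0 then (bif b then (1, s.2.1, s.2.2.1, s.2.2.2) else (3, s.2.1, s.2.2.1, s.2.2.2))
  else if s.1 = 1 then
    (bif b then (2, s.2.1, s.2.2.1, s.2.2.2) else (0, [], s.2.2.1 ++ [s.2.1], s.2.2.2))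
  else if s.1 = 2 then (1, s.2.1 ++ [b], s.2.2.1, s.2.2.2)
  else (s.1, s.2.1, s.2.2.1, s.2.2.2 ++ [b])

lemma p3 (w cur : List Bool) (acc : List (List Bool)) (rest : List Bool) :
    w.foldl pStep (3, cur, acc, rest) = (3, cur, acc, rest ++ w) := by
  induction w generalizing rest with
  | nil => simp
  | cons b w ih => rw [List.foldl_cons]; simp [pStep, ih]

lemma p1 (bs cur : List Bool) (acc : List (List Bool)) (w : List Bool) :
    (((bs.flatMap fun b => [true, b]) ++ [false]) ++ w).foldl pStep (1, cur, acc, []) =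
      w.foldl pStep (0, [], acc ++ [cur ++ bs], []) := by
  induction bs generalizing cur with
  | nil => simp [pStep]
  | cons b bs ih =>
    have := ih (cur ++ [b])
    simp only [List.flatMap_cons, List.cons_append, List.nil_append, List.foldl_cons,
      List.append_assoc] at this ⊢
    rw [← this]
    simp [pStep]

lemma p0 (l : List ℕ) (acc : List (List Bool)) (w : List Bool) :
    (encList l ++ w).foldl pStep (0, [], acc, []) = (3, [], acc ++ l.map Nat.bits, w) := by
  unfold encList
  induction l generalizing acc with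
  | nil => simp [pStep, p3]
  | cons a l ih =>
    have h1 := p1 a.bits [] acc (((l.flatMap fun a => true :: encNat a) ++ [false]) ++ w)
    rw [ih] at h1
    simp only [List.flatMap_cons, List.cons_append, List.foldl_cons, encNat,
      List.append_assoc] at h1 ⊢
    have : pStep (0, [], acc, []) true = (1, [], acc, []) := by simp [pStep]
    rw [this, h1]
    simp

def parse (w : List Bool) : PS := w.foldl pStep (0, [], [], [])

def nums (w : List Bool) : List Bn := (parse w).2.2.1.map Bn.ofL

def rest (w : List Bool) : List Bool := (parse w).2.2.2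

lemma nums_enc (l : List ℕ) (w : List Bool) : nums (encList l ++ w) = l.map Bn.mk := by
  rw [nums, parse, p0]
  simp [Bn.ofL, val_bits]

lemma rest_enc (l : List ℕ) (w : List Bool) : rest (encList l ++ w) = w := by
  rw [rest, parse, p0]

variable {α : Type} [Enc α]

lemma sz_PS (s : PS) : sz s = sz s.1 + sz s.2.1 + sz s.2.2.1 + sz s.2.2.2 + 3 := by
  obtain ⟨a, b, c, d⟩ := s
  simp; omega

theorem pt_parse {w : α → List Bool} (hw : PT w) : PT fun x => parse (w x) :=
  PT.foldl_add (F := fun _ s b => pStep s b) (by unfold pStep; fun_prop) hw (PT.const _)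
    (PB.const 6) (fun x s b _ => by
      obtain ⟨u, cur, acc, rs⟩ := s
      have a1 := sz_append acc [cur]
      have a2 := sz_append cur [b]
      have a3 := sz_append rs [b]
      unfold pStep
      simp only [sz_cons, sz_nil] at a1 a2 a3
      split_ifs <;> cases b <;> simp at a1 a2 a3 ⊢ <;> omega)

@[fun_prop] theorem pt_nums {w : α → List Bool} (hw : PT w) : PT fun x => nums (w x) := by
  have := pt_parse hw
  unfold nums
  fun_prop

@[fun_prop] theorem pt_rest {w : α → List Bool} (hw : PT w) : PT fun x => rest (w x) :=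
  (pt_parse hw).snd.snd.snd

/-! ### Tables -/

abbrev Tb := List (List Bn)

def tabN (m n : ℕ) (g : ℕ → ℕ → Bn) : Tb :=
  (List.range m).map fun a => (List.range n).map fun b => g a b

def gt (T : Tb) (a b : ℕ) : Bn := (T.getD a []).getD b ⟨0⟩

def un (i J : ℕ) (h : Bn) (a b : ℕ) : Bn := bif decide (a = i) && decide (b = J) then h else ⟨0⟩

def swL (m n s i i' J K : ℕ) (T : Tb) : Tb :=
  bif (decide (i < m) && decide (i' < m) && decide (J < n) && decide (K < n)) &&
      (decide (i ≠ i') && decide (J ≠ K) && !(gt T i K).lt (Bn.pw s) && !(gt T i' J).lt (Bn.pw s))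
  then tabN m n fun a b => ((((gt T a b).add (un i J (Bn.pw s) a b)).add
    (un i' K (Bn.pw s) a b)).sub (un i K (Bn.pw s) a b)).sub (un i' J (Bn.pw s) a b)
  else T

def pickL (p : ℕ) (l : List Bool) : ℕ := l.foldl (fun v b => (2 * v + b.toNat) % (p + 1)) 0

def stepL (m n p : ℕ) (T : Tb) (l : List Bool) : Tb :=
  bif l.getD (5 * (p + 1)) false then
    swL m n (pickL p (l.take (p + 1))) (pickL p ((l.drop (p + 1)).take (p + 1)))
      (pickL p ((l.drop (2 * (p + 1))).take (p + 1)))
      (pickL p ((l.drop (3 * (p + 1))).take (p + 1)))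
      (pickL p ((l.drop (4 * (p + 1))).take (p + 1))) T
  else T

def runS (m n p : ℕ) (s : Tb × List Bool) : Tb × List Bool :=
  (stepL m n p s.1 (s.2.take (5 * (p + 1) + 1)), s.2.drop (5 * (p + 1) + 1))

def startL (R C : List Bn) : Tb :=
  tabN R.length C.length fun a b =>
    ((bsum (R.take (a + 1))).mn (bsum (C.take (b + 1)))).sub
      ((bsum (R.take a)).mx (bsum (C.take b)))

def outL (T : Tb) : List Bool :=
  (T.flatten.flatMap fun y => true :: ((y.bs.flatMap fun b => [true, b]) ++ [false])) ++ [false]

/-! ### Correctness -/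

variable {m n : ℕ}

def ext (X : Fin m → Fin n → ℕ) (a b : ℕ) : Bn :=
  if h : a < m ∧ b < n then ⟨X ⟨a, h.1⟩ ⟨b, h.2⟩⟩ else ⟨0⟩

def tab (X : Fin m → Fin n → ℕ) : Tb := tabN m n (ext X)

lemma gt_tabN (g : ℕ → ℕ → Bn) (a b : ℕ) :
    gt (tabN m n g) a b = if a < m ∧ b < n then g a b else ⟨0⟩ := by
  unfold gt tabN
  by_cases ha : a < m
  · by_cases hb : b < n
    · simp [List.getD_eq_getElem?_getD, ha, hb]
    · simp [List.getD_eq_getElem?_getD, ha, hb]
  · simp [List.getD_eq_getElem?_getD, ha]

lemma gt_tab (X : Fin m → Fin n → ℕ) (a b : ℕ) : gt (tab X) a b = ext X a b := by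
  rw [tab, gt_tabN]
  split_ifs with h
  · rfl
  · simp only [ext, dif_neg h]

lemma tabN_congr {g g' : ℕ → ℕ → Bn} (h : ∀ a < m, ∀ b < n, g a b = g' a b) :
    tabN m n g = tabN m n g' := by
  unfold tabN
  refine List.map_congr_left (fun a ha => List.map_congr_left (fun b hb => ?_))
  exact h a (by simpa using ha) b (by simpa using hb)

lemma un_v (i : Fin m) (J : Fin n) (h : ℕ) (a : Fin m) (b : Fin n) :
    (un i J ⟨h⟩ a b).v = unit i J h a b := by
  simp only [un, unit, Fin.ext_iff]
  by_cases h1 : (a : ℕ) = i <;> by_cases h2 : (b : ℕ) = J <;> simp [h1, h2]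

lemma swL_tab (s i i' J K : ℕ) (X : Fin m → Fin n → ℕ) :
    swL m n s i i' J K (tab X) = tab (swN s i i' J K X) := by
  unfold swL swN
  by_cases h : i < m ∧ i' < m ∧ J < n ∧ K < n
  · rw [dif_pos h]
    obtain ⟨h1, h2, h3, h4⟩ := h
    have e1 : gt (tab X) i K = ⟨X ⟨i, h1⟩ ⟨K, h4⟩⟩ := by rw [gt_tab, ext, dif_pos ⟨h1, h4⟩]
    have e2 : gt (tab X) i' J = ⟨X ⟨i', h2⟩ ⟨J, h3⟩⟩ := by rw [gt_tab, ext, dif_pos ⟨h2, h3⟩]
    unfold sw
    rw [e1, e2]
    split_ifs with hc
    · obtain ⟨c1, c2, c3, c4⟩ := hc
      have d1 : i ≠ i' := fun e => c1 (Fin.ext e)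
      have d2 : J ≠ K := fun e => c2 (Fin.ext e)
      simp only [h1, h2, h3, h4, d1, d2, Bn.lt, Bn.pw, not_lt.2 c3, not_lt.2 c4, decide_true,
        decide_false, ne_eq, not_false_eq_true, Bool.and_self, Bool.not_false, cond_true]
      refine tabN_congr (fun a ha b hb => ?_)
      rw [gt_tab]
      simp only [ext, dif_pos (And.intro ha hb), Bn.add, Bn.sub, Pi.add_apply, Pi.sub_apply]
      rw [← un_v, ← un_v, ← un_v, ← un_v]
    · have : (decide (i ≠ i') && decide (J ≠ K) && !(Bn.mk (X ⟨i, h1⟩ ⟨K, h4⟩)).lt (Bn.pw s) &&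
          !(Bn.mk (X ⟨i', h2⟩ ⟨J, h3⟩)).lt (Bn.pw s)) = false := by
        rw [Bool.eq_false_iff]
        intro h5
        apply hc
        simp only [Bn.lt, Bn.pw, Bool.and_eq_true, decide_eq_true_eq, Bool.not_eq_true'] at h5
        exact ⟨fun e => h5.1.1.1 (congrArg Fin.val e), fun e => h5.1.1.2 (congrArg Fin.val e),
          not_lt.1 (of_decide_eq_false h5.1.2), not_lt.1 (of_decide_eq_false h5.2)⟩
      rw [this]
      simp
  · rw [dif_neg h]
    have : (decide (i < m) && decide (i' < m) && decide (J < n) && decide (K < n)) = false := by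
      rw [Bool.eq_false_iff]
      intro h5
      apply h
      simpa [and_assoc] using h5
    rw [this]
    simp

lemma stepL_tab (p : ℕ) (X : Fin m → Fin n → ℕ) (l : List Bool) :
    stepL m n p (tab X) l = tab (step (p + 1) X l) := by
  unfold stepL step
  cases l.getD (5 * (p + 1)) false
  · simp
  · simp only [cond_true, if_true, swL_tab]
    rfl

lemma runS_tab (p t : ℕ) (X : Fin m → Fin n → ℕ) (l : List Bool) :
    ((runS m n p)^[t] (tab X, l)).1 = tab (runN (p + 1) t X l) := by
  induction t generalizing X l with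
  | zero => rfl
  | succ t ih => rw [iterate_succ_apply, runS, stepL_tab, ih, runN]

lemma startL_eq (r : Fin m → ℕ) (c : Fin n → ℕ) :
    startL ((List.ofFn r).map Bn.mk) ((List.ofFn c).map Bn.mk) = tab (start r c) := by
  unfold startL tab
  rw [List.length_map, List.length_map, List.length_ofFn, List.length_ofFn]
  refine tabN_congr (fun a ha b hb => ?_)
  have e : ∀ l : List ℕ, (l.map Bn.mk).map Bn.v = l := fun l => by
    rw [List.map_map]; exact List.map_id l
  simp only [ext, dif_pos (And.intro ha hb), Bn.mn, Bn.mx, Bn.sub, bsum, start, pre,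
    ← List.map_take, e]

lemma outL_tab (X : Fin m → Fin n → ℕ) : outL (tab X) = encTable X := by
  have e : tab X = (List.ofFn fun i => List.ofFn (X i)).map (List.map Bn.mk) := by
    unfold tab tabN
    apply List.ext_getElem
    · simp
    · intro a h1 h2
      have ha : a < m := by simpa using h1
      apply List.ext_getElem
      · simp
      · intro b h3 h4
        have hb : b < n := by simpa using h3
        simp [ext, ha, hb]
  rw [outL, e, ← List.map_flatten, List.flatMap_map, encTable, encList]
  rfl

/-- The whole sampler on bit strings. -/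
def full (w : List Bool) : List Bool :=
  outL ((runS (nums w).length (nums (rest w)).length
      (w.length - ((rest (rest w)).dropWhile fun b => b).tail.length - 1))^[
      ((rest (rest w)).dropWhile fun b => b).tail.length]
    (startL (nums w) (nums (rest w)), ((rest (rest w)).dropWhile fun b => b).tail)).1

lemma full_enc (x : Input) : full x.enc = encTable (out x) := by
  obtain ⟨m, n, r, c, bal, k, l⟩ := x
  have e0 : Input.enc ⟨m, n, r, c, bal, k, l⟩ = encList (List.ofFn r) ++
      (encList (List.ofFn c) ++ (List.replicate k true ++ false :: l)) := by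
    simp [Input.enc, encInst]
  have e1 : ((List.replicate k true ++ false :: l).dropWhile fun b => b).tail = l := by
    induction k with
    | zero => simp
    | succ k ih => simpa [List.replicate_succ] using ih
  have e2 : (Input.enc ⟨m, n, r, c, bal, k, l⟩).length - l.length - 1 + 1 =
      (encInst r c k).length := by
    simp [Input.enc, encInst]
    omega
  unfold full
  rw [show rest (Input.enc ⟨m, n, r, c, bal, k, l⟩) = _ from by rw [e0, rest_enc],
    show nums (Input.enc ⟨m, n, r, c, bal, k, l⟩) = _ from by rw [e0, nums_enc], rest_enc,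
    nums_enc, e1, startL_eq, List.length_map, List.length_map, List.length_ofFn,
    List.length_ofFn, runS_tab, outL_tab, e2]
  rfl

end Vale.Agent.P328
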