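import Vale.Agent.P328.Col2

/-! Two-row shapes and the box inequality. -/

namespace Vale.Agent.P328

open Finset

variable {d : ℕ}

lemma tot_two (x : V 2) : tot x = x 0 + x 1 := Fin.sum_univ_two x

lemma le_two {x y : V 2} : x ≤ y ↔ x 0 ≤ y 0 ∧ x 1 ≤ y 1 := Fin.forall_fin_two

lemma e01 : e (0 : Fin 2) 1 = 0 := rfl
lemma e10 : e (1 : Fin 2) 0 = 0 := rfl

lemma K_one (κ x : V 1) : K 1 κ x = ind (κ 0 = x 0) := by
  have : box κ = {0} := by
    ext y; simp only [mem_box, mem_singleton]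
    exact iff_of_true (fun j => j.elim0) (Subsingleton.elim _ _)
  have h2 : tot κ = κ 0 := Fin.sum_univ_one κ
  rw [K_succ, this, sum_singleton, h2, tot_zero]
  simp only [K, mul_one]
  exact ind_congr (by omega)

lemma K_two (Λ w : V 2) : K 2 Λ w = ind (Λ 1 ≤ w 1 ∧ w 1 ≤ Λ 0 ∧ w 0 + w 1 = Λ 0 + Λ 1) := by
  have h1 : ∀ κ : V 1, ind (tot κ = tot Λ - w 0) * K 1 κ (Fin.tail w) =
      ind (κ = (fun _ => w 1) ∧ w 0 + w 1 = Λ 0 + Λ 1) := by
    intro κ
    rw [K_one, ← ind_and, tot_two]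
    refine ind_congr ?_
    have h2 : tot κ = κ 0 := Fin.sum_univ_one κ
    have h3 : Fin.tail w 0 = w 1 := rfl
    have h4 : κ = (fun _ => w 1) ↔ κ 0 = w 1 :=
      ⟨fun h => by rw [h], fun h => funext fun j => by rw [Subsingleton.elim j 0, h]⟩
    rw [h2, h3, h4]; omega
  rw [K_succ, sum_congr rfl fun κ _ => h1 κ, box_sum _ {fun _ => w 1} _
    fun k _ h => mem_singleton.2 (ind_ne h).1, sum_singleton, ← ind_and]
  refine ind_congr ?_
  simp only [GT, Fin.forall_fin_one, true_and, and_assoc]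
  rfl

lemma sum_two (l r : V 2) (h : l 0 ≤ r 0) (F : ℤ → ℝ) :
    ∑ w ∈ Dn r (tot l), K 2 l w * F (w 0) = ∑ a ∈ Icc (max (tot l - r 1) (l 1)) (l 0), F a := by
  classical
  refine sum_bij_ne_zero (fun w _ _ => w 0) (fun w hw hne => ?_) (fun a ha _ b hb _ hab => ?_)
    (fun a ha hne => ?_) fun w hw hne => ?_
  · have h1 := ind_ne (K_two l w ▸ left_ne_zero_of_mul hne)
    have h2 := (le_two.1 (mem_Dn.1 hw).1).2
    rw [mem_Icc, tot_two]; omega
  · have h1 := (mem_Dn.1 ha).2
    have h2 := (mem_Dn.1 hb).2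
    rw [tot_two] at h1 h2
    funext j; fin_cases j
    · exact hab
    · change a 1 = b 1
      omega
  · rw [mem_Icc, tot_two] at ha
    refine ⟨![a, tot l - a], mem_Dn.2 ⟨le_two.2 ?_, ?_⟩, ?_, rfl⟩
    · simp [tot_two]; omega
    · simp [tot_two]
    · rw [K_two, ind_pos (by simp [tot_two]; omega), one_mul]; exact hne
  · rw [K_two, ind_pos (ind_ne (K_two l w ▸ left_ne_zero_of_mul hne)), one_mul]

lemma N_two (l r : V 2) (h : l 0 ≤ r 0) (n : ℕ)
    (hn : (l 0 + 1 - max (tot l - r 1) (l 1)).toNat = n) : N l r = n := by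
  have := sum_two l r h fun _ => 1
  simp only [mul_one] at this
  rw [N, this, ← hn]; simp

lemma sum_AP (lo : ℤ) (A B C : ℝ) (n : ℕ) :
    ∑ a ∈ Icc lo (lo + n - 1), (A + B * (a - lo : ℝ) + C * (a - lo : ℝ) ^ 2) =
      A * n + B * (n * (n - 1) / 2) + C * (n * (n - 1) * (2 * n - 1) / 6) := by
  induction n with
  | zero => simp
  | succ n ih =>
    have : Icc lo (lo + (n + 1 : ℕ) - 1) = insert (lo + n) (Icc lo (lo + n - 1)) := by
      ext x; simp only [mem_Icc, mem_insert]; omega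
    rw [this, sum_insert (by simp), ih]
    push_cast; ring

lemma loc_two {Λ r : V 2} (hΛ : Λ 1 ≤ Λ 0) (hr : Λ 0 ≤ r 0) {v t : Fin 2 → ℝ}
    (bal : Bal Λ r v 0 t) : ∃ s, P1 Λ r 0 s ∧ P2 Λ r v t s ∧ ∑ i, t i ^ 2 * N Λ (r + e i) +
      ∑ w ∈ Dn r (tot Λ), K 2 Λ w * ∑ i, (3 * s w i ^ 2 - 4 * t i * s w i) ≤
      ∑ j, N (Λ - e j) r * v j ^ 2 := by
  obtain ⟨θ, hθ⟩ : ∃ θ, θ = tot Λ - r 1 := ⟨_, rfl⟩
  obtain ⟨η, hη⟩ : ∃ η, η = v 0 + v 1 - t 1 - t 0 := ⟨_, rfl⟩
  have ht := tot_two Λ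
  have aux : ∀ (β : ℝ) (a0 : ℤ), (θ ≤ Λ 1 → v 1 = t 0 + (β + (Λ 1 - a0) * η)) →
      (θ - 1 ≤ Λ 0 → v 1 = t 1 - (β + (Λ 0 - a0) * η)) →
      (Λ 1 < θ → β + (θ - 1 - a0) * η = 0) →
      (∑ i, t i ^ 2 * N Λ (r + e i) + ∑ a ∈ Icc (max θ (Λ 1)) (Λ 0),
        (6 * (β + (a - a0) * η) ^ 2 - 4 * (t 1 - t 0) * (β + (a - a0) * η)) ≤
        ∑ j, N (Λ - e j) r * v j ^ 2) →
      ∃ s, P1 Λ r 0 s ∧ P2 Λ r v t s ∧ ∑ i, t i ^ 2 * N Λ (r + e i) +
        ∑ w ∈ Dn r (tot Λ), K 2 Λ w * ∑ i, (3 * s w i ^ 2 - 4 * t i * s w i) ≤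
        ∑ j, N (Λ - e j) r * v j ^ 2 := by
    intro β a0 h1 h2 h3 h4
    refine ⟨fun w => ![-(β + (w 0 - a0) * η), β + (w 0 - a0) * η], fun w _ => by simp,
      fun u hu => ?_, ?_⟩
    · rw [le_two] at hu
      simp only [Fin.sum_univ_two, K_two, le_two, Pi.add_apply, Pi.sub_apply, e_self, e01, e10,
        Matrix.cons_val_zero, Matrix.cons_val_one, add_zero, sub_zero]
      push_cast
      by_cases c1 : u 0 = Λ 1 - 1
      · have e1 : (u 0 : ℝ) = Λ 1 - 1 := by rw [c1]; push_cast; rfl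
        unfold ind
        split_ifs <;> first | omega | ring1 | (rw [h1 (by omega), e1]; ring1)
      by_cases c2 : u 0 = Λ 0
      · have e1 : (u 0 : ℝ) = Λ 0 := by rw [c2]
        by_cases c3 : u 0 = θ - 1
        · have e2 : (Λ 0 : ℝ) = θ - 1 := by rw [← c2, c3]; push_cast; rfl
          unfold ind
          split_ifs <;> first | omega | ring1 | (rw [h2 (by omega), e2, h3 (by omega)]; ring1)
        · unfold ind
          split_ifs <;> first | omega | ring1 | (rw [h2 (by omega), e1]; ring1)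
      by_cases c3 : u 0 = θ - 1
      · have e2 : (u 0 : ℝ) = θ - 1 := by rw [c3]; push_cast; rfl
        unfold ind
        split_ifs <;> first | omega | ring1 |
          (have := h3 (by omega); rw [e2]; linear_combination this + hη)
      · unfold ind
        split_ifs <;> first | omega | ring1 | linear_combination hη
    · refine le_of_eq_of_le ?_ h4
      rw [hθ, ← sum_two Λ r hr]
      congr 1
      refine sum_congr rfl fun w _ => ?_
      simp only [Fin.sum_univ_two, Matrix.cons_val_zero, Matrix.cons_val_one]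
      ring
  have n0 := N_two (Λ - e 0) r (by simp; omega)
  have n1 := N_two (Λ - e 1) r (by simpa [e10] using hr)
  have n2 := N_two Λ (r + e 0) (by simp; omega)
  have n3 := N_two Λ (r + e 1) (by simpa [e10] using hr)
  simp only [Pi.add_apply, Pi.sub_apply, e_self, e01, e10, tot_sub, tot_e] at n0 n1 n2 n3
  rw [Bal] at bal
  simp only [Fin.sum_univ_two] at bal
  by_cases c1 : θ ≤ Λ 1
  · obtain ⟨n, hn⟩ : ∃ n : ℕ, Λ 0 = Λ 1 + n := ⟨(Λ 0 - Λ 1).toNat, by omega⟩
    rw [n0 n (by omega), n1 (n + 2) (by omega), n2 (n + 1) (by omega), n3 (n + 1) (by omega)] at bal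
    have hn' : (Λ 0 : ℝ) = Λ 1 + n := by exact_mod_cast hn
    push_cast at bal
    refine aux (v 1 - t 0) (Λ 1) (fun _ => by ring) (fun _ => ?_) (fun h => by omega) ?_
    · rw [hn', hη]; linear_combination bal
    · have := sum_AP (Λ 1) (6 * (v 1 - t 0) ^ 2 - 4 * (t 1 - t 0) * (v 1 - t 0))
        (12 * (v 1 - t 0) * η - 4 * (t 1 - t 0) * η) (6 * η ^ 2) (n + 1)
      rw [max_eq_right c1, show Icc (Λ 1) (Λ 0) = Icc (Λ 1) (Λ 1 + (n + 1 : ℕ) - 1) by
        congr 1; omega, (sum_congr rfl fun a _ => ?_).trans this]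
      · simp only [Fin.sum_univ_two]
        rw [n0 n (by omega), n1 (n + 2) (by omega), n2 (n + 1) (by omega), n3 (n + 1) (by omega)]
        have e1 : t 1 = 2 * v 1 - t 0 + n * η := by rw [hη]; linear_combination -bal
        have e2 : v 0 = η + v 1 + n * η := by rw [e1] at hη; linear_combination -hη
        rw [e2, e1]
        push_cast
        exact le_of_eq (by ring)
      · ring
  by_cases c2 : θ - 1 ≤ Λ 0
  · obtain ⟨n, hn⟩ : ∃ n : ℕ, Λ 0 = θ - 1 + n := ⟨(Λ 0 - (θ - 1)).toNat, by omega⟩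
    rw [n0 n (by omega), n1 (n + 1) (by omega), n2 n (by omega), n3 (n + 1) (by omega)] at bal
    have hn' : (Λ 0 : ℝ) = θ - 1 + n := by exact_mod_cast hn
    push_cast at bal
    refine aux 0 (θ - 1) (fun h => absurd h c1) (fun _ => ?_) (fun h => by push_cast; ring) ?_
    · rw [hn', hη]; push_cast; linear_combination bal
    · have := sum_AP θ (6 * η ^ 2 - 4 * (t 1 - t 0) * η)
        (12 * η ^ 2 - 4 * (t 1 - t 0) * η) (6 * η ^ 2) n
      rw [max_eq_left (by omega), show Icc θ (Λ 0) = Icc θ (θ + n - 1) by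
        congr 1; omega, (sum_congr rfl fun a _ => ?_).trans this]
      · simp only [Fin.sum_univ_two]
        rw [n0 n (by omega), n1 (n + 1) (by omega), n2 n (by omega), n3 (n + 1) (by omega)]
        have e1 : t 1 = v 1 + n * η := by rw [hη]; linear_combination -bal
        have e2 : v 0 = η + t 0 + n * η := by rw [e1] at hη; linear_combination -hη
        rw [e2, e1]
        push_cast
        exact le_of_eq (by ring)
      · push_cast; ring
  · refine aux 0 (θ - 1) (fun h => absurd h c1) (fun h => absurd h c2)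
      (fun h => by push_cast; ring) ?_
    rw [Icc_eq_empty (by omega), sum_empty]
    simp only [Fin.sum_univ_two]
    rw [n0 0 (by omega), n1 0 (by omega), n2 0 (by omega), n3 0 (by omega)]
    simp

/-- The two-row table of a point of a box. -/
def tb (L k c : V d) : Fin d → V 2 := fun J => ![k J - L J, c J - (k J - L J)]

def wt (L k : V d) (σ : ℤ) : V 2 := ![tot k - tot L, σ - (tot k - tot L)]

lemma tb_mem {L k c : V d} (h : k ∈ Icc L (L + c)) : tb L k c ∈ Tab (wt L k (tot c)) c := by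
  rw [mem_Icc] at h
  refine mem_Tab.2 ⟨fun J => le_two.2 ?_, ?_, fun J => by simp [tb, tot_two]⟩
  · have h1 : L J ≤ k J := h.1 J
    have h2 : k J ≤ L J + c J := h.2 J
    simp [tb]; omega
  · funext i
    fin_cases i <;> simp [tb, wt, tot, Finset.sum_apply]

lemma sum_tab2 (L c : V d) (r : V 2) (F : V 2 → (Fin d → V 2) → ℝ) :
    ∑ u ∈ Dn r (tot c), ∑ X ∈ Tab u c, F u X =
      ∑ k ∈ Icc L (L + c), ind (wt L k (tot c) ≤ r) * F (wt L k (tot c)) (tb L k c) := by
  classical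
  rw [sum_sigma']
  symm
  refine sum_bij_ne_zero (fun k _ _ => ⟨wt L k (tot c), tb L k c⟩) (fun k hk hne => ?_)
    (fun a _ _ b _ _ hab => ?_) (fun p hp hne => ?_) fun k hk hne => ?_
  · exact mem_sigma.2 ⟨mem_Dn.2 ⟨ind_ne (left_ne_zero_of_mul hne), by simp [wt, tot_two]⟩,
      tb_mem hk⟩
  · funext J
    have := congrArg (fun p : Σ _ : V 2, Fin d → V 2 => p.2 J 0) hab
    simpa [tb] using this
  · obtain ⟨u, X⟩ := p
    obtain ⟨h1, h2⟩ := mem_sigma.1 hp
    have h3 := mem_Tab.1 h2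
    have e1 : tb L (fun J => L J + X J 0) c = X := by
      funext J i
      have := h3.2.2 J
      rw [tot_two] at this
      fin_cases i <;> simp [tb]
      dsimp only at this
      omega
    have hk : (fun J => L J + X J 0) ∈ Icc L (L + c) := by
      refine mem_Icc.2 ⟨fun J => ?_, fun J => ?_⟩
      · have : 0 ≤ X J 0 := h3.1 J 0
        dsimp only; omega
      · have : 0 ≤ X J 1 := h3.1 J 1
        have := h3.2.2 J
        rw [tot_two] at this
        simp only [Pi.add_apply] at *; omega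
    have e2 : wt L (fun J => L J + X J 0) (tot c) = u := by
      rw [← (mem_Tab.1 (tb_mem hk)).2.1, e1]; exact h3.2.1
    refine ⟨_, hk, ?_, by rw [e1, e2]⟩
    rw [e1, e2, ind_pos (mem_Dn.1 h1).1, one_mul]
    exact hne
  · rw [ind_pos (ind_ne (left_ne_zero_of_mul hne)), one_mul]

lemma sum_Icc_edge (L U : V d) (j : Fin d) (F : V d → ℝ) :
    ∑ k ∈ Icc L (L + (U - L - e j)), F k = ∑ k ∈ Icc L U, ind (k j < U j) * F k := by
  have h : ∀ k, k ∈ Icc L (L + (U - L - e j)) ↔ k ∈ Icc L U ∧ k j < U j := by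
    intro k
    simp only [mem_Icc, and_assoc, Pi.le_def, Pi.add_apply, Pi.sub_apply]
    refine and_congr_right fun _ => ⟨fun H => ⟨fun i => ?_, ?_⟩, fun H i => ?_⟩
    · have := H i; have := e_nonneg j i; omega
    · have := H j; rw [e_self] at this; omega
    · have := H.1 i; have := e_cases j i k U; omega
  rw [sum_supp (A := Icc L U) (B := Icc L (L + (U - L - e j)))]
  · exact sum_congr rfl fun k hk => by rw [ind_pos ((h k).1 hk).2, one_mul]
  · intro k hk
    rw [h, and_iff_left (ind_ne (left_ne_zero_of_mul hk))]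

theorem tb_of_D {L U : V d} (hD : ∀ u : V 2, D u (U - L)) : TB L U := by
  intro θ γ P Q bal
  set c := U - L with hc
  have hU : L + c = U := by simp [hc]
  let r : V 2 := ![tot c, tot c - (θ - tot L)]
  let t : Fin 2 → ℝ := ![Q, P]
  have hle : ∀ k ∈ Icc L U, tot k - tot L ≤ tot c := fun k hk => by
    have := tot_mono (mem_Icc.1 hk).2
    simp only [hc, tot_sub]; omega
  have w0 : ∀ k ∈ Icc L U, (wt L k (tot c) ≤ r ↔ θ ≤ tot k) := fun k hk => by
    have := hle k hk
    simp [le_two, wt, r]; omega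
  have w1 : ∀ k ∈ Icc L U, (wt L k (tot c - 1) ≤ r ↔ θ - 1 ≤ tot k) := fun k hk => by
    have := hle k hk
    simp [le_two, wt, r]; omega
  have edge : ∀ (J : Fin d) (F : V 2 → (Fin d → V 2) → ℝ),
      ∑ u ∈ Dn r (tot c - 1), ∑ X ∈ Tab u (c - e J), F u X = ∑ k ∈ Icc L U,
        ind (θ - 1 ≤ tot k) * (ind (k J < U J) * F (wt L k (tot c - 1)) (tb L k (c - e J))) := by
    intro J F
    have := sum_tab2 L (c - e J) r F
    rw [tot_sub, tot_e] at this
    rw [this, hc, sum_Icc_edge]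
    exact sum_congr rfl fun k hk => by rw [ind_congr (w1 k hk)]; ring
  have v0 : ∑ w ∈ Dn (r + e 0) (tot c), S w c = ∑ k ∈ Icc L U, ind (θ ≤ tot k) := by
    rw [sum_congr rfl fun w _ => S.eq_1 w c, sum_tab2 L c _ fun _ _ => 1, hU]
    refine sum_congr rfl fun k hk => ?_
    have := hle k hk
    rw [mul_one]
    exact ind_congr (by
      simp only [le_two, Pi.add_apply, e_self, e01, wt, r, Matrix.cons_val_zero,
        Matrix.cons_val_one]; omega)
  have v1 : ∑ w ∈ Dn (r + e 1) (tot c), S w c = ∑ k ∈ Icc L U, ind (θ - 1 ≤ tot k) := by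
    rw [sum_congr rfl fun w _ => S.eq_1 w c, sum_tab2 L c _ fun _ _ => 1, hU]
    refine sum_congr rfl fun k hk => ?_
    have := hle k hk
    rw [mul_one]
    exact ind_congr (by
      simp only [le_two, Pi.add_apply, e_self, e10, wt, r, Matrix.cons_val_zero,
        Matrix.cons_val_one]; omega)
  obtain ⟨v, ⟨l1, l2⟩, hmin⟩ := col_min (r := r) (g := γ) (g0 := 0) (t := t) hD (by
    rw [sum_comm, zero_mul, add_zero, Fin.sum_univ_two, v0, v1]
    simp only [← mul_sum, S, edge, mul_one, bal, t, Matrix.cons_val_zero, Matrix.cons_val_one]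
    ring)
  have hex := fun Λ (hΛ : kap d c Λ ≠ 0) => loc_two ((kap_supp hΛ).2.2 (Fin.zero_le 1)) (by
    have h1 := (kap_supp hΛ).2.1
    have h2 : 0 ≤ Λ 1 := (kap_supp hΛ).1 1
    rw [tot_two] at h1
    simp only [r, Matrix.cons_val_zero]; omega) (l2 Λ hΛ)
  choose! sk p1 p2 en using hex
  obtain ⟨s, a1, a2, a3⟩ := col_avg l1 sk p1 p2
  obtain ⟨Gu, v', x1, l3, l4, en2⟩ := col_one hD a1 a2
  have en3 := hmin v' ⟨l3, l4⟩
  have hs : ∀ k ∈ Icc L U, θ ≤ tot k → s (wt L k (tot c)) 0 = - s (wt L k (tot c)) 1 := by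
    intro k hk h
    have := mul_left_cancel₀ (S_ne.2 ⟨_, tb_mem (hU ▸ hk)⟩) (a1 _ ((w0 k hk).2 h))
    rw [Fin.sum_univ_two] at this
    linarith
  have hX : ∀ k ∈ Icc L U, θ - 1 ≤ tot k → ∀ J, k J < U J →
      Gu (wt L k (tot c - 1)) 0 J (tb L k (c - e J)) =
        γ J - Gu (wt L k (tot c - 1)) 1 J (tb L k (c - e J)) := by
    intro k hk h J hJ
    have h1 : k ∈ Icc L (L + (c - e J)) := by
      rw [mem_Icc] at hk ⊢
      refine ⟨hk.1, fun i => ?_⟩
      have : k i ≤ U i := hk.2 i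
      have := e_cases J i k U
      simp only [hc, Pi.add_apply, Pi.sub_apply]; omega
    have h2 := tb_mem h1
    rw [tot_sub, tot_e] at h2
    have := (x1 _ ((w1 k hk).2 h)).1 J _ h2
    rw [Fin.sum_univ_two] at this
    linarith
  refine ⟨fun k J => Gu (wt L k (tot c - 1)) 1 J (tb L k (c - e J)),
    fun k => s (wt L k (tot c)) 1, fun k hk h => ?_, fun k hk h => ?_, ?_⟩
  · have e1 : wt L k (tot c - 1) + e 1 = wt L k (tot c) := by
      funext i; fin_cases i <;> simp [wt, e10]; ring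
    have := (x1 _ ((w1 k hk).2 h)).2 1 (tb L k c) (e1 ▸ tb_mem (hU ▸ hk))
    rw [tr, e1, ind_congr (w0 k hk)] at this
    refine Eq.trans (sum_congr rfl fun J _ => ?_) this
    congr 1
    · exact ind_congr (by simp [tb, hc]; omega)
    · beta_reduce
      congr 1
      funext K i
      by_cases hK : K = J
      · subst hK; fin_cases i <;> simp [tb, e10]; ring
      · fin_cases i <;> simp [tb, hK, e_ne hK]
  · let u : V 2 := ![tot k - tot L - 1, tot c - (tot k - tot L)]
    have e1 : u + e 0 = wt L k (tot c) := by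
      funext i; fin_cases i <;> simp [wt, u, e01]
    have hu : u ≤ r := by
      have := hle k hk
      simp [le_two, u, r]; omega
    have := (x1 _ hu).2 0 (tb L k c) (e1 ▸ tb_mem (hU ▸ hk))
    rw [tr, e1, ind_pos ((w0 k hk).2 h), hs k hk h, one_mul, sub_neg_eq_add] at this
    refine Eq.trans (sum_congr rfl fun J _ => ?_) this
    rw [ind_congr (show 1 ≤ tb L k c J 0 ↔ L J < k J by simp [tb]; omega)]
    refine ind_mul_congr fun hJ => ?_
    have h1 : k - e J ∈ Icc L U := by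
      rw [mem_Icc] at hk ⊢
      refine ⟨fun i => ?_, (sub_le_self _ (e_nonneg J)).trans hk.2⟩
      have : L i ≤ k i := hk.1 i
      have := e_cases J i k L
      simp only [Pi.sub_apply]; omega
    rw [← hX _ h1 (by simp; omega) J (by
      have : k J ≤ U J := (mem_Icc.1 hk).2 J
      simp; omega)]
    congr 1
    · funext i; fin_cases i <;> simp [wt, u] <;> ring
    · funext K i
      by_cases hK : K = J
      · subst hK; fin_cases i <;> simp [tb, e01] <;> ring
      · fin_cases i <;> simp [tb, hK, e_ne hK]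
  · have b1 : ∑ u ∈ Dn r (tot c - 1), ∑ J, γ J ^ 2 * S u (c - e J) -
        ∑ u ∈ Dn r (tot c - 1), EX u c (Gu u) = ∑ k ∈ Icc L U, ind (θ - 1 ≤ tot k) *
          ∑ J, ind (k J < U J) * (2 * Gu (wt L k (tot c - 1)) 1 J (tb L k (c - e J)) *
            (γ J - Gu (wt L k (tot c - 1)) 1 J (tb L k (c - e J)))) := by
      simp only [EX, Fin.sum_univ_two, S, mul_sum, ← sum_add_distrib, ← sum_sub_distrib]
      rw [sum_comm, sum_comm (s := Icc L U)]
      refine sum_congr rfl fun J _ => ?_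
      rw [edge]
      refine sum_congr rfl fun k hk => ind_mul_congr fun h1 => ind_mul_congr fun h2 => ?_
      rw [hX k hk h1 J h2]; ring
    have b2 : ∑ k ∈ Icc L U, ind (θ ≤ tot k) * (4 * s (wt L k (tot c)) 1 ^ 2 -
        2 * s (wt L k (tot c)) 1 * (P - Q)) = ∑ w ∈ Dn r (tot c), S w c *
          ∑ i, (2 * s w i ^ 2 - 2 * t i * s w i) := by
      simp only [S, sum_mul, one_mul]
      rw [sum_tab2 L c r fun w _ => ∑ i, (2 * s w i ^ 2 - 2 * t i * s w i), hU]
      refine sum_congr rfl fun k hk => ?_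
      rw [ind_congr (w0 k hk)]
      refine ind_mul_congr fun h => ?_
      rw [Fin.sum_univ_two, hs k hk h]
      simp only [t, Matrix.cons_val_zero, Matrix.cons_val_one]
      ring
    have b3 := a3 3 (fun i => 4 * t i) zero_le_three
    have b4 : ∑ i, t i ^ 2 * ∑ w ∈ Dn (r + e i) (tot c), S w c +
        ∑ Λ ∈ Lev 2 (tot c), kap d c Λ * ∑ w ∈ Dn r (tot Λ), K 2 Λ w *
          ∑ i, (3 * sk Λ w i ^ 2 - 4 * t i * sk Λ w i) ≤ EL r c v := by
      simp only [← sum_kap_N, mul_sum (s := Lev 2 _)]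
      rw [EL_eq, sum_comm, ← sum_add_distrib]
      refine sum_le_sum fun Λ _ => ?_
      simp only [mul_left_comm (t _ ^ 2), ← mul_sum (s := univ)]
      rw [← mul_add]
      exact mul_le_ne (kap_nonneg _ _) (en Λ)
    have b5 : ∑ w ∈ Dn r (tot c), S w c * ∑ i, (3 * s w i ^ 2 - 4 * t i * s w i) =
        ∑ w ∈ Dn r (tot c), S w c * ∑ i, (2 * s w i ^ 2 - 2 * t i * s w i) +
        ∑ w ∈ Dn r (tot c), S w c * ∑ i, (s w i ^ 2 - 2 * t i * s w i) := by
      rw [← sum_add_distrib]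
      refine sum_congr rfl fun w _ => ?_
      rw [← mul_add, ← sum_add_distrib]
      exact congrArg _ (sum_congr rfl fun i _ => by ring)
    beta_reduce
    rw [← b1, b2]
    linarith

theorem tb_pt (L : V d) : TB L L := by
  intro θ γ P Q bal
  have h : ∀ j, ind (L j < L j) = 0 := fun j => ind_neg (lt_irrefl _)
  simp only [Icc_self, sum_singleton, h, mul_zero, sum_const_zero] at bal
  refine ⟨0, fun _ => P, ?_⟩
  simp only [BoxC, Icc_self, mem_singleton, forall_eq, h, sum_singleton, zero_mul, sum_const_zero,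
    mul_zero]
  by_cases h1 : θ ≤ tot L
  · rw [ind_pos h1, ind_pos (by omega)] at bal
    rw [ind_pos h1]
    have : Q = -P := by linarith
    subst this
    exact ⟨fun _ => by ring, fun _ => by ring, le_of_eq (by ring)⟩
  · rw [ind_neg h1] at bal ⊢
    refine ⟨fun h2 => ?_, fun h2 => absurd h2 h1, by simp⟩
    rw [ind_pos h2] at bal
    linarith

end Vale.Agent.P328
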